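import Vale.Agent.P126.Spread

namespace Vale.Agent.P126

open Finset

set_option linter.unusedSectionVars false

variable {Ω : Type} [Fintype Ω] [DecidableEq Ω]

lemma prob_match {X : Type} [Fintype X] (μ : X → ℝ) (h1 : ∑ a, μ a = 1) (S : Finset Ω)
    (g : Ω → X) {β : ℝ} (hg : ∀ p, μ (g p) = β) :
    ∑ ψ : Ω → X, (∏ p, μ (ψ p)) * ind (∀ p ∈ S, ψ p = g p) = β ^ S.card := by
  have := sum_prod_pi (fun p a => μ a * if p ∈ S then ind (g p = a) else 1)
  have e : ∀ p, ∑ a, μ a * (if p ∈ S then ind (g p = a) else 1) = if p ∈ S then β else 1 := by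
    intro p
    split_ifs with hp
    · simp_rw [mul_comm (μ _)]; rw [sum_ind_eq, hg]
    · simp [h1]
  simp_rw [e] at this
  rw [Finset.prod_ite_mem, Finset.univ_inter, Finset.prod_const] at this
  rw [← this]
  refine Finset.sum_congr rfl fun ψ _ => ?_
  rw [Finset.prod_mul_distrib, Finset.prod_ite_mem, Finset.univ_inter]
  congr 1
  by_cases h : ∀ p ∈ S, ψ p = g p
  · rw [ind_pos h]
    exact (Finset.prod_eq_one fun p hp => ind_pos (h p hp).symm).symm
  · rw [ind_neg h]
    push Not at h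
    obtain ⟨p, hp, hp'⟩ := h
    exact (Finset.prod_eq_zero hp (ind_neg (Ne.symm hp'))).symm

lemma second_moment {X : Type} [Fintype X] (μ : X → ℝ) (h0 : ∀ a, 0 ≤ μ a) (h1 : ∑ a, μ a = 1)
    (G G' : Finset (Finset Ω)) (hsub : G' ⊆ G) (hhalf : (G.card : ℝ) ≤ 2 * G'.card)
    (hne : G.Nonempty) {i : ℕ} (hi : ∀ R ∈ G, R.card = i) {σ K : ℝ} (hσ : 0 ≤ σ) (hK : 0 < K)
    (hspread : ∀ Y : Finset Ω, Y.Nonempty → ∑ R ∈ G, ind (Y ⊆ R) ≤ G.card * σ ^ Y.card)
    (hKσ : 2 ^ (i + 4) * (K * σ) ≤ 1) (g : Finset Ω → Ω → X) (hg : ∀ R p, μ (g R p) = 1 / K) :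
    ∑ ψ : Ω → X, (∏ p, μ (ψ p)) * ind (¬ ∃ R ∈ G', ∀ p ∈ R, ψ p = g R p) ≤ 1 / 8 := by
  set P : (Ω → X) → ℝ := fun ψ => ∏ p, μ (ψ p) with hP
  have hP0 : ∀ ψ, 0 ≤ P ψ := fun ψ => Finset.prod_nonneg fun p _ => h0 _
  have hP1 : ∑ ψ, P ψ = 1 := sum_prod_one μ h1
  set β := 1 / K with hβ
  have hβ0 : 0 < β := by positivity
  set n : ℝ := (G'.card : ℝ) with hn
  have hn0 : 0 < n := by
    have : (0 : ℝ) < G.card := by exact_mod_cast hne.card_pos
    linarith
  set S : (Ω → X) → ℝ := fun ψ => ∑ R ∈ G', ind (∀ p ∈ R, ψ p = g R p) with hS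
  set m := n * β ^ i with hm
  have hm0 : 0 < m := by positivity
  have hE : ∑ ψ, P ψ * S ψ = m := by
    simp only [hS, Finset.mul_sum]
    rw [Finset.sum_comm, hm, hn, ← nsmul_eq_mul, ← Finset.sum_const]
    refine Finset.sum_congr rfl fun R hR => ?_
    rw [prob_match μ h1 R (g R) (hg R), hi R (hsub hR)]
  have hKσ1 : K * σ ≤ 1 := by
    have : (1 : ℝ) ≤ 2 ^ (i + 4) := one_le_pow₀ one_le_two
    nlinarith [mul_nonneg hK.le hσ]
  have hE2 : ∑ ψ, P ψ * S ψ ^ 2 ≤ m ^ 2 * (1 + 1 / 8) := by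
    simp only [hS, sq]
    simp only [Finset.sum_mul_sum]
    simp only [Finset.mul_sum]
    rw [Finset.sum_comm]
    calc _ ≤ ∑ _R ∈ G', β ^ i * β ^ i * (n * (1 + 1 / 8)) := by
          refine Finset.sum_le_sum fun R hR => ?_
          rw [Finset.sum_comm]
          calc _ ≤ ∑ R' ∈ G', β ^ i * β ^ i *
                (1 + ∑ Y ∈ R.powerset.filter Finset.Nonempty, K ^ Y.card * ind (Y ⊆ R')) := by
                refine Finset.sum_le_sum fun R' hR' => ?_
                have a1 : ∑ ψ, P ψ * (ind (∀ p ∈ R, ψ p = g R p) * ind (∀ p ∈ R', ψ p = g R' p)) ≤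
                    β ^ (R ∪ R').card := by
                  rw [← prob_match μ h1 (R ∪ R') (fun p => if p ∈ R then g R p else g R' p)
                    (β := β) (fun p => by split_ifs <;> exact hg _ _)]
                  refine Finset.sum_le_sum fun ψ _ => mul_le_mul_of_nonneg_left ?_ (hP0 ψ)
                  rw [← ind_and]
                  refine ind_mono fun h p hp => ?_
                  split_ifs with hpR
                  · exact h.1 p hpR
                  · exact h.2 p ((Finset.mem_union.1 hp).resolve_left hpR)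
                have a2 : β ^ (R ∪ R').card = β ^ i * β ^ i * K ^ (R ∩ R').card := by
                  have := Finset.card_union_add_card_inter R R'
                  rw [hi R (hsub hR), hi R' (hsub hR')] at this
                  rw [← pow_add, ← this, pow_add, mul_assoc, ← mul_pow, hβ, one_div_mul_cancel hK.ne',
                    one_pow, mul_one]
                refine a1.trans (a2.trans_le (mul_le_mul_of_nonneg_left ?_ (by positivity)))
                have a3 : ∀ Y ∈ R.powerset.filter Finset.Nonempty, 0 ≤ K ^ Y.card * ind (Y ⊆ R') :=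
                  fun Y _ => mul_nonneg (by positivity) (ind_nonneg _)
                rcases (R ∩ R').eq_empty_or_nonempty with h | h
                · rw [h, Finset.card_empty, pow_zero]
                  linarith [Finset.sum_nonneg a3]
                · have a4 := Finset.single_le_sum a3 (Finset.mem_filter.2
                    ⟨Finset.mem_powerset.2 Finset.inter_subset_left, h⟩)
                  rw [ind_pos Finset.inter_subset_right, mul_one] at a4
                  linarith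
            _ = β ^ i * β ^ i * (n + ∑ Y ∈ R.powerset.filter Finset.Nonempty,
                K ^ Y.card * ∑ R' ∈ G', ind (Y ⊆ R')) := by
                rw [← Finset.mul_sum, Finset.sum_add_distrib, Finset.sum_comm]
                simp only [Finset.mul_sum, Finset.sum_const, nsmul_eq_mul, mul_one, hn]
            _ ≤ β ^ i * β ^ i * (n + ∑ _Y ∈ R.powerset.filter Finset.Nonempty, 2 * n * (K * σ)) := by
                refine mul_le_mul_of_nonneg_left (add_le_add_right
                  (Finset.sum_le_sum fun Y hY => ?_) _) (by positivity)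
                have hY' := (Finset.mem_filter.1 hY).2
                have b1 : ∑ R' ∈ G', ind (Y ⊆ R') ≤ G.card * σ ^ Y.card :=
                  (Finset.sum_le_sum_of_subset_of_nonneg hsub fun _ _ _ => ind_nonneg _).trans
                    (hspread Y hY')
                have b2 : (K * σ) ^ Y.card ≤ K * σ :=
                  pow_le_of_le_one (by positivity) hKσ1 hY'.card_pos.ne'
                calc K ^ Y.card * ∑ R' ∈ G', ind (Y ⊆ R') ≤ K ^ Y.card * (G.card * σ ^ Y.card) :=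
                      mul_le_mul_of_nonneg_left b1 (by positivity)
                  _ = G.card * (K * σ) ^ Y.card := by rw [mul_pow]; ring
                  _ ≤ 2 * n * (K * σ) := by gcongr
            _ ≤ β ^ i * β ^ i * (n * (1 + 1 / 8)) := by
                refine mul_le_mul_of_nonneg_left ?_ (by positivity)
                rw [Finset.sum_const, nsmul_eq_mul]
                have b1 : ((R.powerset.filter Finset.Nonempty).card : ℝ) ≤ 2 ^ i := by
                  rw [← hi R (hsub hR)]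
                  exact_mod_cast (Finset.card_filter_le _ _).trans (Finset.card_powerset R).le
                have b2 : (2 : ℝ) ^ i * (2 * n * (K * σ)) = n / 8 * (2 ^ (i + 4) * (K * σ)) := by ring
                have b3 := mul_le_mul_of_nonneg_right b1 (by positivity : 0 ≤ 2 * n * (K * σ))
                nlinarith
      _ = n * β ^ i * (n * β ^ i) * (1 + 1 / 8) := by
          rw [Finset.sum_const, nsmul_eq_mul]; ring
  have h3 : ∑ ψ, P ψ * ind (¬ ∃ R ∈ G', ∀ p ∈ R, ψ p = g R p) * m ^ 2 ≤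
      ∑ ψ, P ψ * (S ψ - m) ^ 2 := by
    refine Finset.sum_le_sum fun ψ _ => ?_
    rw [mul_assoc]
    refine mul_le_mul_of_nonneg_left ?_ (hP0 ψ)
    by_cases h : ∃ R ∈ G', ∀ p ∈ R, ψ p = g R p
    · rw [ind_neg (not_not.2 h), zero_mul]; positivity
    · have : S ψ = 0 := Finset.sum_eq_zero fun R hR => ind_neg fun h' => h ⟨R, hR, h'⟩
      rw [ind_pos h, this]; simp
  have h4 : ∑ ψ, P ψ * (S ψ - m) ^ 2 = ∑ ψ, P ψ * S ψ ^ 2 - m ^ 2 := by
    have : ∀ ψ, P ψ * (S ψ - m) ^ 2 = P ψ * S ψ ^ 2 - 2 * m * (P ψ * S ψ) + m ^ 2 * P ψ :=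
      fun ψ => by ring
    simp_rw [this, Finset.sum_add_distrib, Finset.sum_sub_distrib, ← Finset.mul_sum, hE, hP1]
    ring
  rw [← Finset.sum_mul] at h3
  refine le_of_mul_le_mul_right ?_ (pow_pos hm0 2)
  linarith

lemma colour_round {κ : Type} {w T : ℕ} (hT : 0 < T) (G G' : Finset (Finset Ω)) (hsub : G' ⊆ G)
    (hhalf : (G.card : ℝ) ≤ 2 * G'.card) (hne : G.Nonempty) {i : ℕ} (hi0 : 0 < i)
    (hi : ∀ R ∈ G, R.card = i) {σ K : ℝ} (hσ : 0 ≤ σ) (hK0 : 0 < K) (hK : 8 * i * T * w ≤ K)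
    (hspread : ∀ Y : Finset Ω, Y.Nonempty → ∑ R ∈ G, ind (Y ⊆ R) ≤ G.card * σ ^ Y.card)
    (hKσ : 2 ^ (i + 4) * (K * σ) ≤ 1) (M : Finset κ) (hM : M.Nonempty)
    (g : Finset Ω → κ → Ω → Fin w) :
    ∃ ψ : Ω → Option (Fin w), 2 * T * ∑ R ∈ G, ind (∃ p ∈ R, ψ p ≠ none) ≤ G.card ∧
      2 * ∑ m ∈ M, ind (¬ ∃ R ∈ G', ∀ p ∈ R, ψ p = some (g R m p)) ≤ M.card := by
  set μ : Option (Fin w) → ℝ := fun o => o.elim (1 - w / K) fun _ => 1 / K with hμ
  have hi1 : (1 : ℝ) ≤ i := by exact_mod_cast hi0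
  have hT1 : (1 : ℝ) ≤ T := by exact_mod_cast hT
  have hw0 : (0 : ℝ) ≤ w := Nat.cast_nonneg w
  have hμ0 : ∀ o, 0 ≤ μ o := by
    rintro (_ | j)
    · simp only [hμ, Option.elim_none, sub_nonneg]
      rw [div_le_one hK0]
      have : (1 : ℝ) ≤ i * T := one_le_mul_of_one_le_of_one_le hi1 hT1
      nlinarith
    · simp only [hμ, Option.elim_some]; positivity
  have hμ1 : ∑ o, μ o = 1 := by
    rw [Fintype.sum_option]
    simp [hμ]; ring
  set P : (Ω → Option (Fin w)) → ℝ := fun ψ => ∏ p, μ (ψ p) with hP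
  have hP0 : ∀ ψ, 0 ≤ P ψ := fun ψ => Finset.prod_nonneg fun p _ => hμ0 _
  have hP1 : ∑ ψ, P ψ = 1 := sum_prod_one μ hμ1
  have hG0 : (0 : ℝ) < G.card := by exact_mod_cast hne.card_pos
  have hM0 : (0 : ℝ) < M.card := by exact_mod_cast hM.card_pos
  have h1 : ∑ ψ, P ψ * ∑ R ∈ G, ind (∃ p ∈ R, ψ p ≠ none) ≤ G.card * (i * (w / K)) := by
    simp_rw [Finset.mul_sum]
    rw [Finset.sum_comm, ← nsmul_eq_mul, ← Finset.sum_const]
    refine Finset.sum_le_sum fun R hR => ?_
    calc _ ≤ ∑ ψ, P ψ * ∑ p ∈ R, ind (ψ p ≠ none) :=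
          Finset.sum_le_sum fun ψ _ => mul_le_mul_of_nonneg_left (ind_le_sum _ _ id) (hP0 ψ)
      _ = ∑ p ∈ R, ∑ ψ, P ψ * ind (ψ p ≠ none) := by
          simp_rw [Finset.mul_sum]; rw [Finset.sum_comm]
      _ = ∑ _p ∈ R, w / K := by
          refine Finset.sum_congr rfl fun p _ => ?_
          rw [sum_prod_marginal μ (fun o => ind (o ≠ none)) hμ1 p, Fintype.sum_option]
          simp [hμ, ind]; ring
      _ = i * (w / K) := by rw [Finset.sum_const, nsmul_eq_mul, hi R hR]
  have h2 : ∑ ψ, P ψ * ∑ m ∈ M, ind (¬ ∃ R ∈ G', ∀ p ∈ R, ψ p = some (g R m p)) ≤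
      M.card * (1 / 8) := by
    simp_rw [Finset.mul_sum]
    rw [Finset.sum_comm, ← nsmul_eq_mul, ← Finset.sum_const]
    exact Finset.sum_le_sum fun m _ => second_moment μ hμ0 hμ1 G G' hsub hhalf hne hi hσ hK0
      hspread hKσ (fun R p => some (g R m p)) fun _ _ => rfl
  have h3 : ∑ ψ, P ψ * ((2 * T / G.card) * ∑ R ∈ G, ind (∃ p ∈ R, ψ p ≠ none) +
      (2 / M.card) * ∑ m ∈ M, ind (¬ ∃ R ∈ G', ∀ p ∈ R, ψ p = some (g R m p))) ≤ 1 := by
    simp_rw [mul_add, mul_left_comm (P _)]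
    rw [Finset.sum_add_distrib, ← Finset.mul_sum, ← Finset.mul_sum]
    have a1 := mul_le_mul_of_nonneg_left h1 (by positivity : (0 : ℝ) ≤ 2 * T / G.card)
    have a2 := mul_le_mul_of_nonneg_left h2 (by positivity : (0 : ℝ) ≤ 2 / M.card)
    have a3 : (2 * T / G.card : ℝ) * (G.card * (i * (w / K))) = (8 * i * T * w / K) / 4 := by
      field_simp; ring
    have a4 : (2 / M.card : ℝ) * (M.card * (1 / 8)) = 1 / 4 := by field_simp; norm_num
    have a5 : (8 * i * T * w / K : ℝ) ≤ 1 := (div_le_one hK0).2 hK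
    linarith
  obtain ⟨ψ, -, hψ⟩ := exists_le_of_wsum_le P _ hP0 hP1 h3
  have b1 : 0 ≤ ∑ R ∈ G, ind (∃ p ∈ R, ψ p ≠ none) := Finset.sum_nonneg fun _ _ => ind_nonneg _
  have b2 : 0 ≤ ∑ m ∈ M, ind (¬ ∃ R ∈ G', ∀ p ∈ R, ψ p = some (g R m p)) :=
    Finset.sum_nonneg fun _ _ => ind_nonneg _
  refine ⟨ψ, ?_, ?_⟩
  · have : (2 * T / G.card) * ∑ R ∈ G, ind (∃ p ∈ R, ψ p ≠ none) ≤ 1 := by
      linarith [mul_nonneg (by positivity : (0 : ℝ) ≤ 2 / M.card) b2]
    rwa [div_mul_eq_mul_div, div_le_one hG0] at this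
  · have : (2 / M.card) * ∑ m ∈ M, ind (¬ ∃ R ∈ G', ∀ p ∈ R, ψ p = some (g R m p)) ≤ 1 := by
      linarith [mul_nonneg (by positivity : (0 : ℝ) ≤ 2 * T / G.card) b1]
    rwa [div_mul_eq_mul_div, div_le_one hM0] at this

theorem colouring {κ : Type} {w T : ℕ} (hw : 0 < w) (hT : 0 < T) (G : Finset (Finset Ω))
    (hne : G.Nonempty) {i : ℕ} (hi0 : 0 < i)
    (hi : ∀ R ∈ G, R.card = i) {σ K : ℝ} (hσ : 0 ≤ σ) (hK0 : 0 < K) (hK : 8 * i * T * w ≤ K)
    (hspread : ∀ Y : Finset Ω, Y.Nonempty → ∑ R ∈ G, ind (Y ⊆ R) ≤ G.card * σ ^ Y.card)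
    (hKσ : 2 ^ (i + 4) * (K * σ) ≤ 1) (M : Finset κ) (hM : M.card < 2 ^ T)
    (g : Finset Ω → κ → Ω → Fin w) :
    ∃ χ : Ω → Fin w, ∀ m ∈ M, ∃ R ∈ G, ∀ p ∈ R, χ p = g R m p := by
  classical
  have key : ∀ j ≤ T, ∃ (U : Finset Ω) (χ : Ω → Fin w) (rem : Finset κ),
      rem.card * 2 ^ j ≤ M.card ∧
      (∀ m ∈ M, m ∉ rem → ∃ R ∈ G, R ⊆ U ∧ ∀ p ∈ R, χ p = g R m p) ∧
      2 * T * ∑ R ∈ G, ind (¬ Disjoint R U) ≤ j * G.card := by
    intro j
    induction j with
    | zero => exact fun _ => ⟨∅, fun _ => ⟨0, hw⟩, M, by simp, fun m h h' => absurd h h', by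
        simp [ind_neg]⟩
    | succ j ih =>
      intro hj
      obtain ⟨U, χ, rem, h1, h2, h3⟩ := ih (by omega)
      have hG0 : (0 : ℝ) ≤ G.card := Nat.cast_nonneg _
      rcases rem.eq_empty_or_nonempty with h | h
      · refine ⟨U, χ, rem, by simp [h], h2, h3.trans ?_⟩
        push_cast; nlinarith
      set G' := G.filter fun R => Disjoint R U with hG'
      have hhalf : (G.card : ℝ) ≤ 2 * G'.card := by
        have a1 : ∑ R ∈ G, ind (¬ Disjoint R U) = G.card - G'.card := by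
          simp_rw [ind_not]
          rw [Finset.sum_sub_distrib, sum_ind_card]; simp [hG']
        have a2 : (j : ℝ) ≤ T := by exact_mod_cast (by omega : j ≤ T)
        have a3 : (0 : ℝ) < T := by exact_mod_cast hT
        rw [a1] at h3
        refine le_of_mul_le_mul_left ?_ a3
        nlinarith
      obtain ⟨ψ, hψ1, hψ2⟩ := colour_round hT G G' (Finset.filter_subset _ _) hhalf hne hi0 hi hσ
        hK0 hK hspread hKσ rem h g
      refine ⟨U ∪ univ.filter fun p => ψ p ≠ none, fun p => if p ∈ U then χ p else (ψ p).getD (χ p),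
        rem.filter fun m => ¬ ∃ R ∈ G', ∀ p ∈ R, ψ p = some (g R m p), ?_, fun m hm hm' => ?_, ?_⟩
      · rw [sum_ind_card] at hψ2
        have : 2 * (rem.filter fun m => ¬ ∃ R ∈ G', ∀ p ∈ R, ψ p = some (g R m p)).card ≤
            rem.card := by exact_mod_cast hψ2
        calc _ = (2 * (rem.filter fun m => ¬ ∃ R ∈ G', ∀ p ∈ R, ψ p = some (g R m p)).card) *
              2 ^ j := by ring
          _ ≤ rem.card * 2 ^ j := Nat.mul_le_mul_right _ this
          _ ≤ M.card := h1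
      · by_cases hr : m ∈ rem
        · have : ∃ R ∈ G', ∀ p ∈ R, ψ p = some (g R m p) := by
            by_contra hcon
            exact hm' (Finset.mem_filter.2 ⟨hr, hcon⟩)
          obtain ⟨R, hR, hR'⟩ := this
          rw [Finset.mem_filter] at hR
          refine ⟨R, hR.1, fun p hp => Finset.mem_union_right _ (by simp [hR' p hp]),
            fun p hp => ?_⟩
          simp [Finset.disjoint_left.1 hR.2 hp, hR' p hp]
        · obtain ⟨R, hR, hRU, hR'⟩ := h2 m hm hr
          exact ⟨R, hR, hRU.trans Finset.subset_union_left, fun p hp => by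
            simp [hRU hp, hR' p hp]⟩
      · have a1 : ∑ R ∈ G, ind (¬ Disjoint R (U ∪ univ.filter fun p => ψ p ≠ none)) ≤
            ∑ R ∈ G, ind (¬ Disjoint R U) + ∑ R ∈ G, ind (∃ p ∈ R, ψ p ≠ none) := by
          rw [← Finset.sum_add_distrib]
          refine Finset.sum_le_sum fun R _ => ?_
          by_cases b1 : Disjoint R U
          · rw [ind_neg (not_not.2 b1), zero_add]
            refine ind_mono fun h => ?_
            rw [Finset.disjoint_union_right, not_and] at h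
            obtain ⟨p, hp, hp'⟩ := Finset.not_disjoint_iff.1 (h b1)
            exact ⟨p, hp, (Finset.mem_filter.1 hp').2⟩
          · rw [ind_pos b1]
            linarith [ind_le_one (¬ Disjoint R (U ∪ univ.filter fun p => ψ p ≠ none)),
              ind_nonneg (∃ p ∈ R, ψ p ≠ none)]
        have a2 := mul_le_mul_of_nonneg_left a1 (by positivity : (0 : ℝ) ≤ 2 * T)
        push_cast
        linarith
  obtain ⟨U, χ, rem, h1, h2, -⟩ := key T le_rfl
  have : rem = ∅ := by
    rw [← Finset.card_eq_zero]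
    by_contra h
    have : 1 * 2 ^ T ≤ rem.card * 2 ^ T := Nat.mul_le_mul_right _ (by omega)
    omega
  refine ⟨χ, fun m hm => ?_⟩
  obtain ⟨R, hR, -, hR'⟩ := h2 m hm (by simp [this])
  exact ⟨R, hR, hR'⟩

end Vale.Agent.P126
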