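import Vale.Agent.P126.Generic
import Vale.Agent.P126.Colour

namespace Vale.Agent.P126

open Finset MvPolynomial

set_option linter.unusedSectionVars false

variable {Ω : Type} [Fintype Ω] [DecidableEq Ω] {w : ℕ} {F : Type} [Field F]
  {V : Type} [AddCommGroup V] [Module F V] (z : Ω → Fin w → F)

/-- `φ` kills the ideal generated by the product over `Y`. -/
def Kills (φ : MvPolynomial (Fin w) F →ₗ[F] V) (Y : Finset Ω) : Prop := ∀ β, φ (lp z Y * β) = 0

/-- `φ` kills homogeneous polynomials of degree below `d`. -/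
def Low (φ : MvPolynomial (Fin w) F →ₗ[F] V) (d : ℕ) : Prop :=
  ∀ (g : MvPolynomial (Fin w) F) (n : ℕ), g.IsHomogeneous n → n < d → φ g = 0

/-- Minimal killing sets. -/
def MinK (φ : MvPolynomial (Fin w) F →ₗ[F] V) (Y : Finset Ω) : Prop :=
  Kills z φ Y ∧ ∀ Y' ⊂ Y, ¬ Kills z φ Y'

/-- `φ` composed with multiplication by the product over `Y`. -/
noncomputable def shift (φ : MvPolynomial (Fin w) F →ₗ[F] V) (Y : Finset Ω) :
    MvPolynomial (Fin w) F →ₗ[F] V := φ ∘ₗ LinearMap.mulLeft F (lp z Y)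

lemma shift_apply (φ : MvPolynomial (Fin w) F →ₗ[F] V) (Y : Finset Ω) (β) :
    shift z φ Y β = φ (lp z Y * β) := rfl

lemma lp_union {Y Y' : Finset Ω} (h : Disjoint Y Y') : lp z (Y ∪ Y') = lp z Y * lp z Y' :=
  Finset.prod_union h

lemma lp_sdiff {Y Y' : Finset Ω} (h : Y ⊆ Y') : lp z Y' = lp z Y * lp z (Y' \ Y) := by
  rw [← lp_union z Finset.disjoint_sdiff, Finset.union_sdiff_of_subset h]

lemma lp_empty : lp z (∅ : Finset Ω) = 1 := Finset.prod_empty

variable {z}

lemma Kills.mono {φ : MvPolynomial (Fin w) F →ₗ[F] V} {Y Y' : Finset Ω} (h : Kills z φ Y)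
    (hY : Y ⊆ Y') : Kills z φ Y' := fun β => by
  rw [lp_sdiff z hY, mul_assoc]; exact h _

lemma kills_shift {φ : MvPolynomial (Fin w) F →ₗ[F] V} {Y Y' : Finset Ω} (h : Disjoint Y Y') :
    Kills z (shift z φ Y) Y' ↔ Kills z φ (Y ∪ Y') := by
  simp only [Kills, shift_apply, lp_union z h, mul_assoc]

lemma Low.shift {φ : MvPolynomial (Fin w) F →ₗ[F] V} {d d' : ℕ} (h : Low φ d) {Y : Finset Ω}
    (hY : Y.card + d' ≤ d) : Low (shift z φ Y) d' := fun g n hg hn =>
  h _ _ ((lp_hom z Y).mul hg) (by omega)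

lemma kills_empty_of_coloured {d i : ℕ} (hz : Generic z d) (hi : i ≤ d)
    {φ : MvPolynomial (Fin w) F →ₗ[F] V} (hφ : Low φ i) (R : mon w i → Finset Ω)
    (hR : Coloured i R) (hK : ∀ m, Kills z φ (R m)) : Kills z φ ∅ := by
  intro β
  rw [lp_empty, one_mul]
  induction β using MvPolynomial.induction_on' with
  | add p q hp hq => rw [map_add, hp, hq, add_zero]
  | monomial u a =>
    rcases Nat.lt_or_ge u.degree i with h | h
    · exact hφ _ _ (isHomogeneous_monomial a rfl) h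
    · obtain ⟨m', hm', hm''⟩ := Finsupp.exists_le_degree_eq u i h
      obtain ⟨u', rfl⟩ := le_iff_exists_add.1 hm'
      obtain ⟨c, hc⟩ := hz i hi R hR ⟨m', mem_mon.2 hm''⟩
      rw [← one_mul a, ← monomial_mul, hc, Finset.sum_mul, map_sum]
      refine Finset.sum_eq_zero fun m _ => ?_
      rw [smul_mul_assoc, map_smul, hK m, smul_zero]

lemma exists_minK {φ : MvPolynomial (Fin w) F →ₗ[F] V} {Y : Finset Ω} (h : Kills z φ Y) :
    ∃ Y' ⊆ Y, MinK z φ Y' := by
  classical
  obtain ⟨Y', hY', hmin⟩ := Finset.exists_min_image (Y.powerset.filter fun Y' => Kills z φ Y')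
    Finset.card ⟨Y, by simp [h]⟩
  rw [Finset.mem_filter, Finset.mem_powerset] at hY'
  refine ⟨Y', hY'.1, hY'.2, fun Y'' h1 h2 => ?_⟩
  have := hmin Y'' (Finset.mem_filter.2 ⟨Finset.mem_powerset.2 (h1.1.trans hY'.1), h2⟩)
  have := Finset.card_lt_card h1
  omega

/-- Numerical parameters for the counting lemma. -/
structure Par (w d lam : ℕ) : Prop where
  w_pos : 0 < w
  d_pos : 0 < d
  ex : ∃ T, 0 < T ∧ (∀ i ≤ d, (mon w i).card < 2 ^ T) ∧ 2 ^ (d + 4) * (8 * d * T * w) ≤ lam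

lemma Par.lam_pos {d lam : ℕ} (hP : Par w d lam) : 0 < lam := by
  obtain ⟨T, hT, -, h⟩ := hP.ex
  have := hP.w_pos
  have := hP.d_pos
  exact lt_of_lt_of_le (by positivity) h

open Classical in
theorem card_minK {d lam i : ℕ} (hz : Generic z d) (hP : Par w d lam) (hi : i ≤ d)
    {φ : MvPolynomial (Fin w) F →ₗ[F] V} (hφ : Low φ i) :
    (univ.filter fun Y : Finset Ω => Y.card = i ∧ MinK z φ Y).card ≤ lam ^ i := by
  set Fam := univ.filter fun Y : Finset Ω => Y.card = i ∧ MinK z φ Y with hFam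
  obtain ⟨T, hT, hM, hlam⟩ := hP.ex
  have hlam0 : (0 : ℝ) < lam := by exact_mod_cast hP.lam_pos
  set σ : ℝ := 1 / lam with hσ
  have hσ0 : 0 < σ := by positivity
  by_contra hcon
  have hbig : 1 < Fam.card * σ ^ i := by
    rw [hσ, one_div_pow, mul_one_div, one_lt_div (by positivity)]
    exact_mod_cast not_le.1 hcon
  have hF0 : (0 : ℝ) < Fam.card := by
    by_contra h
    push Not at h
    nlinarith [pow_pos hσ0 i]
  set f : Finset Ω → ℕ := fun Y => (Fam.filter fun R => Y ⊆ R).card with hf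
  obtain ⟨Y, hY, hmax⟩ := Finset.exists_max_image
    (univ.filter fun Y : Finset Ω => Fam.card * σ ^ Y.card ≤ f Y) Finset.card ⟨∅, by simp [hf]⟩
  have hY' : Fam.card * σ ^ Y.card ≤ f Y := (Finset.mem_filter.1 hY).2
  have hne : (Fam.filter fun R => Y ⊆ R).Nonempty := by
    rw [← Finset.card_pos]
    exact_mod_cast (mul_pos hF0 (pow_pos hσ0 _)).trans_le hY'
  have hmem : ∀ R ∈ Fam.filter fun R => Y ⊆ R, R.card = i ∧ MinK z φ R ∧ Y ⊆ R := fun R hR => by
    rw [Finset.mem_filter, hFam, Finset.mem_filter] at hR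
    exact ⟨hR.1.2.1, hR.1.2.2, hR.2⟩
  obtain ⟨R0, hR0⟩ := hne
  have hYi : Y.card < i := by
    have h1 : Y.card ≤ i := (hmem R0 hR0).1 ▸ Finset.card_le_card (hmem R0 hR0).2.2
    rcases h1.eq_or_lt with h | h
    · have h2 : f Y ≤ 1 := by
        refine Finset.card_le_one.2 fun R hR R' hR' => ?_
        rw [← Finset.eq_of_subset_of_card_le (hmem R hR).2.2 (by rw [(hmem R hR).1, h]),
          ← Finset.eq_of_subset_of_card_le (hmem R' hR').2.2 (by rw [(hmem R' hR').1, h])]
      have h3 : (f Y : ℝ) ≤ 1 := by exact_mod_cast h2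
      rw [h] at hY'
      linarith
    · exact h
  set G := (Fam.filter fun R => Y ⊆ R).image fun R => R \ Y with hG
  have hinj : Set.InjOn (fun R : Finset Ω => R \ Y) (Fam.filter fun R => Y ⊆ R) :=
    fun R hR R' hR' h => by
      rw [← Finset.union_sdiff_of_subset (hmem R hR).2.2,
        ← Finset.union_sdiff_of_subset (hmem R' hR').2.2]
      exact congrArg _ h
  have hGc : G.card = f Y := Finset.card_image_of_injOn hinj
  have hGi : ∀ R ∈ G, R.card = i - Y.card := fun R hR => by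
    obtain ⟨R', hR', rfl⟩ := Finset.mem_image.1 hR
    rw [Finset.card_sdiff_of_subset (hmem R' hR').2.2, (hmem R' hR').1]
  have hcol : ∀ (R : Finset Ω) (m : Fin w →₀ ℕ), ∃ g : Ω → Fin w, m.degree = R.card →
      ∑ p ∈ R, Finsupp.single (g p) 1 = m := fun R m => by
    by_cases h : m.degree = R.card
    · obtain ⟨g, hg⟩ := exists_colour hP.w_pos R m h
      exact ⟨g, fun _ => hg⟩
    · exact ⟨fun _ => ⟨0, hP.w_pos⟩, fun h' => absurd h' h⟩
  choose g hg using hcol
  have hd0 : (0 : ℝ) < d := by exact_mod_cast hP.d_pos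
  have hT0 : (0 : ℝ) < T := by exact_mod_cast hT
  have hw0 : (0 : ℝ) < w := by exact_mod_cast hP.w_pos
  obtain ⟨χ, hχ⟩ := colouring hP.w_pos hT G ⟨_, Finset.mem_image_of_mem _ hR0⟩
    (i := i - Y.card) (by omega) hGi hσ0.le (K := 8 * d * T * w) (by positivity)
    (by
      have : ((i - Y.card : ℕ) : ℝ) ≤ d := by exact_mod_cast (by omega : i - Y.card ≤ d)
      gcongr)
    (fun Y' hY'ne => by
      rw [hG, Finset.sum_image hinj, ← hG, hGc]
      by_cases hd : Disjoint Y Y'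
      · have h1 : ¬ Fam.card * σ ^ (Y ∪ Y').card ≤ f (Y ∪ Y') := fun h => by
          have := hmax (Y ∪ Y') (Finset.mem_filter.2 ⟨mem_univ _, h⟩)
          rw [Finset.card_union_of_disjoint hd] at this
          have := hY'ne.card_pos
          omega
        rw [sum_ind_card]
        have h2 : ((Fam.filter fun R => Y ⊆ R).filter fun R => Y' ⊆ R \ Y).card ≤ f (Y ∪ Y') := by
          refine Finset.card_le_card fun R hR => ?_
          rw [Finset.mem_filter, Finset.mem_filter] at hR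
          exact Finset.mem_filter.2 ⟨hR.1.1, Finset.union_subset hR.1.2
            (hR.2.trans Finset.sdiff_subset)⟩
        have h3 : (((Fam.filter fun R => Y ⊆ R).filter fun R => Y' ⊆ R \ Y).card : ℝ) ≤
            f (Y ∪ Y') := by exact_mod_cast h2
        rw [Finset.card_union_of_disjoint hd, pow_add, ← mul_assoc] at h1
        linarith [not_le.1 h1, mul_le_mul_of_nonneg_right hY' (pow_pos hσ0 Y'.card).le]
      · refine le_trans (le_of_eq (Finset.sum_eq_zero fun R _ => ind_neg fun h => hd ?_))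
          (by positivity)
        exact Finset.disjoint_of_subset_right h Finset.disjoint_sdiff)
    (by
      have h1 : ((2 : ℝ) ^ (d + 4) * (8 * d * T * w)) ≤ lam := by exact_mod_cast hlam
      have h2 : (2 : ℝ) ^ (i - Y.card + 4) ≤ 2 ^ (d + 4) := pow_le_pow_right₀ one_le_two (by omega)
      rw [hσ, ← mul_assoc, mul_one_div, div_le_one hlam0]
      exact le_trans (by gcongr) h1)
    (mon w (i - Y.card)) (hM _ (by omega)) g
  choose R hR hR' using fun m : mon w (i - Y.card) => hχ m.1 m.2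
  have hK := kills_empty_of_coloured hz (by omega : i - Y.card ≤ d)
    (hφ.shift (z := z) (Y := Y) (by omega)) R ⟨χ, fun m => by
      rw [← hg (R m) m.1 (by rw [hGi _ (hR m), mem_mon.1 m.2])]
      exact Finset.sum_congr rfl fun p hp => by rw [hR' m p hp]⟩ fun m => by
      obtain ⟨R', hR'', h⟩ := Finset.mem_image.1 (hR m)
      rw [← h, kills_shift Finset.disjoint_sdiff, Finset.union_sdiff_of_subset (hmem R' hR'').2.2]
      exact (hmem R' hR'').2.1.1
  rw [kills_shift (Finset.disjoint_empty_right _), Finset.union_empty] at hK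
  refine (hmem R0 hR0).2.1.2 Y (Finset.ssubset_iff_subset_ne.2 ⟨(hmem R0 hR0).2.2, ?_⟩) hK
  rintro rfl
  have := (hmem Y hR0).1
  omega

open Classical in
/-- The union of the small minimal killing sets. -/
noncomputable def supp (z : Ω → Fin w → F) (d : ℕ) (φ : MvPolynomial (Fin w) F →ₗ[F] V) :
    Finset Ω :=
  (univ.filter fun Y : Finset Ω => Y.card ≤ d ∧ MinK z φ Y).biUnion id

lemma Low.mono {φ : MvPolynomial (Fin w) F →ₗ[F] V} {d d' : ℕ} (h : Low φ d) (hd : d' ≤ d) :
    Low φ d' := fun g n hg hn => h g n hg (by omega)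

open Classical in
lemma sum_minK_le {d d' lam : ℕ} (hz : Generic z d) (hP : Par w d lam) (hd : d' ≤ d)
    {φ : MvPolynomial (Fin w) F →ₗ[F] V} (hφ : Low φ d') (g : ℕ → ℝ) (hg : ∀ i, 0 ≤ g i) :
    ∑ Y ∈ univ.filter (fun Y : Finset Ω => Y.card ≤ d' ∧ MinK z φ Y), g Y.card ≤
      ∑ i ∈ range (d' + 1), lam ^ i * g i := by
  rw [← Finset.sum_fiberwise_of_maps_to (t := range (d' + 1)) (g := Finset.card)
    (fun Y hY => Finset.mem_range.2 (Nat.lt_succ_of_le (Finset.mem_filter.1 hY).2.1))]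
  refine Finset.sum_le_sum fun i hi => ?_
  have hi' : i ≤ d' := Nat.lt_succ_iff.1 (Finset.mem_range.1 hi)
  rw [Finset.sum_congr rfl (g := fun _ => g i) fun Y hY => by rw [(Finset.mem_filter.1 hY).2],
    Finset.sum_const, nsmul_eq_mul]
  refine mul_le_mul_of_nonneg_right ?_ (hg i)
  have := card_minK hz hP (hi'.trans hd) (hφ.mono hi')
  refine le_trans (Nat.cast_le.2 (le_trans (Finset.card_le_card fun Y hY => ?_) this)) (by simp)
  simp only [Finset.mem_filter, mem_univ, true_and] at hY ⊢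
  exact ⟨hY.2, hY.1.2⟩

lemma card_supp {d lam : ℕ} (hz : Generic z d) (hP : Par w d lam)
    {φ : MvPolynomial (Fin w) F →ₗ[F] V} (hφ : Low φ d) :
    (supp z d φ).card ≤ (d + 1) * (lam ^ d * d) := by
  refine Finset.card_biUnion_le.trans ?_
  have h1 := sum_minK_le hz hP le_rfl hφ (fun i => (i : ℝ)) fun i => Nat.cast_nonneg i
  have h2 : ∑ i ∈ range (d + 1), (lam : ℝ) ^ i * i ≤ ∑ _i ∈ range (d + 1), (lam : ℝ) ^ d * d := by
    refine Finset.sum_le_sum fun i hi => ?_
    have hi' : i ≤ d := Nat.lt_succ_iff.1 (Finset.mem_range.1 hi)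
    have : (1 : ℝ) ≤ lam := by exact_mod_cast hP.lam_pos
    gcongr
  rw [Finset.sum_const, Finset.card_range, nsmul_eq_mul] at h2
  exact_mod_cast h1.trans h2

lemma kills_junta {d : ℕ} {φ : MvPolynomial (Fin w) F →ₗ[F] V} {Y Y' : Finset Ω} (hY : Y.card ≤ d)
    (h : Y ∩ supp z d φ = Y' ∩ supp z d φ) (hK : Kills z φ Y) : Kills z φ Y' := by
  classical
  obtain ⟨Y0, h1, h2⟩ := exists_minK hK
  refine h2.1.mono fun p hp => ?_
  have : p ∈ Y ∩ supp z d φ := Finset.mem_inter.2 ⟨h1 hp, Finset.mem_biUnion.2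
    ⟨Y0, Finset.mem_filter.2 ⟨mem_univ _, (Finset.card_le_card h1).trans hY, h2⟩, hp⟩⟩
  rw [h] at this
  exact (Finset.mem_inter.1 this).1

lemma kills_avoid {c lam : ℕ} (hz : Generic z (2 * c + 1)) (hP : Par w (2 * c + 1) lam)
    {φ : MvPolynomial (Fin w) F →ₗ[F] V} (hφ : Low φ (2 * c + 1)) {τ : ℝ} (hτ0 : 0 < τ)
    (hτ : 2 ^ (c + 5) * (c + 1) * lam * τ ≤ 1) (Y : Finset Ω) (hK : ¬ Kills z φ Y)
    (hY : Y.card ≤ c) : ∃ M : Finset (Finset Ω), (∀ Y' ∈ M, Y'.Nonempty) ∧
      2 ^ (c + 5) * ∑ Y' ∈ M, τ ^ Y'.card ≤ 1 ∧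
      ∀ C : Finset Ω, C.card ≤ c → Kills z φ (Y ∪ C) → ∃ Y' ∈ M, Y' ⊆ C \ Y := by
  classical
  have hne : ∀ Y' ∈ univ.filter (fun Y' : Finset Ω => Y'.card ≤ c ∧ MinK z (shift z φ Y) Y'),
      Y'.Nonempty := fun Y' hY' => by
    rw [Finset.nonempty_iff_ne_empty]
    rintro rfl
    have := (Finset.mem_filter.1 hY').2.2.1
    rw [kills_shift (Finset.disjoint_empty_right _), Finset.union_empty] at this
    exact hK this
  refine ⟨_, hne, ?_, fun C hC hK' => ?_⟩
  · have h1 := sum_minK_le hz hP (by omega : c ≤ 2 * c + 1) (hφ.shift (z := z) (Y := Y) (by omega))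
      (fun i => if i = 0 then 0 else τ ^ i) fun i => by split_ifs <;> positivity
    rw [Finset.sum_congr rfl (g := fun Y' => τ ^ Y'.card)
      fun Y' hY' => if_neg (hne Y' hY').card_pos.ne'] at h1
    have h3 : lam * τ ≤ 1 := by
      have a1 : (1 : ℝ) ≤ 2 ^ (c + 5) := one_le_pow₀ one_le_two
      have a2 : (1 : ℝ) ≤ c + 1 := by linarith [(Nat.cast_nonneg c : (0 : ℝ) ≤ c)]
      have a3 := one_le_mul_of_one_le_of_one_le a1 a2
      rw [mul_assoc] at hτ
      nlinarith [mul_nonneg (Nat.cast_nonneg lam : (0 : ℝ) ≤ lam) hτ0.le]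
    have h2 : ∑ i ∈ range (c + 1), (lam : ℝ) ^ i * (if i = 0 then 0 else τ ^ i) ≤
        ∑ _i ∈ range (c + 1), lam * τ := by
      refine Finset.sum_le_sum fun i _ => ?_
      split_ifs with h
      · rw [mul_zero]; positivity
      · rw [← mul_pow]; exact pow_le_of_le_one (by positivity) h3 h
    rw [Finset.sum_const, Finset.card_range, nsmul_eq_mul] at h2
    refine le_trans (mul_le_mul_of_nonneg_left (h1.trans h2) (by positivity)) ?_
    push_cast
    linarith
  · have : Kills z (shift z φ Y) (C \ Y) := by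
      rwa [kills_shift Finset.disjoint_sdiff, Finset.union_sdiff_self_eq_union]
    obtain ⟨Y', h1, h2⟩ := exists_minK this
    exact ⟨Y', Finset.mem_filter.2 ⟨mem_univ _, (Finset.card_le_card
      (h1.trans Finset.sdiff_subset)).trans hC, h2⟩, h1⟩

end Vale.Agent.P126
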