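import Vale.Agent.P126.Sound

namespace Vale.Agent.P126

open Finset

set_option linter.unusedSectionVars false
set_option linter.unnecessarySeqFocus false

variable {Ω A T : Type} [Fintype Ω] [DecidableEq Ω] {c r : ℕ} {τ : ℝ} (s : Sys Ω A T c r τ)

lemma E_congr {k : ℕ} (hk : k ≤ c) {ρ : ℝ} {a b : A} {S C C2 : Finset Ω} (h1 : s.h a ∈ S)
    (h2 : s.h b ∈ S) (h3 : s.Pi a ⊆ S) (h4 : s.Pi2 a b ⊆ S) (hC : C.card ≤ k) (hC2 : C2.card ≤ k)
    (he : C ∩ S = C2 ∩ S) (h : s.E k ρ a b C) : s.E k ρ a b C2 := by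
  have hmem : ∀ p ∈ S, p ∈ C ↔ p ∈ C2 := fun p hp => by
    have := Finset.ext_iff.1 he p
    simpa [hp] using this
  obtain ⟨e1, e2, e3, e4⟩ := h
  refine ⟨e1, fun h => e2 ((hmem _ h1).2 h), fun h => e3 ((hmem _ h2).2 h),
    e4.mono fun C' ⟨d1, d2, d3, d4, d5⟩ => ?_⟩
  have k1 : (C ∪ C').card ≤ 2 * c + 1 := (Finset.card_union_le _ _).trans (by omega)
  have k2 : (C2 ∪ C').card ≤ 2 * c + 1 := (Finset.card_union_le _ _).trans (by omega)
  have k3 : ∀ P ⊆ S, (C ∪ C') ∩ P = (C2 ∪ C') ∩ P := fun P hP => by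
    ext p
    simp only [Finset.mem_inter, Finset.mem_union]
    constructor
    · rintro ⟨h, h'⟩; exact ⟨h.imp_left (hmem p (hP h')).1, h'⟩
    · rintro ⟨h, h'⟩; exact ⟨h.imp_left (hmem p (hP h')).2, h'⟩
  exact ⟨d1, d2, d3, fun hz => d4 (s.juntaZ a _ _ k2 k1 (k3 _ h3).symm hz),
    s.juntaA a b _ _ k1 k2 (k3 _ h4) d5⟩

lemma card_small_subsets (S : Finset Ω) (c : ℕ) :
    (S.powerset.filter fun C => C.card ≤ c).card ≤ (c + 1) * (S.card + 1) ^ c := by
  have : (S.powerset.filter fun C => C.card ≤ c) ⊆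
      (range (c + 1)).biUnion fun i => S.powersetCard i := fun C hC => by
    rw [Finset.mem_filter, Finset.mem_powerset] at hC
    exact Finset.mem_biUnion.2 ⟨C.card, Finset.mem_range.2 (by omega),
      Finset.mem_powersetCard.2 ⟨hC.1, rfl⟩⟩
  refine (Finset.card_le_card this).trans (Finset.card_biUnion_le.trans ?_)
  calc ∑ i ∈ range (c + 1), (S.powersetCard i).card ≤ ∑ _i ∈ range (c + 1), (S.card + 1) ^ c := by
        refine Finset.sum_le_sum fun i hi => ?_
        rw [Finset.card_powersetCard]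
        refine (Nat.choose_le_pow _ _).trans ((Nat.pow_le_pow_left (Nat.le_succ _) i).trans ?_)
        exact Nat.pow_le_pow_right (Nat.succ_pos _) (by have := Finset.mem_range.1 hi; omega)
    _ = (c + 1) * (S.card + 1) ^ c := by simp

theorem level_step {N : ℕ} (x : Fin N → A) {k n m : ℕ} {ρ ρ' ρh ρp θ ε η' : ℝ} (hk : k ≤ c)
    (hρ : τ ≤ ρ) (hθ0 : 0 < θ) (hθ : θ * 2 ^ (c + 1) * ρ ^ c ≤ τ ^ c) (hρ' : 8 * ρ ≤ θ * ρ')
    (hρh0 : 0 ≤ ρh) (hm0 : 0 < m) (hρh : m ≤ ρh * (ε * N))
    (hε : 0 < ε) (hn : 1 ≤ ε * (ε * θ / 8) * n) (hη0 : 0 < η') (hη1 : η' ≤ 1) (hη' : n * η' ≤ ε)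
    (hρp : ρh + (ρ + ρ') ≤ η' * ρp) :
    ∃ F : Finset (Finset (Fin N)),
      F.card ≤ (1 + (N * ((c + 1) * (N * (1 + r + N * r) + 1) ^ c)) ^ n) ^ (N / m + 1) ∧
      ∀ t, ∃ U ∈ F, ∑ a, (ind (s.Lev k ρ t (x a) ∧ a ∉ U) +
        ind (a ∈ U ∧ ¬ s.Lev (2 * k + 1) ρp t (x a))) ≤ 4 * ε * N := by
  classical
  set S : Finset Ω := univ.biUnion fun a =>
    insert (s.h (x a)) (s.Pi (x a) ∪ univ.biUnion fun b => s.Pi2 (x a) (x b)) with hS
  have hScard : S.card ≤ N * (1 + r + N * r) := by
    refine Finset.card_biUnion_le.trans ?_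
    calc _ ≤ ∑ _a : Fin N, (1 + r + N * r) := by
          refine Finset.sum_le_sum fun a _ => (Finset.card_insert_le _ _).trans ?_
          have h1 := Finset.card_union_le (s.Pi (x a)) (univ.biUnion fun b => s.Pi2 (x a) (x b))
          have h2 := s.card_Pi (x a)
          have h3 : (univ.biUnion fun b => s.Pi2 (x a) (x b)).card ≤ N * r := by
            refine Finset.card_biUnion_le.trans ?_
            calc _ ≤ ∑ _b : Fin N, r := Finset.sum_le_sum fun b _ => s.card_Pi2 _ _
              _ = N * r := by simp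
          omega
      _ = N * (1 + r + N * r) := by simp
  have hS1 : ∀ a, s.h (x a) ∈ S := fun a =>
    Finset.mem_biUnion.2 ⟨a, mem_univ _, Finset.mem_insert_self _ _⟩
  have hS2 : ∀ a, s.Pi (x a) ⊆ S := fun a p hp =>
    Finset.mem_biUnion.2 ⟨a, mem_univ _, Finset.mem_insert_of_mem (Finset.mem_union_left _ hp)⟩
  have hS3 : ∀ a b, s.Pi2 (x a) (x b) ⊆ S := fun a b p hp =>
    Finset.mem_biUnion.2 ⟨a, mem_univ _, Finset.mem_insert_of_mem (Finset.mem_union_right _
      (Finset.mem_biUnion.2 ⟨b, mem_univ _, hp⟩))⟩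
  set PP : Finset (Finset Ω) := S.powerset.filter fun C => C.card ≤ c with hPP
  have hPPc : PP.card ≤ (c + 1) * (N * (1 + r + N * r) + 1) ^ c :=
    (card_small_subsets S c).trans (by gcongr)
  set mult : Ω → ℕ := fun p => (univ.filter fun a => s.h (x a) = p).card with hmult
  set κ : Fin N → Option Ω := fun a => if m ≤ mult (s.h (x a)) then some (s.h (x a)) else none
    with hκ
  set cls : Finset (Option Ω) := univ.image κ with hcls
  have hclsc : cls.card ≤ N / m + 1 := by
    set heavy : Finset Ω := univ.filter fun p => m ≤ mult p with hheavy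
    have h1 : cls ⊆ insert none (heavy.image some) := fun j hj => by
      obtain ⟨a, -, rfl⟩ := Finset.mem_image.1 hj
      simp only [hκ]
      split_ifs with h
      · exact Finset.mem_insert_of_mem (Finset.mem_image_of_mem _ (by simp [hheavy, h]))
      · exact Finset.mem_insert_self _ _
    have h2 : heavy.card * m ≤ N := by
      calc heavy.card * m = ∑ _p ∈ heavy, m := by simp
        _ ≤ ∑ p ∈ heavy, mult p := Finset.sum_le_sum fun p hp => (Finset.mem_filter.1 hp).2
        _ ≤ ∑ p, mult p := Finset.sum_le_sum_of_subset (Finset.subset_univ _)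
        _ = N := by
          simp only [hmult]
          rw [← Finset.card_eq_sum_card_fiberwise (fun a _ => mem_univ _)]
          simp
    have h3 : heavy.card ≤ N / m := (Nat.le_div_iff_mul_le hm0).2 h2
    refine (Finset.card_le_card h1).trans ((Finset.card_insert_le _ _).trans ?_)
    have := Finset.card_image_le (s := heavy) (f := some)
    omega
  set W : Finset (Option (Fin n → Fin N × Finset Ω)) :=
    insert none ((Fintype.piFinset fun _ : Fin n => (univ : Finset (Fin N)) ×ˢ PP).image some)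
    with hW
  have hWc : W.card ≤ 1 + (N * ((c + 1) * (N * (1 + r + N * r) + 1) ^ c)) ^ n := by
    refine (Finset.card_insert_le _ _).trans ?_
    rw [add_comm]
    refine Nat.add_le_add_left (Finset.card_image_le.trans ?_) 1
    simp only [Fintype.card_piFinset, Finset.card_product, card_univ, Fintype.card_fin,
      Finset.prod_const]
    gcongr
  set hit : Option (Fin n → Fin N × Finset Ω) → Fin N → Prop := fun z a =>
    ∃ zz, z = some zz ∧ ∃ l, s.E k ρ' (x a) (x (zz l).1) (zz l).2 with hhit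
  refine ⟨(Fintype.piFinset fun j : Option Ω => if j ∈ cls then W else {none}).image
    fun z => univ.filter fun a => hit (z (κ a)) a, ?_, fun t => ?_⟩
  · refine Finset.card_image_le.trans ?_
    rw [Fintype.card_piFinset]
    simp only [apply_ite Finset.card, Finset.card_singleton]
    rw [Finset.prod_ite_mem, Finset.univ_inter, Finset.prod_const]
    exact (Nat.pow_le_pow_left hWc _).trans (Nat.pow_le_pow_right (by omega) hclsc)
  have hcl : ∀ j : Option Ω, ∃ z ∈ (if j ∈ cls then W else {none}), j ∈ cls →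
      ∑ a ∈ univ.filter (fun a => κ a = j), (ind (s.Lev k ρ t (x a) ∧ ¬ hit z a) +
        ind (hit z a ∧ ¬ s.Lev (2 * k + 1) ρp t (x a))) ≤
        3 * ε * (univ.filter (fun a => κ a = j)).card + ind (none = j) * (ε * N) := fun j => by
    by_cases hj : j ∈ cls
    swap
    · exact ⟨none, by simp [hj], fun h => absurd h hj⟩
    rw [if_pos hj]
    set Q := univ.filter fun a => κ a = j with hQ
    set J := Q.filter fun a => s.Lev k ρ t (x a) with hJ
    have hεN : 0 ≤ ind (none = j) * (ε * N) := mul_nonneg (ind_nonneg _) (by positivity)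
    by_cases hsmall : (J.card : ℝ) ≤ ind (none = j) * (ε * N)
    · refine ⟨none, Finset.mem_insert_self _ _, fun _ => ?_⟩
      have : ∀ a, ¬ hit none a := fun a => by simp [hhit]
      simp only [this, not_false_eq_true, and_true, false_and, ind_neg not_false, add_zero]
      rw [sum_ind_card]
      have : (0 : ℝ) ≤ 3 * ε * Q.card := by positivity
      linarith
    push Not at hsmall
    have hJne : J.Nonempty := by
      rw [← Finset.card_pos]
      exact_mod_cast hεN.trans_lt hsmall
    obtain ⟨z, hz1, hz2⟩ := class_step s x t Q J (fun i => Finset.mem_filter) hJne hk hρ hθ0 hθ hρ'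
      hρh0 (fun a ha p => by
        have hκa : κ a = j := (Finset.mem_filter.1 ha).2
        rcases j with _ | p0
        · rw [ind_pos rfl, one_mul] at hsmall
          have h1 : ∑ b ∈ J, ind (p ∈ ({s.h (x b)} : Finset Ω).erase (s.h (x a))) ≤ m := by
            rw [sum_ind_card]
            rcases (J.filter fun b =>
              p ∈ ({s.h (x b)} : Finset Ω).erase (s.h (x a))).eq_empty_or_nonempty with h | h
            · rw [h]; simp
            · obtain ⟨b, hb⟩ := h
              rw [Finset.mem_filter, Finset.mem_erase, Finset.mem_singleton] at hb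
              have hκb : κ b = none := (Finset.mem_filter.1 (Finset.mem_filter.1 hb.1).1).2
              have h2 : mult p ≤ m := by
                simp only [hκ] at hκb
                split_ifs at hκb with h
                rw [hb.2.2]; omega
              refine Nat.cast_le.2 (le_trans (Finset.card_le_card fun b' hb' => ?_) h2)
              rw [Finset.mem_filter, Finset.mem_erase, Finset.mem_singleton] at hb'
              simp [hb'.2.2]
          exact h1.trans (hρh.trans (mul_le_mul_of_nonneg_left hsmall.le hρh0))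
        · have key : ∀ b, κ b = some p0 → s.h (x b) = p0 := fun b hb => by
            simp only [hκ] at hb
            split_ifs at hb with h
            exact Option.some.inj hb
          refine le_trans (le_of_eq (Finset.sum_eq_zero fun b hb => ind_neg ?_)) (by positivity)
          rw [key a hκa, key b (Finset.mem_filter.1 (Finset.mem_filter.1 hb).1).2]
          simp)
      hε hn hη0 hη1 hη' hρp
    refine ⟨some fun l => ((z l).1, (z l).2 ∩ S), Finset.mem_insert_of_mem
      (Finset.mem_image_of_mem _ (Fintype.mem_piFinset.2 fun l => ?_)), fun _ => ?_⟩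
    · refine Finset.mem_product.2 ⟨mem_univ _, Finset.mem_filter.2
        ⟨Finset.mem_powerset.2 Finset.inter_subset_right, ?_⟩⟩
      exact (Finset.card_le_card Finset.inter_subset_left).trans ((hz1 l).trans hk)
    · have : ∀ a, hit (some fun l => ((z l).1, (z l).2 ∩ S)) a ↔
          ∃ l, s.E k ρ' (x a) (x (z l).1) (z l).2 := fun a => by
        simp only [hhit, Option.some.injEq, exists_eq_left']
        have hc : ∀ l, ((z l).2 ∩ S).card ≤ k := fun l =>
          (Finset.card_le_card Finset.inter_subset_left).trans (hz1 l)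
        refine exists_congr fun l => ⟨E_congr s hk (hS1 _) (hS1 _) (hS2 _) (hS3 _ _) (hc l) (hz1 l)
          (by simp), E_congr s hk (hS1 _) (hS1 _) (hS2 _) (hS3 _ _) (hz1 l) (hc l) (by simp)⟩
      simp only [this]
      linarith
  choose z hz hz' using hcl
  refine ⟨_, Finset.mem_image_of_mem _ (Fintype.mem_piFinset.2 hz), ?_⟩
  simp only [Finset.mem_filter, mem_univ, true_and]
  rw [← Finset.sum_fiberwise_of_maps_to (s := univ) (t := cls) (g := κ)
    (fun a _ => Finset.mem_image_of_mem _ (mem_univ a))]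
  calc _ ≤ ∑ j ∈ cls, (3 * ε * (univ.filter (fun a => κ a = j)).card + ind (none = j) * (ε * N)) := by
        refine Finset.sum_le_sum fun j hj => le_trans (le_of_eq ?_) (hz' j hj)
        refine Finset.sum_congr rfl fun a ha => ?_
        rw [(Finset.mem_filter.1 ha).2]
    _ ≤ 3 * ε * N + ε * N := by
        rw [Finset.sum_add_distrib, ← Finset.mul_sum]
        refine add_le_add (le_of_eq ?_) ?_
        · rw [← Nat.cast_sum, ← Finset.card_eq_sum_card_fiberwise
            (fun a _ => Finset.mem_image_of_mem _ (mem_univ a))]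
          simp
        · refine le_trans ?_ (le_of_eq (sum_ind_eq (none : Option Ω) fun _ => ε * N))
          exact Finset.sum_le_sum_of_subset_of_nonneg (Finset.subset_univ _) fun j _ _ =>
            mul_nonneg (ind_nonneg _) (mul_nonneg hε.le (Nat.cast_nonneg _))
    _ = 4 * ε * N := by ring

/-- The matrix attached to the system. -/
noncomputable def Sys.mat (L : ℕ) (cs : ℕ → ℕ) (ρ : ℕ → ℝ) (t : T) (a : A) : ℝ :=
  (∑ k ∈ range L, ind (s.Lev (cs k) (ρ k) t a)) / L

theorem cover {N L X : ℕ} (hL : 0 < L) (cs e : ℕ → ℕ) (hcs : ∀ k, cs (k + 1) = 2 * cs k + 1)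
    (hc : ∀ k < L, cs k ≤ c) (he : ∀ k, e (k + 1) = (2 * c + 1) * e k + 12)
    (hX : 2 ^ (c + 4) ≤ X) (hτN : 1 ≤ X * τ * N) (hm : ∀ k < L, X ^ (c * e k + 5) ≤ N)
    (hB : ((1 + N * ((c + 1) * (N * (1 + r + N * r) + 1) ^ c) : ℕ) : ℝ) ≤ Real.exp X) :
    CoverProp (s.mat L cs fun k => τ * X ^ e k) N (Real.exp (2 * L * N / X)) (8 / X + 1 / L) := by
  classical
  intro x
  have hτ := s.tau_pos
  have hX16 : 16 ≤ X := le_trans (by
    calc 16 = 2 ^ 4 := by norm_num
      _ ≤ 2 ^ (c + 4) := Nat.pow_le_pow_right (by norm_num) (by omega)) hX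
  have hX' : (16 : ℝ) ≤ X := by exact_mod_cast hX16
  have hX0 : (0 : ℝ) < X := by linarith
  have hX1 : (1 : ℝ) ≤ X := by linarith
  have hL0 : (0 : ℝ) < L := by exact_mod_cast hL
  have hlev : ∀ k : Fin L, ∃ F : Finset (Finset (Fin N)), (F.card : ℝ) ≤ Real.exp (2 * N / X) ∧
      ∀ t, ∃ U ∈ F, ∑ a, (ind (s.Lev (cs k) (τ * X ^ e k) t (x a) ∧ a ∉ U) +
        ind (a ∈ U ∧ ¬ s.Lev (cs (k + 1)) (τ * X ^ e (k + 1)) t (x a))) ≤ 4 * (1 / X) * N := by
    intro k
    set y := c * e k with hy
    obtain ⟨F, hF1, hF2⟩ := level_step s x (k := cs k) (n := X ^ (y + 3)) (m := X ^ (y + 5))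
      (ρ := τ * X ^ e k) (ρ' := τ * X ^ e k * X ^ (y + 1)) (ρh := τ * X ^ (y + 7))
      (ρp := τ * X ^ e (k + 1)) (θ := 8 / X ^ (y + 1)) (ε := 1 / X) (η' := 1 / X ^ (y + 4))
      (hc k k.2) (le_mul_of_one_le_right hτ.le (one_le_pow₀ hX1)) (by positivity)
      (by
        have h1 : ((2 : ℝ) ^ (c + 4)) ≤ X := by exact_mod_cast hX
        have h2 : 8 / (X : ℝ) ^ (y + 1) * 2 ^ (c + 1) * (τ * X ^ e k) ^ c =
            τ ^ c * (2 ^ (c + 4) / X) := by
          rw [mul_pow, ← pow_mul, mul_comm (e k) c, ← hy]; field_simp; ring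
        rw [h2]
        exact mul_le_of_le_one_right (by positivity) ((div_le_one hX0).2 h1))
      (le_of_eq (by field_simp)) (by positivity) (by positivity)
      (by
        have h2 : τ * (X : ℝ) ^ (y + 7) * (1 / X * N) = X ^ (y + 5) * (X * τ * N) := by
          field_simp; ring
        rw [h2, Nat.cast_pow]
        exact le_mul_of_one_le_right (by positivity) hτN)
      (by positivity) (le_of_eq (by push_cast; field_simp; ring)) (by positivity)
      ((div_le_one (by positivity)).2 (one_le_pow₀ hX1))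
      (le_of_eq (by push_cast; field_simp; ring))
      (by
        have h2 : 1 / (X : ℝ) ^ (y + 4) * (τ * X ^ e (k + 1)) = τ * (X * X ^ (y + e k + 7)) := by
          rw [he, show (2 * c + 1) * e k + 12 = (y + 4) + (y + e k + 7) + 1 by rw [hy]; ring]
          field_simp; ring
        rw [h2, mul_assoc, ← pow_add, ← mul_add, ← mul_add]
        refine mul_le_mul_of_nonneg_left ?_ hτ.le
        have a1 : (X : ℝ) ^ (y + 7) ≤ X ^ (y + e k + 7) := pow_le_pow_right₀ hX1 (by omega)
        have a2 : (X : ℝ) ^ (e k) ≤ X ^ (y + e k + 7) := pow_le_pow_right₀ hX1 (by omega)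
        have a3 : (X : ℝ) ^ (e k + (y + 1)) ≤ X ^ (y + e k + 7) := pow_le_pow_right₀ hX1 (by omega)
        have a4 : (0 : ℝ) < X ^ (y + e k + 7) := by positivity
        nlinarith)
    refine ⟨F, ?_, fun t => by rw [hcs]; exact hF2 t⟩
    set B := N * ((c + 1) * (N * (1 + r + N * r) + 1) ^ c) with hBdef
    have h1 : 1 + B ^ (X ^ (y + 3)) ≤ (1 + B) ^ (X ^ (y + 3)) := by
      have := pow_add_pow_le (zero_le_one' ℕ) (Nat.zero_le B) (n := X ^ (y + 3)) (by positivity)
      rwa [one_pow] at this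
    have h2 : (F.card : ℝ) ≤ ((Real.exp X) ^ (X ^ (y + 3))) ^ (N / X ^ (y + 5) + 1) := by
      calc (F.card : ℝ) ≤ ((((1 + B) ^ (X ^ (y + 3))) ^ (N / X ^ (y + 5) + 1) : ℕ) : ℝ) := by
            exact_mod_cast hF1.trans (Nat.pow_le_pow_left h1 _)
        _ = (((1 + B : ℕ) : ℝ) ^ (X ^ (y + 3))) ^ (N / X ^ (y + 5) + 1) := by push_cast; ring
        _ ≤ _ := by gcongr
    refine h2.trans ?_
    rw [← Real.exp_nat_mul, ← Real.exp_nat_mul]
    refine Real.exp_le_exp.2 ?_
    have h3 : ((N / X ^ (y + 5) : ℕ) : ℝ) ≤ N / X ^ (y + 5) := by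
      have := Nat.cast_div_le (α := ℝ) (m := N) (n := X ^ (y + 5))
      rwa [Nat.cast_pow] at this
    have h4 : (1 : ℝ) ≤ N / X ^ (y + 5) := by
      rw [le_div_iff₀ (by positivity), one_mul]
      exact_mod_cast hm k k.2
    have h5 : (2 : ℝ) * N / X = (N / X ^ (y + 5) + N / X ^ (y + 5)) * (X ^ (y + 3) * X) := by
      field_simp; ring
    rw [h5]
    push_cast
    gcongr
  choose F hF1 hF2 using hlev
  refine ⟨(Fintype.piFinset F).image fun U l => (∑ k, ind (l ∈ U k)) / L, ?_, ?_, fun t => ?_⟩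
  · calc (((Fintype.piFinset F).image fun U l => (∑ k, ind (l ∈ U k)) / (L : ℝ)).card : ℝ)
        ≤ (Fintype.piFinset F).card := by exact_mod_cast Finset.card_image_le
      _ = ∏ k, ((F k).card : ℝ) := by rw [Fintype.card_piFinset, Nat.cast_prod]
      _ ≤ ∏ _k : Fin L, Real.exp (2 * N / X) :=
          Finset.prod_le_prod (fun k _ => Nat.cast_nonneg _) fun k _ => hF1 k
      _ = Real.exp (2 * L * N / X) := by
          rw [Finset.prod_const, card_univ, Fintype.card_fin, ← Real.exp_nat_mul]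
          congr 1; ring
  · intro v hv l
    obtain ⟨U, -, rfl⟩ := Finset.mem_image.1 hv
    have h0 : 0 ≤ ∑ k, ind (l ∈ U k) := Finset.sum_nonneg fun k _ => ind_nonneg _
    rw [abs_of_nonneg (by positivity), div_le_one hL0]
    calc _ ≤ ∑ _k : Fin L, (1 : ℝ) := Finset.sum_le_sum fun k _ => ind_le_one _
      _ = L := by simp
  · choose U hU1 hU2 using fun k => hF2 k t
    refine ⟨_, Finset.mem_image_of_mem _ (Fintype.mem_piFinset.2 hU1), ?_⟩
    set Fk : ℕ → Fin N → Prop := fun k a => s.Lev (cs k) (τ * X ^ e k) t (x a) with hFk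
    have h1 : ∀ l, |s.mat L cs (fun k => τ * X ^ e k) t (x l) - (∑ k, ind (l ∈ U k)) / L| ≤
        (2 * ∑ k : Fin L, (ind (Fk k l ∧ l ∉ U k) + ind (l ∈ U k ∧ ¬ Fk (k + 1) l)) + 1) / L := by
      intro l
      unfold Sys.mat
      rw [← sub_div, abs_div, abs_of_pos hL0, ← Fin.sum_univ_eq_sum_range
        (fun k => ind (s.Lev (cs k) (τ * X ^ e k) t (x l))), ← Finset.sum_sub_distrib]
      refine div_le_div_of_nonneg_right ((Finset.abs_sum_le_sum_abs _ _).trans ?_) hL0.le
      have h2 : ∑ k : Fin L, (ind (Fk (k + 1) l) - ind (Fk k l)) ≤ 1 := by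
        rw [Fin.sum_univ_eq_sum_range (fun k => ind (Fk (k + 1) l) - ind (Fk k l)),
          Finset.sum_range_sub (fun k => ind (Fk k l))]
        linarith [ind_le_one (Fk L l), ind_nonneg (Fk 0 l)]
      refine le_trans ?_ (add_le_add_right h2 _)
      rw [Finset.mul_sum, ← Finset.sum_add_distrib]
      refine Finset.sum_le_sum fun k _ => ?_
      change |ind (Fk k l) - ind (l ∈ U k)| ≤ _
      by_cases a1 : Fk k l <;> by_cases a2 : l ∈ U k <;> by_cases a3 : Fk (k + 1) l <;>
        simp [ind, a1, a2, a3] <;> norm_num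
    refine (Finset.sum_le_sum fun l _ => h1 l).trans ?_
    rw [← Finset.sum_div, Finset.sum_add_distrib, ← Finset.mul_sum, Finset.sum_comm,
      div_le_iff₀ hL0]
    have h3 : ∑ k : Fin L, ∑ l, (ind (Fk k l ∧ l ∉ U k) + ind (l ∈ U k ∧ ¬ Fk (k + 1) l)) ≤
        ∑ _k : Fin L, 4 * (1 / X : ℝ) * N := Finset.sum_le_sum fun k _ => hU2 k
    simp only [Finset.sum_const, card_univ, Fintype.card_fin, nsmul_eq_mul, mul_one] at h3 ⊢
    have h4 : (8 / X + 1 / L : ℝ) * N * L = 2 * (L * (4 * (1 / X) * N)) + N := by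
      field_simp; ring
    linarith

end Vale.Agent.P126
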