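import Vale.Agent.P126.Alg
import Vale.Agent.P126.Cover

namespace Vale.Agent.P126

open Finset MvPolynomial

set_option linter.unusedSectionVars false

lemma exists_pool (r : ℕ) : ∃ (Ω : Type) (_ : Fintype Ω) (_ : DecidableEq Ω) (H : Finset Ω → Ω),
    ∀ P P' : Finset Ω, P.card ≤ r → P'.card ≤ r → H P ∉ P' ∨ H P' ∉ P := by
  classical
  have hex : ∀ P : Finset (Fin (r * r + 1) × {S : Finset (Fin (r * r + 1)) // S.card ≤ r}),
      ∃ v : Fin (r * r + 1) × {S : Finset (Fin (r * r + 1)) // S.card ≤ r},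
        P.card ≤ r → ∀ u ∈ P, u.1 ∈ v.2.1 ∧ v.1 ∉ u.2.1 := fun P => by
    by_cases hP : P.card ≤ r
    swap
    · exact ⟨(0, ⟨∅, by simp⟩), fun h => absurd h hP⟩
    have h1 : (P.biUnion fun u => u.2.1).card < (univ : Finset (Fin (r * r + 1))).card := by
      refine lt_of_le_of_lt Finset.card_biUnion_le ?_
      calc ∑ u ∈ P, u.2.1.card ≤ ∑ _u ∈ P, r := Finset.sum_le_sum fun u _ => u.2.2
        _ = P.card * r := by simp
        _ ≤ r * r := Nat.mul_le_mul_right _ hP
        _ < _ := by simp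
    obtain ⟨i, -, hi⟩ := Finset.exists_mem_notMem_of_card_lt_card h1
    exact ⟨(i, ⟨P.image Prod.fst, Finset.card_image_le.trans hP⟩), fun _ u hu =>
      ⟨Finset.mem_image_of_mem _ hu, fun h => hi (Finset.mem_biUnion.2 ⟨u, hu, h⟩)⟩⟩
  choose H hH using hex
  refine ⟨_, inferInstance, inferInstance, H, fun P P' hP hP' => ?_⟩
  by_contra h
  push Not at h
  exact (hH P hP _ h.2).2 (hH P' hP' _ h.1).1

variable {w : ℕ} {F : Type} [Field F] {V : Type} [AddCommGroup V] [Module F V]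

/-- The linear map on polynomials determined by values on monomials of degree `d`. -/
noncomputable def hat (F : Type) [Field F] [Module F V] {d : ℕ} (t : mon w d → V) :
    MvPolynomial (Fin w) F →ₗ[F] V :=
  ∑ m : mon w d, (lcoeff F m.1).smulRight (t m)

lemma hat_apply {d : ℕ} (t : mon w d → V) (g : MvPolynomial (Fin w) F) :
    hat F t g = ∑ m : mon w d, coeff m.1 g • t m := by
  simp [hat, LinearMap.sum_apply]

lemma hat_eq_zero {d n : ℕ} (t : mon w d → V) {g : MvPolynomial (Fin w) F}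
    (hg : g.IsHomogeneous n) (hn : n ≠ d) : hat F t g = 0 := by
  rw [hat_apply]
  refine Finset.sum_eq_zero fun m _ => ?_
  rw [hg.coeff_eq_zero (by rw [mem_mon.1 m.2]; exact hn.symm), zero_smul]

lemma hat_low {d : ℕ} (t : mon w d → V) : Low (hat F t) d :=
  fun _ _ hg hn => hat_eq_zero t hg hn.ne

lemma hat_monomial {d : ℕ} (t : mon w d → V) (m : mon w d) (a : F) :
    hat F t (monomial m.1 a) = a • t m := by
  classical
  rw [hat_apply, Finset.sum_eq_single m]
  · simp
  · intro m' _ hm'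
    rw [coeff_monomial, if_neg (fun h => hm' (Subtype.ext h.symm)), zero_smul]
  · simp

lemma hat_restrict {d : ℕ} (t : mon w (d + 1) → V) {l : MvPolynomial (Fin w) F}
    (hl : l.IsHomogeneous 1) (g : MvPolynomial (Fin w) F) :
    hat F (fun m : mon w d => hat F t (l * monomial m.1 1)) g = hat F t (l * g) := by
  induction g using MvPolynomial.induction_on' with
  | add p q hp hq => rw [map_add, hp, hq, mul_add, map_add]
  | monomial u a =>
    by_cases hu : u.degree = d
    · rw [hat_monomial _ ⟨u, mem_mon.2 hu⟩, ← map_smul, ← mul_smul_comm, smul_monomial,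
        smul_eq_mul, mul_one]
    · rw [hat_eq_zero _ (isHomogeneous_monomial a rfl) hu,
        hat_eq_zero _ (hl.mul (isHomogeneous_monomial a rfl)) (by omega)]

variable {Ω : Type} [Fintype Ω] [DecidableEq Ω]

lemma lin_hom (z : Ω → Fin w → F) (p : Ω) : (lin z p).IsHomogeneous 1 := by
  simpa [lp] using lp_hom z {p}

lemma lin_swap (z : Ω → Fin w → F) (p p' : Ω) :
    lin z p * lp z (({p'} : Finset Ω).erase p) = lin z p' * lp z (({p} : Finset Ω).erase p') := by
  by_cases h : p = p'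
  · rw [h]
  · rw [Finset.erase_eq_of_notMem (by simpa using h),
      Finset.erase_eq_of_notMem (by simpa using Ne.symm h)]
    simp [lp, mul_comm]

lemma agree_aux (z : Ω → Fin w → F) (t sa sb : MvPolynomial (Fin w) F →ₗ[F] V) (p p' : Ω)
    {C C' W : Finset Ω} (h1 : ∀ β, t (lin z p * (lp z C * β)) = sa (lp z C * β))
    (h2 : ∀ β, t (lin z p' * (lp z C' * β)) = sb (lp z C' * β)) (h3 : C ⊆ W) (h4 : C' ⊆ W) :
    Kills z (shift z sa (({p'} : Finset Ω).erase p) - shift z sb (({p} : Finset Ω).erase p')) W := by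
  intro β
  rw [LinearMap.sub_apply, shift_apply, shift_apply, sub_eq_zero]
  have e3 := lin_swap z p p'
  have e4 := lp_sdiff z h3
  have e5 := lp_sdiff z h4
  generalize lp z (({p'} : Finset Ω).erase p) = u at *
  generalize lp z (({p} : Finset Ω).erase p') = u' at *
  have e1 := h1 (lp z (W \ C) * u * β)
  have e2 := h2 (lp z (W \ C') * u' * β)
  have a1 : u * (lp z W * β) = lp z C * (lp z (W \ C) * u * β) := by rw [e4]; ring
  have a2 : u' * (lp z W * β) = lp z C' * (lp z (W \ C') * u' * β) := by rw [e5]; ring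
  rw [← a1] at e1
  rw [← a2] at e2
  rw [← e1, ← e2, ← mul_assoc, e3, mul_assoc]

lemma transfer_aux (z : Ω → Fin w → F) (t sa sb : MvPolynomial (Fin w) F →ₗ[F] V) (p p' : Ω)
    {C W : Finset Ω} (h1 : ∀ β, t (lin z p' * (lp z C * β)) = sb (lp z C * β)) (h2 : C ⊆ W)
    (h3 : Kills z (shift z sa (({p'} : Finset Ω).erase p) -
      shift z sb (({p} : Finset Ω).erase p')) W) (h4 : p' ∉ W) (β : MvPolynomial (Fin w) F) :
    t (lin z p * (lp z (({p'} : Finset Ω).erase p ∪ W) * β)) =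
      sa (lp z (({p'} : Finset Ω).erase p ∪ W) * β) := by
  have e2 := h3 β
  rw [LinearMap.sub_apply, shift_apply, shift_apply, sub_eq_zero] at e2
  have e3 := lin_swap z p p'
  have e4 := lp_sdiff z h2
  rw [lp_union z (Finset.disjoint_of_subset_left (Finset.erase_subset _ _)
    (Finset.disjoint_singleton_left.2 h4)), mul_assoc, e2]
  generalize lp z (({p'} : Finset Ω).erase p) = u at *
  generalize lp z (({p} : Finset Ω).erase p') = u' at *
  have e1 := h1 (lp z (W \ C) * u' * β)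
  have a2 : u' * (lp z W * β) = lp z C * (lp z (W \ C) * u' * β) := by rw [e4]; ring
  rw [← a2] at e1
  rw [← e1, ← mul_assoc, e3, mul_assoc]

/-- The system built from generic linear forms. -/
noncomputable def mkSys {c lam : ℕ} (z : Ω → Fin w → F) (hz : Generic z (2 * c + 1))
    (hP : Par w (2 * c + 1) lam) (H : Finset Ω → Ω)
    (hH : ∀ P P' : Finset Ω, P.card ≤ (2 * c + 1 + 1) * (lam ^ (2 * c + 1) * (2 * c + 1)) →
      P'.card ≤ (2 * c + 1 + 1) * (lam ^ (2 * c + 1) * (2 * c + 1)) → H P ∉ P' ∨ H P' ∉ P)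
    {τ : ℝ} (hτ0 : 0 < τ) (hτ : 2 ^ (c + 6) * (c + 1) * lam * τ ≤ 1) :
    Sys Ω ((mon w (2 * c + 1 + 1 + 1) → F) × (mon w (2 * c + 1 + 1) → V))
      (mon w (2 * c + 1 + 1 + 1) → V) c ((2 * c + 1 + 1) * (lam ^ (2 * c + 1) * (2 * c + 1))) τ :=
  let h : (mon w (2 * c + 1 + 1 + 1) → F) × (mon w (2 * c + 1 + 1) → V) → Ω :=
    fun a => H (supp z (2 * c + 1) (hat F a.1))
  let φ : (mon w (2 * c + 1 + 1 + 1) → F) × (mon w (2 * c + 1 + 1) → V) →
      (mon w (2 * c + 1 + 1 + 1) → F) × (mon w (2 * c + 1 + 1) → V) →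
      MvPolynomial (Fin w) F →ₗ[F] V := fun a b =>
    shift z (hat F a.2) (({h b} : Finset Ω).erase (h a)) -
      shift z (hat F b.2) (({h a} : Finset Ω).erase (h b))
  have hlow : ∀ a : (mon w (2 * c + 1 + 1 + 1) → F) × (mon w (2 * c + 1 + 1) → V),
      Low (hat F a.1) (2 * c + 1) := fun a => (hat_low a.1).mono (by omega)
  have hc1 : ∀ p p' : Ω, (({p} : Finset Ω).erase p').card + (2 * c + 1) ≤ 2 * c + 1 + 1 :=
    fun p p' => by
      have : (({p} : Finset Ω).erase p').card ≤ 1 := Finset.card_erase_le.trans (by simp)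
      omega
  { h := h
    Pi := fun a => supp z (2 * c + 1) (hat F a.1)
    Pi2 := fun a b => supp z (2 * c + 1) (φ a b)
    Z := fun a X => Kills z (hat F a.1) X
    G := fun t a X => ∀ β, hat F t (lin z (h a) * (lp z X * β)) = hat F a.2 (lp z X * β)
    Ag := fun a b X => Kills z (φ a b) X
    card_Pi := fun a => card_supp hz hP (hlow a)
    card_Pi2 := fun a b => card_supp hz hP fun g n hg hn => by
      rw [LinearMap.sub_apply, (hat_low a.2).shift (hc1 _ _) g n hg hn,
        (hat_low b.2).shift (hc1 _ _) g n hg hn, sub_zero]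
    tour := fun a b => hH _ _ (card_supp hz hP (hlow a)) (card_supp hz hP (hlow b))
    juntaZ := fun a X X' h1 _ h2 h3 => kills_junta h1 h2 h3
    juntaA := fun a b X X' h1 _ h2 h3 => kills_junta h1 h2 h3
    agree := fun t a b C C' W h1 h2 h3 h4 => agree_aux z _ _ _ _ _ h1 h2 h3 h4
    transfer := fun t a b C W h1 h2 h3 h4 => transfer_aux z _ _ _ _ _ h1 h2 h3 h4
    avoid := fun a X h1 h2 => kills_avoid hz hP (hlow a) hτ0 (by
      refine le_trans ?_ hτ
      gcongr
      · norm_num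
      · omega) X h1 h2
    tau_pos := hτ0
    tau_small := by
      refine le_trans ?_ hτ
      have a1 : (1 : ℝ) ≤ lam := by exact_mod_cast hP.lam_pos
      have a2 : (1 : ℝ) ≤ c + 1 := by linarith [(Nat.cast_nonneg c : (0 : ℝ) ≤ c)]
      have a3 := one_le_mul_of_one_le_of_one_le a2 a1
      rw [mul_assoc (2 ^ (c + 6) : ℝ)]
      exact mul_le_mul_of_nonneg_right (le_mul_of_one_le_right (by positivity) a3) hτ0.le }

theorem exists_sys {c w lam : ℕ} (e : ℕ) (hP : Par w (2 * c + 1) lam) {τ : ℝ} (hτ0 : 0 < τ)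
    (hτ : 2 ^ (c + 6) * (c + 1) * lam * τ ≤ 1) :
    ∃ (q : ℕ) (Ω A T : Type) (_ : Fintype Ω) (_ : DecidableEq Ω) (_ : Fintype A) (_ : Fintype T)
      (s : Sys Ω A T c ((2 * c + 1 + 1) * (lam ^ (2 * c + 1) * (2 * c + 1))) τ), 2 ≤ q ∧
      Fintype.card T = q ^ (e * (mon w (2 * c + 1 + 1 + 1)).card) ∧
      Fintype.card A = q ^ ((mon w (2 * c + 1 + 1 + 1)).card + e * (mon w (2 * c + 1 + 1)).card) ∧
      (∃ a, ∀ k ρ t, ¬ s.Lev k ρ t a) ∧
      ∀ t t', t ≠ t' → ∃ a, (∀ k ρ, 0 ≤ ρ → s.Lev k ρ t a) ∧ ∀ k ≤ c, ∀ ρ, ¬ s.Lev k ρ t' a := by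
  classical
  obtain ⟨Ω, i1, i2, H, hH⟩ := exists_pool ((2 * c + 1 + 1) * (lam ^ (2 * c + 1) * (2 * c + 1)))
  obtain ⟨q, hq, z, hz⟩ := exists_generic Ω w (2 * c + 1)
  have : NeZero q := ⟨hq.out.ne_zero⟩
  refine ⟨q, Ω, _, _, i1, i2, inferInstance, inferInstance,
    mkSys (V := Fin e → ZMod q) z hz hP H hH hτ0 hτ, hq.out.two_le, ?_, ?_, ⟨(0, 0), ?_⟩, ?_⟩
  · simp [pow_mul]
  · simp [pow_mul, pow_add]
  · intro k ρ t h
    obtain ⟨C, -, -, hC, -⟩ := h.exists
    exact hC fun β => by simp [hat_apply]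
  · intro t t' htt
    obtain ⟨m0, hm0⟩ := Function.ne_iff.1 htt
    obtain ⟨j, hj⟩ := Function.ne_iff.1 hm0
    set ζ : mon w (2 * c + 1 + 1 + 1) → ZMod q := fun m => t m j - t' m j with hζ
    have hζa : ∀ g, hat (ZMod q) ζ g = hat (ZMod q) t g j - hat (ZMod q) t' g j := fun g => by
      simp [hat_apply, hζ, Finset.sum_apply, mul_sub, Finset.sum_sub_distrib]
    set p := H (supp z (2 * c + 1) (hat (ZMod q) ζ)) with hp
    have hG := hat_restrict t (lin_hom z p)
    refine ⟨(ζ, fun m => hat (ZMod q) t (lin z p * monomial m.1 1)), fun k ρ hρ =>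
      spread_empty hρ ⟨by simp, by simp, fun hK => ?_, fun β => (hG _).symm⟩, fun k hk ρ h => ?_⟩
    · have := hK (monomial m0.1 1)
      rw [lp_empty, one_mul, hat_monomial, one_smul] at this
      exact hj (sub_eq_zero.1 this)
    · obtain ⟨C, h1, h2, h3, h4⟩ := h.exists
      have hpC : p ∉ C := h2
      have hK : Kills z (hat (ZMod q) ζ) (insert p C) := fun β => by
        have := h4 β
        rw [hG] at this
        rw [hζa, lp, Finset.prod_insert hpC, mul_assoc]
        exact sub_eq_zero.2 (congrFun this j).symm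
      refine h3 (kills_junta (d := 2 * c + 1) ((Finset.card_insert_le _ _).trans (by omega)) ?_ hK)
      have hc := card_supp hz hP ((hat_low ζ).mono (by omega : 2 * c + 1 ≤ 2 * c + 1 + 1 + 1))
      exact Finset.insert_inter_of_notMem ((hH _ _ hc hc).elim id id)

end Vale.Agent.P126
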