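import Mathlib

namespace Vale.Agent.P126

open Set

/-- An origin-symmetric convex body in `ℝⁿ`: compact, convex, nonempty interior, `K = -K`. -/
def IsSymmBody {n : ℕ} (K : Set (EuclideanSpace ℝ (Fin n))) : Prop :=
  IsCompact K ∧ Convex ℝ K ∧ (interior K).Nonempty ∧ K = -K

/-- The covering number `N(A,B)`: the least number of translates `x + B` (arbitrary centres
`x`) whose union contains `A`. -/
noncomputable def coverNum {n : ℕ} (A B : Set (EuclideanSpace ℝ (Fin n))) : ℕ :=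
  sInf {m : ℕ | ∃ s : Finset (EuclideanSpace ℝ (Fin n)), s.card = m ∧
    A ⊆ ⋃ x ∈ s, (fun b => x + b) '' B}

/-- The polar body `K° = {y : ⟨x,y⟩ ≤ 1 for all x ∈ K}`. -/
def polarBody {n : ℕ} (K : Set (EuclideanSpace ℝ (Fin n))) : Set (EuclideanSpace ℝ (Fin n)) :=
  {y | ∀ x ∈ K, inner ℝ x y ≤ 1}

/-- The dilate `tK = {t x : x ∈ K}`. -/
def dilate {n : ℕ} (t : ℝ) (K : Set (EuclideanSpace ℝ (Fin n))) :
    Set (EuclideanSpace ℝ (Fin n)) :=
  (fun x => t • x) '' K

end Vale.Agent.P126
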