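import Mathlib

namespace Vale.Agent.P126

open Finset MvPolynomial

set_option linter.unusedSectionVars false

variable {Ω : Type} [Fintype Ω] [DecidableEq Ω] {w : ℕ}

/-- Monomials of degree `i` in `w` variables. -/
noncomputable def mon (w i : ℕ) : Finset (Fin w →₀ ℕ) := (univ : Finset (Fin w)).finsuppAntidiag i

lemma mem_mon {i : ℕ} {m : Fin w →₀ ℕ} : m ∈ mon w i ↔ m.degree = i := by
  simp [mon, Finsupp.degree_eq_sum]

lemma card_mon (w i : ℕ) : (mon w i).card = (w + i - 1).choose i := by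
  simp [mon, Finset.card_finsuppAntidiag_nat_eq_choose]

/-- The linear form with coefficients `z p`. -/
noncomputable def lin {S : Type} [CommRing S] (z : Ω → Fin w → S) (p : Ω) :
    MvPolynomial (Fin w) S := ∑ j, C (z p j) * X j

/-- The product of the linear forms indexed by `Y`. -/
noncomputable def lp {S : Type} [CommRing S] (z : Ω → Fin w → S) (Y : Finset Ω) :
    MvPolynomial (Fin w) S := ∏ p ∈ Y, lin z p

lemma lp_hom {S : Type} [CommRing S] (z : Ω → Fin w → S) (Y : Finset Ω) :
    (lp z Y).IsHomogeneous Y.card := by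
  have := IsHomogeneous.prod Y (lin z) (fun _ => 1) fun p _ =>
    IsHomogeneous.sum _ _ _ fun j _ => isHomogeneous_C_mul_X _ _
  simpa [lp] using this

lemma map_lp {S S' : Type} [CommRing S] [CommRing S'] (f : S →+* S') (z : Ω → Fin w → S)
    (Y : Finset Ω) : MvPolynomial.map f (lp z Y) = lp (fun p j => f (z p j)) Y := by
  simp [lp, lin, map_prod, map_sum]

lemma hom_as_sum {S : Type} [CommRing S] {g : MvPolynomial (Fin w) S} {i : ℕ}
    (hg : g.IsHomogeneous i) : g = ∑ m : mon w i, coeff m.1 g • monomial m.1 1 := by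
  rw [Finset.sum_coe_sort (mon w i) (fun m => coeff m g • monomial m (1 : S))]
  conv_lhs => rw [g.as_sum]
  simp only [smul_monomial, smul_eq_mul, mul_one]
  refine Finset.sum_subset (fun m hm => ?_) fun m _ hm => ?_
  · by_contra h
    exact mem_support_iff.1 hm (hg.coeff_eq_zero (mt mem_mon.2 h))
  · rw [notMem_support_iff.1 hm, monomial_zero]

/-- Coefficient matrix of a family of products. -/
noncomputable def Dm {S : Type} [CommRing S] (z : Ω → Fin w → S) (i : ℕ)
    (R : mon w i → Finset Ω) : Matrix (mon w i) (mon w i) S :=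
  fun m m' => coeff m'.1 (lp z (R m))

lemma map_det_Dm {S S' : Type} [CommRing S] [CommRing S'] (f : S →+* S') (z : Ω → Fin w → S)
    (i : ℕ) (R : mon w i → Finset Ω) : f (Dm z i R).det = (Dm (fun p j => f (z p j)) i R).det := by
  rw [RingHom.map_det]
  congr 1
  ext m m'
  simp [Dm, ← map_lp, coeff_map]

/-- The family `R` is coloured by the monomials. -/
def Coloured (i : ℕ) (R : mon w i → Finset Ω) : Prop :=
  ∃ χ : Ω → Fin w, ∀ m, ∑ p ∈ R m, Finsupp.single (χ p) 1 = m.1

/-- Generic position of linear forms. -/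
def Generic {F : Type} [Field F] (z : Ω → Fin w → F) (d : ℕ) : Prop :=
  ∀ i ≤ d, ∀ R : mon w i → Finset Ω, Coloured i R → ∀ m' : mon w i,
    ∃ a : mon w i → F, monomial m'.1 1 = ∑ m, a m • lp z (R m)

lemma coloured_card {i : ℕ} {R : mon w i → Finset Ω} (h : Coloured i R) (m : mon w i) :
    (R m).card = i := by
  obtain ⟨χ, hχ⟩ := h
  have := mem_mon.1 m.2
  rw [← hχ m, map_sum] at this
  simpa using this

theorem exists_generic (Ω : Type) [Fintype Ω] [DecidableEq Ω] (w d : ℕ) :
    ∃ (q : ℕ) (_ : Fact q.Prime) (z : Ω → Fin w → ZMod q), Generic z d := by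
  classical
  set z0 : Ω → Fin w → MvPolynomial (Ω × Fin w) ℤ := fun p j => X (p, j) with hz0
  set I : Finset (Σ i : Fin (d + 1), (mon w i → Finset Ω)) :=
    univ.filter fun x => Coloured x.1 x.2 with hI
  have hne : ∏ x ∈ I, (Dm z0 x.1 x.2).det ≠ 0 := by
    refine Finset.prod_ne_zero_iff.2 fun x hx h0 => ?_
    obtain ⟨χ, hχ⟩ := (Finset.mem_filter.1 hx).2
    have := map_det_Dm (eval fun pj : Ω × Fin w => if χ pj.1 = pj.2 then (1 : ℤ) else 0) z0 x.1 x.2
    rw [h0, map_zero] at this
    have h1 : Dm (fun p j => eval (fun pj : Ω × Fin w => if χ pj.1 = pj.2 then (1 : ℤ) else 0)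
        (z0 p j)) x.1 x.2 = 1 := by
      ext m m'
      have h2 : lp (fun p j => eval (fun pj : Ω × Fin w => if χ pj.1 = pj.2 then (1 : ℤ) else 0)
          (z0 p j)) (x.2 m) = monomial m.1 1 := by
        rw [← hχ m, monomial_sum_one]
        refine Finset.prod_congr rfl fun p _ => ?_
        simp only [lin, hz0, eval_X, apply_ite C, map_one, map_zero, ite_mul, one_mul, zero_mul,
          Finset.sum_ite_eq, mem_univ, if_true]
        rfl
      simp only [Dm, h2, coeff_monomial, Matrix.one_apply, Subtype.ext_iff]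
    rw [h1, Matrix.det_one] at this
    exact zero_ne_one this
  obtain ⟨v, hv⟩ : ∃ v : Ω × Fin w → ℤ, eval v (∏ x ∈ I, (Dm z0 x.1 x.2).det) ≠ 0 := by
    by_contra h
    push Not at h
    exact hne (MvPolynomial.funext fun v => by rw [h v, map_zero])
  obtain ⟨q, hq1, hq⟩ := Nat.exists_infinite_primes
    ((eval v (∏ x ∈ I, (Dm z0 x.1 x.2).det)).natAbs + 1)
  have : Fact q.Prime := ⟨hq⟩
  refine ⟨q, this, fun p j => (v (p, j) : ZMod q), fun i hi R hR m' => ?_⟩
  have hdet : (Dm (fun p j => (v (p, j) : ZMod q)) i R).det ≠ 0 := by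
    intro h0
    have h1 := map_det_Dm ((Int.castRingHom (ZMod q)).comp (eval v)) z0 i R
    simp only [hz0, RingHom.comp_apply, eval_X, eq_intCast] at h1
    rw [h0, ZMod.intCast_zmod_eq_zero_iff_dvd] at h1
    have h2 : (Dm z0 i R).det ∣ ∏ x ∈ I, (Dm z0 x.1 x.2).det :=
      Finset.dvd_prod_of_mem (fun x : (Σ i : Fin (d + 1), (mon w i → Finset Ω)) =>
        (Dm z0 x.1 x.2).det) (a := ⟨⟨i, by omega⟩, R⟩) (Finset.mem_filter.2 ⟨mem_univ _, hR⟩)
    have h3 := h1.trans (map_dvd (eval v) h2)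
    have h4 := Nat.le_of_dvd (Int.natAbs_pos.2 hv) (Int.natCast_dvd.1 h3)
    omega
  set D := Dm (fun p j => (v (p, j) : ZMod q)) i R with hD
  refine ⟨fun m => D⁻¹ m' m, ?_⟩
  have h1 : ∀ m, lp (fun p j => (v (p, j) : ZMod q)) (R m) = ∑ m'', D m m'' • monomial m''.1 1 :=
    fun m => hom_as_sum (coloured_card hR m ▸ lp_hom _ (R m))
  simp_rw [h1, Finset.smul_sum, smul_smul]
  rw [Finset.sum_comm]
  simp_rw [← Finset.sum_smul, ← Matrix.mul_apply, Matrix.nonsing_inv_mul _ (Ne.isUnit hdet)]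
  simp [Matrix.one_apply]

lemma exists_colour (hw : 0 < w) (R : Finset Ω) : ∀ m : Fin w →₀ ℕ, m.degree = R.card →
    ∃ g : Ω → Fin w, ∑ p ∈ R, Finsupp.single (g p) 1 = m := by
  induction R using Finset.induction_on with
  | empty =>
    intro m hm
    exact ⟨fun _ => ⟨0, hw⟩, by
      rw [Finset.card_empty, Finsupp.degree_eq_zero_iff] at hm
      simp [hm]⟩
  | insert p R hp ih =>
    intro m hm
    rw [Finset.card_insert_of_notMem hp] at hm
    obtain ⟨j, hj⟩ : ∃ j, m j ≠ 0 := by
      by_contra h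
      push Not at h
      simp [Finsupp.degree_eq_sum, h] at hm
    have hle : Finsupp.single j 1 ≤ m := Finsupp.single_le_iff.2 (by omega)
    obtain ⟨m', rfl⟩ := le_iff_exists_add.1 hle
    obtain ⟨g, hg⟩ := ih m' (by rw [map_add, Finsupp.degree_single] at hm; omega)
    refine ⟨Function.update g p j, ?_⟩
    rw [Finset.sum_insert hp, Function.update_self, ← hg]
    congr 1
    refine Finset.sum_congr rfl fun p' hp' => ?_
    rw [Function.update_of_ne (by rintro rfl; exact hp hp')]

end Vale.Agent.P126
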