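import Vale.Agent.P126.Defs

namespace Vale.Agent.P126

open Set Pointwise

variable {n : ℕ}

/-- The cube of radius `r`. -/
def cube (n : ℕ) (r : ℝ) : Set (EuclideanSpace ℝ (Fin n)) := {x | ∀ i, |x i| ≤ r}

lemma cube_closed (r : ℝ) : IsClosed (cube n r) := by
  have : cube n r = ⋂ i, {x : EuclideanSpace ℝ (Fin n) | |x i| ≤ r} := by
    ext x; simp [cube]
  rw [this]
  refine isClosed_iInter fun i => ?_
  exact isClosed_le (by fun_prop) continuous_const

lemma cube_compact (r : ℝ) : IsCompact (cube n r) := by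
  refine Metric.isCompact_of_isClosed_isBounded (cube_closed r) ?_
  refine (Metric.isBounded_closedBall (x := (0 : EuclideanSpace ℝ (Fin n)))
    (r := √(n * r ^ 2))).subset fun x hx => ?_
  rw [mem_closedBall_zero_iff, EuclideanSpace.norm_eq]
  refine Real.sqrt_le_sqrt ?_
  calc ∑ i, ‖x i‖ ^ 2 ≤ ∑ _i : Fin n, r ^ 2 := by
        refine Finset.sum_le_sum fun i _ => ?_
        rw [Real.norm_eq_abs]
        exact pow_le_pow_left₀ (abs_nonneg _) (hx i) 2
    _ = n * r ^ 2 := by simp

lemma cube_convex (r : ℝ) : Convex ℝ (cube n r) := by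
  intro x hx y hy a b ha hb hab i
  have h1 := hx i
  have h2 := hy i
  simp only [PiLp.add_apply, PiLp.smul_apply, smul_eq_mul]
  calc |a * x i + b * y i| ≤ |a * x i| + |b * y i| := abs_add_le _ _
    _ = a * |x i| + b * |y i| := by rw [abs_mul, abs_mul, abs_of_nonneg ha, abs_of_nonneg hb]
    _ ≤ a * r + b * r := by gcongr
    _ = r := by rw [← add_mul, hab, one_mul]

lemma cube_nhds {r : ℝ} (hr : 0 < r) : cube n r ∈ nhds (0 : EuclideanSpace ℝ (Fin n)) := by
  refine Filter.mem_of_superset (Metric.ball_mem_nhds 0 hr) fun x hx i => ?_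
  rw [mem_ball_zero_iff] at hx
  have := PiLp.norm_apply_le x i
  rw [Real.norm_eq_abs] at this
  linarith

lemma cube_neg (r : ℝ) : cube n r = -cube n r := by
  ext x; simp [cube]

lemma cube_body {r : ℝ} (hr : 0 < r) : IsSymmBody (cube n r) :=
  ⟨cube_compact r, cube_convex r, ⟨0, mem_interior_iff_mem_nhds.2 (cube_nhds hr)⟩, cube_neg r⟩

lemma cover_nonempty {A B : Set (EuclideanSpace ℝ (Fin n))} (hA : IsCompact A)
    (hB : B ∈ nhds (0 : EuclideanSpace ℝ (Fin n))) :
    {m : ℕ | ∃ s : Finset (EuclideanSpace ℝ (Fin n)), s.card = m ∧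
      A ⊆ ⋃ x ∈ s, (fun b => x + b) '' B}.Nonempty := by
  obtain ⟨s, -, hs⟩ := hA.elim_nhds_subcover (fun x => (fun b => x + b) '' B) fun x _ => by
    have := (Homeomorph.addLeft x).isOpenMap.image_mem_nhds hB
    simpa using this
  exact ⟨s.card, s, rfl, hs⟩

lemma inner_eq_sum' (x y : EuclideanSpace ℝ (Fin n)) : inner ℝ x y = ∑ i, x i * y i := by
  simp [PiLp.inner_apply, mul_comm]

/-- Every probability vector on the columns is approximated, uniformly over the rows, by the
empirical measure of an `N`-sample. -/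
def SampleProp {T A : Type*} [Fintype A] (f : T → A → ℝ) (N : ℕ) (δ : ℝ) : Prop :=
  ∀ μ : A → ℝ, (∀ i, 0 ≤ μ i) → ∑ i, μ i = 1 →
    ∃ x : Fin N → A, ∀ t, |∑ i, μ i * f t i - (∑ l, f t (x l)) / N| ≤ δ

/-- The empirical measure. -/
noncomputable def emp {N : ℕ} (x : Fin N → Fin n) (i : Fin n) : ℝ :=
  (∑ l, if x l = i then 1 else 0) / N

lemma emp_nonneg {N : ℕ} (x : Fin N → Fin n) (i : Fin n) : 0 ≤ emp x i := by
  unfold emp; positivity

lemma emp_sum {N : ℕ} (x : Fin N → Fin n) (g : Fin n → ℝ) :
    ∑ i, g i * emp x i = (∑ l, g (x l)) / N := by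
  unfold emp
  simp_rw [← mul_div_assoc, ← Finset.sum_div, Finset.mul_sum]
  rw [Finset.sum_comm]
  congr 1
  refine Finset.sum_congr rfl fun l _ => ?_
  simp

lemma emp_sum_le {N : ℕ} (x : Fin N → Fin n) : ∑ i, emp x i ≤ 1 := by
  have := emp_sum x fun _ => 1
  simp only [one_mul] at this
  rw [this]
  simp only [Finset.sum_const, Finset.card_univ, Fintype.card_fin, nsmul_eq_mul, mul_one]
  exact div_self_le_one _

theorem geom_counter {T : Type} [Fintype T] [Nonempty T] (f : T → Fin n → ℝ) (x0 : Fin n)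
    (h0 : ∀ t, f t x0 = 0) (hsep : ∀ t t', t ≠ t' → ∃ i, 1 ≤ f t i - f t' i)
    {a : ℝ} (ha : 1 ≤ a) {N : ℕ} (hs : SampleProp f N (1 / (12 * a))) :
    ∃ K L : Set (EuclideanSpace ℝ (Fin n)), IsSymmBody K ∧ IsSymmBody L ∧
      Fintype.card T ≤ coverNum K L ∧
      coverNum (polarBody L) (dilate a⁻¹ (polarBody K)) ≤ n ^ (2 * N) := by
  classical
  have ha0 : 0 < a := by linarith
  set row : T → EuclideanSpace ℝ (Fin n) := fun t => WithLp.toLp 2 (f t) with hrow
  set S : Set (EuclideanSpace ℝ (Fin n)) := range row ∪ -range row with hS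
  have hSfin : S.Finite := (finite_range _).union (finite_range _).neg
  have hSneg : -S = S := by
    rw [hS, Set.union_neg, neg_neg, union_comm]
  set δ : ℝ := 1 / (18 * a) with hδ
  have hδ0 : 0 < δ := by positivity
  have hKc : IsCompact (convexHull ℝ S + cube n δ) :=
    (hSfin.isCompact_convexHull ℝ).add (cube_compact δ)
  have hrowK : ∀ t, row t ∈ convexHull ℝ S + cube n δ := fun t =>
    ⟨row t, subset_convexHull ℝ S (Or.inl ⟨t, rfl⟩), 0, fun i => by simpa using hδ0.le, by simp⟩
  refine ⟨convexHull ℝ S + cube n δ, cube n (1 / 3), ⟨hKc,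
    (convex_convexHull ℝ S).add (cube_convex δ), ?_, ?_⟩, cube_body (by norm_num), ?_, ?_⟩
  · obtain ⟨t⟩ := ‹Nonempty T›
    refine ⟨row t, mem_interior_iff_mem_nhds.2 ?_⟩
    have := (Homeomorph.addLeft (row t)).isOpenMap.image_mem_nhds (cube_nhds (n := n) hδ0)
    simp only [Homeomorph.coe_addLeft, add_zero] at this
    refine Filter.mem_of_superset this ?_
    rintro _ ⟨z, hz, rfl⟩
    exact ⟨row t, subset_convexHull ℝ S (Or.inl ⟨t, rfl⟩), z, hz, rfl⟩
  · rw [neg_add, ← convexHull_neg, hSneg, ← cube_neg]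
  · obtain ⟨s, hcard, hcov⟩ := Nat.sInf_mem (cover_nonempty hKc
      (cube_nhds (n := n) (r := 1 / 3) (by norm_num)))
    unfold coverNum
    rw [← hcard]
    have : ∀ t, ∃ x ∈ s, ∀ i, |f t i - x i| ≤ 1 / 3 := fun t => by
      have := hcov (hrowK t)
      simp only [mem_iUnion] at this
      obtain ⟨x, hx, z, hz, hzx⟩ := this
      refine ⟨x, hx, fun i => ?_⟩
      have h1 : x i + z i = f t i := by
        have := congrArg (fun v : EuclideanSpace ℝ (Fin n) => v i) hzx
        simpa [hrow] using this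
      have h2 := hz i
      rwa [← h1, add_sub_cancel_left]
    choose g hg hg' using this
    rw [← Finset.card_univ]
    refine Finset.card_le_card_of_injOn g (fun t _ => hg t) fun t _ t' _ htt => ?_
    by_contra hne
    obtain ⟨i, hi⟩ := hsep t t' hne
    have h1 := abs_le.1 (hg' t i)
    have h2 := abs_le.1 (hg' t' i)
    rw [htt] at h1
    linarith [h1.1, h1.2, h2.1, h2.2]
  · set cen : (Fin N → Fin n) × (Fin N → Fin n) → EuclideanSpace ℝ (Fin n) :=
      fun p => WithLp.toLp 2 fun i => 3 * (emp p.1 i - emp p.2 i) with hcen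
    have hcardle : (Finset.univ.image cen).card ≤ n ^ (2 * N) := by
      refine Finset.card_image_le.trans ?_
      simp [two_mul, pow_add]
    refine le_trans (Nat.sInf_le ⟨Finset.univ.image cen, rfl, fun y hy => ?_⟩) hcardle
    have hy1 : ∑ i, |y i| ≤ 3 := by
      have := hy (WithLp.toLp 2 fun i => SignType.sign (y i) / 3) fun i => by
        rcases lt_trichotomy (y i) 0 with h | h | h <;> simp [h, abs_div]
      rw [inner_eq_sum'] at this
      have h2 : ∑ i, |y i| = 3 * ∑ i, (SignType.sign (y i) : ℝ) / 3 * y i := by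
        rw [Finset.mul_sum]
        refine Finset.sum_congr rfl fun i _ => ?_
        rw [← sign_mul_self]; ring
      rw [h2]; simpa using by linarith
    have key : ∀ u : Fin n → ℝ, (∀ i, 0 ≤ u i) → ∑ i, u i ≤ 3 →
        ∃ x : Fin N → Fin n, ∀ t, |∑ i, f t i * u i - 3 * ∑ i, f t i * emp x i| ≤ 1 / (4 * a) := by
      intro u hu hu3
      obtain ⟨x, hx⟩ := hs (fun i => u i / 3 + if i = x0 then 1 - (∑ i, u i) / 3 else 0)
        (fun i => by
          have := hu i
          split_ifs
          · linarith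
          · linarith)
        (by rw [Finset.sum_add_distrib, ← Finset.sum_div]; simp)
      refine ⟨x, fun t => ?_⟩
      have h1 := hx t
      have h2 : ∑ i, (u i / 3 + if i = x0 then 1 - (∑ i, u i) / 3 else 0) * f t i =
          (∑ i, f t i * u i) / 3 := by
        rw [Finset.sum_div Finset.univ (fun i => f t i * u i)]
        refine Finset.sum_congr rfl fun i _ => ?_
        split_ifs with hi
        · rw [hi, h0]; ring
        · ring
      rw [h2, ← emp_sum] at h1
      have h3 : ∑ i, f t i * u i - 3 * ∑ i, f t i * emp x i =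
          3 * ((∑ i, f t i * u i) / 3 - ∑ i, f t i * emp x i) := by ring
      rw [h3, abs_mul]
      have : 1 / (4 * a) = 3 * (1 / (12 * a)) := by field_simp; norm_num
      rw [this, abs_of_pos (by norm_num : (0 : ℝ) < 3)]
      linarith
    obtain ⟨x1, hx1⟩ := key (fun i => max (y i) 0) (fun i => le_max_right _ _)
      (le_trans (Finset.sum_le_sum fun i _ => max_le (le_abs_self _) (abs_nonneg _)) hy1)
    obtain ⟨x2, hx2⟩ := key (fun i => max (-y i) 0) (fun i => le_max_right _ _)
      (le_trans (Finset.sum_le_sum fun i _ => max_le (neg_le_abs _) (abs_nonneg _)) hy1)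
    simp only [mem_iUnion]
    refine ⟨cen (x1, x2), Finset.mem_image_of_mem _ (Finset.mem_univ _), y - cen (x1, x2), ?_,
      by simp⟩
    refine ⟨a • (y - cen (x1, x2)), ?_, by simp [smul_smul, ha0.ne']⟩
    set d := y - cen (x1, x2) with hd
    have hdi : ∀ i, d i = y i - 3 * (emp x1 i - emp x2 i) := fun i => by simp [hd, hcen]
    have hrowd : ∀ t, |inner ℝ (row t) d| ≤ 1 / (2 * a) := fun t => by
      rw [inner_eq_sum']
      have h1 : ∑ i, row t i * d i =
          (∑ i, f t i * max (y i) 0 - 3 * ∑ i, f t i * emp x1 i) -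
          (∑ i, f t i * max (-y i) 0 - 3 * ∑ i, f t i * emp x2 i) := by
        simp only [Finset.mul_sum, ← Finset.sum_sub_distrib]
        refine Finset.sum_congr rfl fun i _ => ?_
        rw [hdi]
        have : y i = max (y i) 0 - max (-y i) 0 := by
          rcases le_total (y i) 0 with h | h
          · rw [max_eq_right h, max_eq_left (by linarith)]; ring
          · rw [max_eq_left h, max_eq_right (by linarith)]; ring
        simp only [hrow]
        linear_combination (f t i) * this
      rw [h1]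
      refine (abs_sub _ _).trans ?_
      have : 1 / (2 * a) = 1 / (4 * a) + 1 / (4 * a) := by field_simp; norm_num
      linarith [hx1 t, hx2 t]
    have hhull : ∀ p ∈ convexHull ℝ S, inner ℝ p d ≤ 1 / (2 * a) := by
      have hconv : Convex ℝ {p : EuclideanSpace ℝ (Fin n) | inner ℝ p d ≤ 1 / (2 * a)} := by
        intro p hp q hq α β hα hβ hαβ
        simp only [mem_ofPred_eq, inner_add_left, inner_smul_left, conj_trivial] at hp hq ⊢
        calc α * inner ℝ p d + β * inner ℝ q d ≤ α * (1 / (2 * a)) + β * (1 / (2 * a)) := by gcongr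
          _ = 1 / (2 * a) := by rw [← add_mul, hαβ, one_mul]
      refine convexHull_min ?_ hconv
      rintro p (⟨t, rfl⟩ | hp)
      · exact (abs_le.1 (hrowd t)).2
      · obtain ⟨t, ht⟩ := hp
        have : p = -row t := by rw [ht, neg_neg]
        have h2 : inner ℝ p d ≤ 1 / (2 * a) := by
          rw [this, inner_neg_left]
          linarith [(abs_le.1 (hrowd t)).1]
        exact h2
    have hd1 : ∑ i, |d i| ≤ 9 := by
      calc ∑ i, |d i| ≤ ∑ i, (|y i| + 3 * emp x1 i + 3 * emp x2 i) := by
            refine Finset.sum_le_sum fun i _ => ?_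
            rw [hdi]
            have h1 := emp_nonneg x1 i
            have h2 := emp_nonneg x2 i
            rw [abs_le]
            constructor <;> linarith [le_abs_self (y i), neg_abs_le (y i)]
        _ = ∑ i, |y i| + 3 * ∑ i, emp x1 i + 3 * ∑ i, emp x2 i := by
            simp only [Finset.sum_add_distrib, Finset.mul_sum]
        _ ≤ 9 := by linarith [emp_sum_le x1, emp_sum_le x2]
    rintro _ ⟨p, hp, z, hz, rfl⟩
    have hz' : inner ℝ z d ≤ 1 / (2 * a) := by
      rw [inner_eq_sum']
      calc ∑ i, z i * d i ≤ ∑ i, δ * |d i| := by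
            refine Finset.sum_le_sum fun i _ => ?_
            refine (le_abs_self _).trans ?_
            rw [abs_mul]
            exact mul_le_mul_of_nonneg_right (hz i) (abs_nonneg _)
        _ = δ * ∑ i, |d i| := by rw [Finset.mul_sum]
        _ ≤ δ * 9 := by gcongr
        _ = 1 / (2 * a) := by rw [hδ]; field_simp; norm_num
    simp only [inner_add_left, inner_smul_right]
    have h1 := hhull p hp
    have : a * (1 / (2 * a)) + a * (1 / (2 * a)) = 1 := by field_simp; norm_num
    nlinarith [mul_le_mul_of_nonneg_left h1 ha0.le, mul_le_mul_of_nonneg_left hz' ha0.le]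

end Vale.Agent.P126
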