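import Vale.Agent.P126.Spread

namespace Vale.Agent.P126

open Finset

set_option linter.unusedSectionVars false
set_option linter.unnecessarySeqFocus false

/-- The abstract combinatorial system. -/
structure Sys (Ω A T : Type) [DecidableEq Ω] (c r : ℕ) (τ : ℝ) where
  h : A → Ω
  Pi : A → Finset Ω
  Pi2 : A → A → Finset Ω
  Z : A → Finset Ω → Prop
  G : T → A → Finset Ω → Prop
  Ag : A → A → Finset Ω → Prop
  card_Pi : ∀ a, (Pi a).card ≤ r
  card_Pi2 : ∀ a b, (Pi2 a b).card ≤ r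
  tour : ∀ a b, h a ∉ Pi b ∨ h b ∉ Pi a
  juntaZ : ∀ a X X', X.card ≤ 2 * c + 1 → X'.card ≤ 2 * c + 1 → X ∩ Pi a = X' ∩ Pi a →
    Z a X → Z a X'
  juntaA : ∀ a b X X', X.card ≤ 2 * c + 1 → X'.card ≤ 2 * c + 1 → X ∩ Pi2 a b = X' ∩ Pi2 a b →
    Ag a b X → Ag a b X'
  agree : ∀ t a b C C' W, G t a C → G t b C' → C ⊆ W → C' ⊆ W → Ag a b W
  transfer : ∀ t a b C W, G t b C → C ⊆ W → Ag a b W → h b ∉ W →
    G t a (({h b} : Finset Ω).erase (h a) ∪ W)
  avoid : ∀ a X, ¬ Z a X → X.card ≤ c → ∃ M : Finset (Finset Ω), (∀ Y ∈ M, Y.Nonempty) ∧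
    2 ^ (c + 5) * ∑ Y ∈ M, τ ^ Y.card ≤ 1 ∧ ∀ C, C.card ≤ c → Z a (X ∪ C) → ∃ Y ∈ M, Y ⊆ C \ X
  tau_pos : 0 < τ
  tau_small : 2 ^ (c + 6) * τ ≤ 1

variable {Ω A T : Type} [Fintype Ω] [DecidableEq Ω] {c r : ℕ} {τ : ℝ} (s : Sys Ω A T c r τ)

/-- Admissible witnesses. -/
def Sys.Ok (k : ℕ) (t : T) (a : A) (C : Finset Ω) : Prop :=
  C.card ≤ k ∧ s.h a ∉ C ∧ ¬ s.Z a C ∧ s.G t a C

/-- The level predicate. -/
def Sys.Lev (k : ℕ) (ρ : ℝ) (t : T) (a : A) : Prop := Spread (s.Ok k t a) ρ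

/-- The row-independent test. -/
def Sys.E (k : ℕ) (ρ : ℝ) (a b : A) (C : Finset Ω) : Prop :=
  s.h b ∉ s.Pi a ∧ s.h a ∉ C ∧ s.h b ∉ C ∧ Spread (fun C' => C'.card ≤ k ∧ s.h a ∉ C' ∧
    s.h b ∉ C' ∧ ¬ s.Z a (C ∪ C') ∧ s.Ag a b (C ∪ C')) ρ

lemma pair_lower {X : Type} [Fintype X] (y : X → A) (S : X → Finset Ω) (u : X → ℝ)
    (hu : ∀ p, 0 ≤ u p) (Y : Finset Ω)
    (hsupp : ∀ p, u p ≠ 0 → (S p).card ≤ c ∧ s.h (y p) ∉ S p ∧ ¬ s.Z (y p) (S p) ∧ Y ⊆ S p)
    (htail : ∀ Y' : Finset Ω, Y'.Nonempty → Disjoint Y Y' →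
      ∑ q, u q * ind (Y' ⊆ S q) ≤ τ ^ Y.card * τ ^ Y'.card)
    (hY : τ ^ Y.card ≤ 2 ^ (c + 1) * ∑ p, u p) :
    3 / 8 * (∑ p, u p) ^ 2 ≤ ∑ p, ∑ q, u p * u q * ind (s.h (y q) ∉ s.Pi (y p) ∧
      ¬ s.Z (y p) (S p ∪ S q) ∧ s.h (y p) ∉ S q ∧ s.h (y q) ∉ S p) := by
  set m := ∑ p, u p with hm
  have hτ := s.tau_pos
  have hm0 : 0 ≤ m := Finset.sum_nonneg fun p _ => hu p
  have h1 : m ^ 2 ≤ 2 * ∑ p, ∑ q, u p * u q * ind (s.h (y q) ∉ s.Pi (y p)) := by
    have e : ∑ p, ∑ q, u p * u q * ind (s.h (y q) ∉ s.Pi (y p)) =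
        ∑ p, ∑ q, u p * u q * ind (s.h (y p) ∉ s.Pi (y q)) := by
      rw [Finset.sum_comm]
      exact Finset.sum_congr rfl fun p _ => Finset.sum_congr rfl fun q _ => by ring
    rw [two_mul]
    nth_rewrite 2 [e]
    rw [sq, hm, Finset.sum_mul_sum, ← Finset.sum_add_distrib]
    refine Finset.sum_le_sum fun p _ => ?_
    rw [← Finset.sum_add_distrib]
    refine Finset.sum_le_sum fun q _ => ?_
    have huu := mul_nonneg (hu p) (hu q)
    rcases s.tour (y p) (y q) with h | h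
    · rw [ind_pos h]; nlinarith [ind_nonneg (s.h (y q) ∉ s.Pi (y p))]
    · rw [ind_pos h]; nlinarith [ind_nonneg (s.h (y p) ∉ s.Pi (y q))]
  have h2 : ∑ p, ∑ q, u p * u q * ind (s.Z (y p) (S p ∪ S q)) ≤ m * (m / 16) := by
    rw [hm, Finset.sum_mul, ← hm]
    refine Finset.sum_le_sum fun p _ => ?_
    simp_rw [mul_assoc]
    rw [← Finset.mul_sum]
    by_cases hp : u p = 0
    · simp [hp]
    refine mul_le_mul_of_nonneg_left ?_ (hu p)
    obtain ⟨hc, -, hZ, hYp⟩ := hsupp p hp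
    obtain ⟨M, hM1, hM2, hM3⟩ := s.avoid (y p) (S p) hZ hc
    calc ∑ q, u q * ind (s.Z (y p) (S p ∪ S q))
        ≤ ∑ q, u q * ∑ Y' ∈ M, ind (Disjoint Y Y' ∧ Y' ⊆ S q) := by
          refine Finset.sum_le_sum fun q _ => ?_
          by_cases hq : u q = 0
          · simp [hq]
          refine mul_le_mul_of_nonneg_left (ind_le_sum _ _ fun hz => ?_) (hu q)
          obtain ⟨Y', hY', hsub⟩ := hM3 (S q) (hsupp q hq).1 hz
          refine ⟨Y', hY', ?_, hsub.trans Finset.sdiff_subset⟩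
          exact Finset.disjoint_of_subset_left hYp
            (Finset.disjoint_of_subset_right hsub Finset.disjoint_sdiff)
      _ = ∑ Y' ∈ M, ∑ q, u q * ind (Disjoint Y Y' ∧ Y' ⊆ S q) := by
          simp_rw [Finset.mul_sum]; rw [Finset.sum_comm]
      _ ≤ ∑ Y' ∈ M, τ ^ Y.card * τ ^ Y'.card := by
          refine Finset.sum_le_sum fun Y' hY' => ?_
          by_cases hd : Disjoint Y Y'
          · simpa only [hd, true_and] using htail Y' (hM1 Y' hY') hd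
          · simp only [hd, false_and, ind_neg not_false, mul_zero, Finset.sum_const_zero]
            positivity
      _ = τ ^ Y.card * ∑ Y' ∈ M, τ ^ Y'.card := by rw [Finset.mul_sum]
      _ ≤ (2 ^ (c + 1) * m) * ∑ Y' ∈ M, τ ^ Y'.card := by
          gcongr
      _ = (m / 16) * (2 ^ (c + 5) * ∑ Y' ∈ M, τ ^ Y'.card) := by ring
      _ ≤ (m / 16) * 1 := by gcongr
      _ = m / 16 := mul_one _
  have h3 : ∑ p, ∑ q, u p * u q * ind (s.h (y p) ∈ S q) ≤ m * (m / 32) := by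
    rw [hm, Finset.sum_mul, ← hm]
    refine Finset.sum_le_sum fun p _ => ?_
    simp_rw [mul_assoc]
    rw [← Finset.mul_sum]
    by_cases hp : u p = 0
    · simp [hp]
    refine mul_le_mul_of_nonneg_left ?_ (hu p)
    obtain ⟨-, hh, -, hYp⟩ := hsupp p hp
    have h4 := htail {s.h (y p)} (Finset.singleton_nonempty _)
      (Finset.disjoint_singleton_right.2 fun h => hh (hYp h))
    simp only [Finset.singleton_subset_iff, Finset.card_singleton, pow_one] at h4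
    calc _ ≤ τ ^ Y.card * τ := h4
      _ ≤ (2 ^ (c + 1) * m) * τ := by gcongr
      _ = (m / 32) * (2 ^ (c + 6) * τ) := by ring
      _ ≤ (m / 32) * 1 := by gcongr; exact s.tau_small
      _ = m / 32 := mul_one _
  have h4 : ∑ p, ∑ q, u p * u q * ind (s.h (y q) ∈ S p) ≤ m * (m / 32) := by
    refine le_trans (le_of_eq ?_) h3
    rw [Finset.sum_comm]
    exact Finset.sum_congr rfl fun p _ => Finset.sum_congr rfl fun q _ => by ring
  have h5 : ∑ p, ∑ q, u p * u q * ind (s.h (y q) ∉ s.Pi (y p)) ≤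
      ∑ p, ∑ q, u p * u q * ind (s.h (y q) ∉ s.Pi (y p) ∧
        ¬ s.Z (y p) (S p ∪ S q) ∧ s.h (y p) ∉ S q ∧ s.h (y q) ∉ S p) +
      ∑ p, ∑ q, u p * u q * ind (s.Z (y p) (S p ∪ S q)) +
      ∑ p, ∑ q, u p * u q * ind (s.h (y p) ∈ S q) +
      ∑ p, ∑ q, u p * u q * ind (s.h (y q) ∈ S p) := by
    simp only [← Finset.sum_add_distrib, ← mul_add]
    refine Finset.sum_le_sum fun p _ => Finset.sum_le_sum fun q _ => ?_
    refine mul_le_mul_of_nonneg_left ?_ (mul_nonneg (hu p) (hu q))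
    by_cases a1 : s.h (y q) ∈ s.Pi (y p) <;> by_cases a2 : s.Z (y p) (S p ∪ S q) <;>
      by_cases a3 : s.h (y p) ∈ S q <;> by_cases a4 : s.h (y q) ∈ S p <;>
      simp [ind, a1, a2, a3, a4] <;> norm_num
  nlinarith

lemma pair_upper {k : ℕ} {ρ ρ' θ : ℝ} {t : T} {a b : A} {D : Finset Ω → ℝ}
    (hD : IsSpread (s.Ok k t a) ρ D) (hρ : 0 < ρ) (hθ0 : 0 < θ) (hθ1 : θ ≤ 1) (hρ' : 8 * ρ ≤ θ * ρ')
    (core : Finset Ω → Finset Ω) (hcore : ∀ C, core C ⊆ C) (Y C : Finset Ω) (hYC : Y ⊆ C)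
    (hC : s.Ok k t b C) :
    ∑ C', D C' * ind (core C' = Y) * ind (s.h b ∉ s.Pi a ∧
      ¬ s.Z a (C' ∪ C) ∧ s.h a ∉ C ∧ s.h b ∉ C') ≤
      ρ ^ Y.card * (ind (s.E k ρ' a b C) + θ / 8) := by
  set ω : Finset Ω → ℝ := fun C' => D C' * ind (core C' = Y) * ind (s.h b ∉ s.Pi a ∧
      ¬ s.Z a (C' ∪ C) ∧ s.h a ∉ C ∧ s.h b ∉ C') with hω
  have hω0 : ∀ C', 0 ≤ ω C' := fun C' =>
    mul_nonneg (mul_nonneg (hD.nonneg _) (ind_nonneg _)) (ind_nonneg _)
  have hωle : ∀ Y' : Finset Ω, Disjoint Y Y' →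
      ∑ C', ω C' * ind (Y' ⊆ C') ≤ ρ ^ Y.card * ρ ^ Y'.card := fun Y' hd => by
    rw [← pow_add, ← Finset.card_union_of_disjoint hd]
    refine le_trans (Finset.sum_le_sum fun C' _ => ?_) (hD.spread (Y ∪ Y'))
    simp only [hω]
    rw [mul_assoc, mul_assoc, ← ind_and, ← ind_and]
    refine mul_le_mul_of_nonneg_left (ind_mono ?_) (hD.nonneg _)
    rintro ⟨h1, -, h2⟩
    exact Finset.union_subset (h1 ▸ hcore _) h2
  have hρY : 0 < ρ ^ Y.card := pow_pos hρ _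
  by_cases hE : s.E k ρ' a b C
  · have := hωle ∅ (Finset.disjoint_empty_right _)
    simp only [Finset.empty_subset, ind_pos trivial, mul_one, Finset.card_empty, pow_zero] at this
    rw [ind_pos hE]
    nlinarith
  rw [ind_neg hE, zero_add]
  by_contra hlt
  push Not at hlt
  have hpos : 0 < ∑ C', ω C' := lt_trans (by positivity) hlt
  have hsupp : ∀ C', ω C' ≠ 0 → s.Ok k t a C' ∧ core C' = Y ∧ s.h b ∉ s.Pi a ∧
      ¬ s.Z a (C' ∪ C) ∧ s.h a ∉ C ∧ s.h b ∉ C' := fun C' h =>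
    ⟨hD.supp _ (left_ne_zero_of_mul (left_ne_zero_of_mul h)),
      of_ind_ne (right_ne_zero_of_mul (left_ne_zero_of_mul h)), of_ind_ne (right_ne_zero_of_mul h)⟩
  obtain ⟨C0, -, hC0⟩ := Finset.exists_ne_zero_of_sum_ne_zero hpos.ne'
  obtain ⟨-, -, g1, -, g2, -⟩ := hsupp C0 hC0
  refine hE ⟨g1, g2, hC.2.1, Spread.of_family ω (fun C' => C' \ Y) hω0 hpos (fun C' h => ?_)
    fun Y' hY' => ?_⟩
  · obtain ⟨⟨k1, k2, -, k4⟩, k5, -, k6, -, k7⟩ := hsupp C' h
    have e : C ∪ C' \ Y = C' ∪ C := by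
      ext p
      simp only [Finset.mem_union, Finset.mem_sdiff]
      constructor
      · rintro (h | h)
        · exact Or.inr h
        · exact Or.inl h.1
      · rintro (h | h)
        · by_cases hp : p ∈ Y
          · exact Or.inl (hYC hp)
          · exact Or.inr ⟨h, hp⟩
        · exact Or.inl h
    refine ⟨(Finset.card_le_card Finset.sdiff_subset).trans k1,
      fun h => k2 (Finset.sdiff_subset h), fun h => k7 (Finset.sdiff_subset h), e ▸ k6, ?_⟩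
    rw [e]
    exact s.agree t a b C' C _ k4 hC.2.2.2 Finset.subset_union_left Finset.subset_union_right
  · have hρ'0 : 0 < ρ' := by
      by_contra h
      push Not at h
      nlinarith
    by_cases hd : Disjoint Y Y'
    · obtain ⟨j, hj⟩ : ∃ j, Y'.card = j + 1 := ⟨Y'.card - 1, by have := hY'.card_pos; omega⟩
      have hρρ : ρ ≤ ρ' := by nlinarith
      calc ∑ C', ω C' * ind (Y' ⊆ C' \ Y) ≤ ∑ C', ω C' * ind (Y' ⊆ C') :=
            Finset.sum_le_sum fun C' _ => mul_le_mul_of_nonneg_left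
              (ind_mono fun h => h.trans Finset.sdiff_subset) (hω0 _)
        _ ≤ ρ ^ Y.card * ρ ^ Y'.card := hωle Y' hd
        _ = ρ ^ Y.card * (ρ ^ j * ρ) := by rw [hj, pow_succ]
        _ ≤ ρ ^ Y.card * (ρ' ^ j * (θ / 8 * ρ')) := by gcongr; linarith
        _ = ρ ^ Y.card * (θ / 8) * ρ' ^ Y'.card := by rw [hj, pow_succ]; ring
        _ ≤ (∑ C', ω C') * ρ' ^ Y'.card := by gcongr
    · refine le_trans (le_of_eq (Finset.sum_eq_zero fun C' _ => ?_)) (by positivity)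
      rw [ind_neg, mul_zero]
      exact fun h => hd (Finset.disjoint_of_subset_right h Finset.disjoint_sdiff)

theorem complete {ι : Type} [Fintype ι] [Nonempty ι] (x : ι → A) {k : ℕ} {ρ ρ' θ : ℝ} {t : T}
    (D : ι → Finset Ω → ℝ) (hD : ∀ i, IsSpread (s.Ok k t (x i)) ρ (D i)) (hk : k ≤ c)
    (hρ : τ ≤ ρ) (hθ0 : 0 < θ) (hθ : θ * 2 ^ (c + 1) * ρ ^ c ≤ τ ^ c) (hρ' : 8 * ρ ≤ θ * ρ') :
    ∃ a, θ / 8 * Fintype.card ι ≤ ∑ b, ∑ C, D b C * ind (s.E k ρ' (x a) (x b) C) := by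
  have hτ := s.tau_pos
  have hρ0 : 0 < ρ := hτ.trans_le hρ
  set n : ℝ := (Fintype.card ι : ℝ) with hn
  have hn0 : 0 < n := by rw [hn]; exact_mod_cast Fintype.card_pos
  have hθy : ∀ y ≤ c, θ * 2 ^ (c + 1) * ρ ^ y ≤ τ ^ y := fun y hy => by
    obtain ⟨j, rfl⟩ := Nat.exists_eq_add_of_le hy
    have h1 : τ ^ j ≤ ρ ^ j := pow_le_pow_left₀ hτ.le hρ j
    have h2 : 0 < ρ ^ j := pow_pos hρ0 j
    refine le_of_mul_le_mul_right ?_ h2
    calc θ * 2 ^ (y + j + 1) * ρ ^ y * ρ ^ j = θ * 2 ^ (y + j + 1) * ρ ^ (y + j) := by ring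
      _ ≤ τ ^ (y + j) := hθ
      _ = τ ^ y * τ ^ j := pow_add _ _ _
      _ ≤ τ ^ y * ρ ^ j := by gcongr
  have hθ1 : θ ≤ 1 := by
    have h1 := hθy 0 (Nat.zero_le _)
    have h2 : (1 : ℝ) ≤ 2 ^ (c + 1) := one_le_pow₀ one_le_two
    simp only [pow_zero, mul_one] at h1
    nlinarith
  set w : ι × Finset Ω → ℝ := fun p => D p.1 p.2 / n with hw
  have hw0 : ∀ p, 0 ≤ w p := fun p => div_nonneg ((hD _).nonneg _) hn0.le
  have hw1 : ∑ p, w p = 1 := by
    rw [Fintype.sum_prod_type]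
    simp only [hw, ← Finset.sum_div, (hD _).total]
    simp [hn]
  have hws : ∀ p, w p ≠ 0 → s.Ok k t (x p.1) p.2 := fun p hp =>
    (hD _).supp _ (div_ne_zero_iff.1 hp).1
  obtain ⟨core, hcore, htail, hgood⟩ := core_exists w (fun p => p.2) hw0 hw1
    (fun p hp => (hws p hp).1.trans hk) hτ.le
  have hY : ∀ Y : Finset Ω, θ / 4 * ((∑ p, w p * ind (core p.2 = Y)) *
      ind (τ ^ Y.card ≤ 2 ^ (c + 1) * ∑ p, w p * ind (core p.2 = Y))) ≤
      (∑ a, ∑ q, w q * ind (core q.2 = Y) * ind (s.E k ρ' (x a) (x q.1) q.2)) / n := fun Y => by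
    set u : ι × Finset Ω → ℝ := fun p => w p * ind (core p.2 = Y) with hu
    have hu0 : ∀ p, 0 ≤ u p := fun p => mul_nonneg (hw0 p) (ind_nonneg _)
    set e := (∑ a, ∑ q, u q * ind (s.E k ρ' (x a) (x q.1) q.2)) / n with he
    have he0 : 0 ≤ e := div_nonneg (Finset.sum_nonneg fun a _ => Finset.sum_nonneg fun q _ =>
      mul_nonneg (hu0 q) (ind_nonneg _)) hn0.le
    set m := ∑ p, u p with hm
    by_cases hg : τ ^ Y.card ≤ 2 ^ (c + 1) * m
    swap
    · rw [ind_neg hg]; simpa using he0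
    rw [ind_pos hg, mul_one]
    have hus : ∀ p, u p ≠ 0 → s.Ok k t (x p.1) p.2 ∧ Y ⊆ p.2 := fun p hp =>
      ⟨hws p (left_ne_zero_of_mul hp), of_ind_ne (right_ne_zero_of_mul hp) ▸ hcore _⟩
    have hm0 : 0 < m := by
      have h1 : 0 < τ ^ Y.card := pow_pos hτ _
      have h2 : (0 : ℝ) < 2 ^ (c + 1) := by positivity
      exact (mul_pos_iff_of_pos_left h2).1 (h1.trans_le hg)
    have hYc : Y.card ≤ c := by
      obtain ⟨p, -, hp⟩ := Finset.exists_ne_zero_of_sum_ne_zero hm0.ne'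
      exact (Finset.card_le_card (hus p hp).2).trans ((hus p hp).1.1.trans hk)
    have hlow := pair_lower s (fun p : ι × Finset Ω => x p.1) (fun p => p.2) u hu0 Y
      (fun p hp => ⟨(hus p hp).1.1.trans hk, (hus p hp).1.2.1, (hus p hp).1.2.2.1, (hus p hp).2⟩)
      (htail Y) hg
    have hup : ∑ p, ∑ q, u p * u q * ind (s.h (x q.1) ∉ s.Pi (x p.1) ∧
        ¬ s.Z (x p.1) (p.2 ∪ q.2) ∧ s.h (x p.1) ∉ q.2 ∧ s.h (x q.1) ∉ p.2) ≤
        ρ ^ Y.card * (e + θ / 8 * m) := by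
      rw [Fintype.sum_prod_type]
      calc _ ≤ ∑ a, ∑ q, u q * (ρ ^ Y.card * (ind (s.E k ρ' (x a) (x q.1) q.2) + θ / 8)) / n := by
            refine Finset.sum_le_sum fun a _ => ?_
            rw [Finset.sum_comm]
            refine Finset.sum_le_sum fun q _ => ?_
            by_cases hq : u q = 0
            · simp [hq]
            have := pair_upper s (hD a) hρ0 hθ0 hθ1 hρ' core hcore Y q.2 (hus q hq).2 (hus q hq).1
            refine le_trans (le_of_eq ?_) (div_le_div_of_nonneg_right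
              (mul_le_mul_of_nonneg_left this (hu0 q)) hn0.le)
            rw [Finset.mul_sum, Finset.sum_div]
            refine Finset.sum_congr rfl fun C' _ => ?_
            simp only [hu, hw]
            ring
        _ = ρ ^ Y.card * (e + θ / 8 * m) := by
            have e1 : ∀ a, ∑ q, u q * (ρ ^ Y.card *
                (ind (s.E k ρ' (x a) (x q.1) q.2) + θ / 8)) / n =
                ρ ^ Y.card / n * (∑ q, u q * ind (s.E k ρ' (x a) (x q.1) q.2) + θ / 8 * m) := by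
              intro a
              rw [hm, Finset.mul_sum, ← Finset.sum_add_distrib, Finset.mul_sum]
              exact Finset.sum_congr rfl fun q _ => by ring
            simp_rw [e1]
            rw [← Finset.mul_sum, Finset.sum_add_distrib, he]
            simp only [Finset.sum_const, card_univ, nsmul_eq_mul, ← hn]
            field_simp
    have h1 : θ * ρ ^ Y.card ≤ m := by
      have h2 := (hθy _ hYc).trans hg
      have h3 : (0 : ℝ) < 2 ^ (c + 1) := by positivity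
      refine le_of_mul_le_mul_left ?_ h3
      linarith
    have h2 : 0 < ρ ^ Y.card := pow_pos hρ0 _
    refine le_of_mul_le_mul_left ?_ h2
    nlinarith [hlow.trans hup, mul_le_mul_of_nonneg_left h1 hm0.le]
  have h2 := Finset.sum_le_sum fun Y (_ : Y ∈ (univ : Finset (Finset Ω))) => hY Y
  rw [← Finset.mul_sum, ← Finset.sum_div, Finset.sum_comm] at h2
  have h3 : ∀ a, ∑ Y : Finset Ω, ∑ q, w q * ind (core q.2 = Y) * ind (s.E k ρ' (x a) (x q.1) q.2) =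
      (∑ b, ∑ C, D b C * ind (s.E k ρ' (x a) (x b) C)) / n := fun a => by
    rw [Finset.sum_comm, Fintype.sum_prod_type, Finset.sum_div]
    refine Finset.sum_congr rfl fun b _ => ?_
    rw [Finset.sum_div]
    refine Finset.sum_congr rfl fun C _ => ?_
    have := sum_ind_eq (core C) fun _ => w (b, C) * ind (s.E k ρ' (x a) (x b) C)
    rw [show D b C * ind (s.E k ρ' (x a) (x b) C) / n =
      w (b, C) * ind (s.E k ρ' (x a) (x b) C) by simp only [hw]; ring, ← this]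
    exact Finset.sum_congr rfl fun Y _ => by ring
  simp_rw [h3] at h2
  by_contra hcon
  push Not at hcon
  have h4 : ∑ a, (∑ b, ∑ C, D b C * ind (s.E k ρ' (x a) (x b) C)) / n < ∑ _a : ι, θ / 8 := by
    refine Finset.sum_lt_sum_of_nonempty Finset.univ_nonempty fun a _ => ?_
    rw [div_lt_iff₀ hn0]; exact hcon a
  simp only [Finset.sum_const, card_univ, nsmul_eq_mul, ← hn] at h4
  rw [le_div_iff₀ hn0] at h2
  nlinarith [mul_le_mul_of_nonneg_left hgood (mul_pos hθ0 hn0).le]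

end Vale.Agent.P126
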