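import Vale.Agent.P126.Build

namespace Vale.Agent.P126

open Finset

/-- At most exponential growth. -/
def Tame (f : ℕ → ℕ) : Prop := ∃ C, ∀ n, f n ≤ 2 ^ (C * (n + 1))

lemma Tame.const (a : ℕ) : Tame fun _ => a :=
  ⟨a, fun n => (Nat.lt_two_pow_self.le).trans (Nat.pow_le_pow_right (by norm_num) (by nlinarith))⟩

lemma Tame.id : Tame fun n => n :=
  ⟨1, fun n => (Nat.lt_two_pow_self (n := n)).le.trans
    (Nat.pow_le_pow_right (by norm_num) (by omega))⟩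

lemma Tame.two_pow : Tame fun n => 2 ^ n :=
  ⟨1, fun n => Nat.pow_le_pow_right (by norm_num) (by omega)⟩

lemma Tame.mul {f g : ℕ → ℕ} (hf : Tame f) (hg : Tame g) : Tame fun n => f n * g n := by
  obtain ⟨C, hC⟩ := hf
  obtain ⟨D, hD⟩ := hg
  exact ⟨C + D, fun n => by rw [add_mul, pow_add]; exact Nat.mul_le_mul (hC n) (hD n)⟩

lemma Tame.add {f g : ℕ → ℕ} (hf : Tame f) (hg : Tame g) : Tame fun n => f n + g n := by
  obtain ⟨C, hC⟩ := hf
  obtain ⟨D, hD⟩ := hg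
  refine ⟨C + D + 1, fun n => ?_⟩
  have h1 : 2 ^ (C * (n + 1)) ≤ 2 ^ ((C + D) * (n + 1)) :=
    Nat.pow_le_pow_right (by norm_num) (by nlinarith)
  have h2 : 2 ^ (D * (n + 1)) ≤ 2 ^ ((C + D) * (n + 1)) :=
    Nat.pow_le_pow_right (by norm_num) (by nlinarith)
  have h3 : 2 ^ ((C + D) * (n + 1) + 1) ≤ 2 ^ ((C + D + 1) * (n + 1)) :=
    Nat.pow_le_pow_right (by norm_num) (by nlinarith)
  have := hC n
  have := hD n
  rw [pow_succ] at h3
  change f n + g n ≤ _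
  omega

lemma Tame.pow {f : ℕ → ℕ} (hf : Tame f) (k : ℕ) : Tame fun n => f n ^ k := by
  obtain ⟨C, hC⟩ := hf
  refine ⟨C * k, fun n => (Nat.pow_le_pow_left (hC n) k).trans (le_of_eq ?_)⟩
  rw [← pow_mul]; congr 1; ring

lemma exists_pow_le (C E : ℕ) : ∃ n : ℕ, (C * (n + 1)) ^ E ≤ 2 ^ n := by
  have h1 := ((tendsto_pow_const_div_const_pow_of_one_lt E (one_lt_two (α := ℝ))).comp
    (Filter.tendsto_add_atTop_nat 1)).const_mul (2 * (C : ℝ) ^ E)
  rw [mul_zero] at h1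
  obtain ⟨n, hn⟩ := (h1.eventually (gt_mem_nhds one_pos)).exists
  refine ⟨n, ?_⟩
  simp only [Function.comp] at hn
  have h2 : 2 * (C : ℝ) ^ E * (((n + 1 : ℕ) : ℝ) ^ E / 2 ^ (n + 1)) =
      ((C * (n + 1) : ℕ) : ℝ) ^ E / 2 ^ n := by
    push_cast; rw [mul_pow]; field_simp; ring
  rw [h2, div_lt_one (by positivity)] at hn
  exact_mod_cast hn.le

lemma CoverProp.mono {T A : Type*} {f : T → A → ℝ} {N : ℕ} {D δ δ' : ℝ} (h : CoverProp f N D δ)
    (hδ : δ ≤ δ') : CoverProp f N D δ' := fun x => by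
  obtain ⟨V, h1, h2, h3⟩ := h x
  refine ⟨V, h1, h2, fun t => ?_⟩
  obtain ⟨v, hv, hv'⟩ := h3 t
  exact ⟨v, hv, hv'.trans (mul_le_mul_of_nonneg_right hδ (Nat.cast_nonneg N))⟩

lemma SampleProp.equiv {T A B : Type*} [Fintype A] [Fintype B] {f : T → A → ℝ} {N : ℕ} {δ : ℝ}
    (h : SampleProp f N δ) (e : A ≃ B) : SampleProp (fun t i => f t (e.symm i)) N δ := by
  intro μ h0 h1
  obtain ⟨x, hx⟩ := h (fun a => μ (e a)) (fun a => h0 _) (by rw [Equiv.sum_comp e μ, h1])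
  refine ⟨fun l => e (x l), fun t => ?_⟩
  rw [← Equiv.sum_comp e]
  simpa using hx t

/-- The exponents of the spread parameters. -/
def expo (c : ℕ) : ℕ → ℕ
  | 0 => 0
  | k + 1 => (2 * c + 1) * expo c k + 12

lemma num_exp {δ X N L : ℝ} (hδ : 0 < δ) (hX0 : 0 < X) (hL : 0 ≤ L) (h3 : X ≤ N)
    (h : 16 / δ + 8 * L / δ ^ 2 + 4 / δ ^ 2 ≤ X) :
    2 * Real.exp (2 * L * N / X) ≤ Real.exp (δ ^ 2 * N / 2) ∧ 8 / X ≤ δ / 2 := by
  have hδ2 : 0 < δ ^ 2 := by positivity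
  have p1 : 0 ≤ 16 / δ := by positivity
  have p2 : 0 ≤ 8 * L / δ ^ 2 := by positivity
  have p3 : 0 ≤ 4 / δ ^ 2 := by positivity
  have h1 : 8 * L ≤ X * δ ^ 2 := (div_le_iff₀ hδ2).1 (by linarith)
  have h2 : 4 ≤ X * δ ^ 2 := (div_le_iff₀ hδ2).1 (by linarith)
  have h5 : 16 ≤ X * δ := (div_le_iff₀ hδ).1 (by linarith)
  have h4 : (2 * L * N / X : ℝ) ≤ δ ^ 2 * N / 4 := by
    rw [div_le_iff₀ hX0]
    nlinarith
  refine ⟨?_, by rw [div_le_iff₀ hX0]; linarith⟩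
  calc 2 * Real.exp (2 * L * N / X) ≤ Real.exp 1 * Real.exp (δ ^ 2 * N / 4) := by
        gcongr
        linarith [Real.add_one_le_exp 1]
    _ ≤ _ := by
        rw [← Real.exp_add]
        exact Real.exp_le_exp.2 (by nlinarith)

lemma num_count {b : ℝ} (hb : 1 ≤ b) {d A2 N : ℕ} (hA2 : 4 * b * (d + 2) ≤ A2) (hN0 : 0 < N) :
    b * ((((mon (A2 * N) (d + 1 + 1)).card + (A2 * N + 1) * (mon (A2 * N) (d + 1)).card) *
      (2 * N) : ℕ) : ℝ) < (((A2 * N + 1) * (mon (A2 * N) (d + 1 + 1)).card : ℕ) : ℝ) := by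
  have hA20 : 0 < A2 := by
    have : (0 : ℝ) < 4 * b * (d + 2) := by positivity
    exact_mod_cast this.trans_le hA2
  have hw0 : 0 < A2 * N := by positivity
  obtain ⟨w, hw⟩ : ∃ w, w = A2 * N := ⟨_, rfl⟩
  rw [← hw] at hw0 ⊢
  have h1 : w * (mon w (d + 1)).card ≤ (mon w (d + 1 + 1)).card * (d + 2) := by
    rw [card_mon, card_mon, show w + (d + 1 + 1) - 1 = w + d + 1 by omega,
      show w + (d + 1) - 1 = w + d by omega, ← Nat.add_one_mul_choose_eq]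
    exact Nat.mul_le_mul_right _ (by omega)
  have h2 : 0 < (mon w (d + 1 + 1)).card := by
    rw [card_mon]
    exact Nat.choose_pos (by omega)
  generalize (mon w (d + 1 + 1)).card = W at *
  generalize (mon w (d + 1)).card = κ at *
  have h1' : (A2 : ℝ) * N * κ ≤ W * (d + 2) := by rw [hw] at h1; exact_mod_cast h1
  have h2' : (0 : ℝ) < W := by exact_mod_cast h2
  have hd2 : (0 : ℝ) < d + 2 := by positivity
  have hN0' : (0 : ℝ) < N := by exact_mod_cast hN0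
  have hκ0 : (0 : ℝ) ≤ κ := Nat.cast_nonneg κ
  have h3 : 4 * b * N * κ ≤ W := by
    refine le_of_mul_le_mul_right (le_trans ?_ h1') hd2
    nlinarith [mul_le_mul_of_nonneg_right hA2 (mul_nonneg hN0'.le hκ0)]
  have h4 : 4 * b * N ≤ (w : ℝ) := by
    rw [hw]; push_cast
    refine mul_le_mul_of_nonneg_right (le_trans ?_ hA2) hN0'.le
    nlinarith [(Nat.cast_nonneg d : (0 : ℝ) ≤ d)]
  push_cast
  nlinarith [mul_le_mul_of_nonneg_left h3 (by positivity : (0 : ℝ) ≤ w + 1),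
    mul_le_mul_of_nonneg_right h4 h2'.le]

lemma num_par {d A2 n : ℕ} (hd : 0 < d) (hA2 : 0 < A2) (hdn : d ≤ 2 ^ n) :
    Par (A2 * 2 ^ n) d (2 ^ (d + 4) * (8 * d * ((d * (A2 + 1) + 1) * (n + 1)) * (A2 * 2 ^ n))) := by
  refine ⟨by positivity, hd, (d * (A2 + 1) + 1) * (n + 1), by positivity, fun i hi => ?_, le_rfl⟩
  rw [card_mon]
  have h1 : A2 * 2 ^ n + i - 1 ≤ 2 ^ (A2 + n + 1) := by
    have a1 : A2 * 2 ^ n ≤ 2 ^ (A2 + n) := by
      rw [pow_add]; exact Nat.mul_le_mul_right _ Nat.lt_two_pow_self.le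
    have a2 : 2 ^ n ≤ A2 * 2 ^ n := Nat.le_mul_of_pos_left _ hA2
    rw [pow_succ]
    refine (Nat.sub_le _ _).trans ?_
    linarith
  calc _ ≤ (A2 * 2 ^ n + i - 1) ^ i := Nat.choose_le_pow _ _
    _ ≤ (2 ^ (A2 + n + 1)) ^ d :=
        (Nat.pow_le_pow_left h1 i).trans (Nat.pow_le_pow_right (by positivity) hi)
    _ < _ := by
        rw [← pow_mul]
        exact Nat.pow_lt_pow_right (by norm_num) (by nlinarith [Nat.zero_le (d * A2 * n)])

lemma le_exp_of_le_two_pow {B X : ℕ} (h : B ≤ 2 ^ X) : (B : ℝ) ≤ Real.exp X := by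
  refine le_trans (Nat.cast_le.2 h) ?_
  rw [Nat.cast_pow, ← mul_one (X : ℝ), Real.exp_nat_mul]
  exact pow_le_pow_left₀ (by norm_num) (by
    have := Real.add_one_le_exp 1
    push_cast; linarith) X

theorem exists_matrix {δ b : ℝ} (hδ : 0 < δ) (hb : 1 ≤ b) :
    ∃ (T A : Type) (_ : Fintype T) (_ : Fintype A) (f : T → A → ℝ) (N : ℕ),
      (∃ a, ∀ t, f t a = 0) ∧ (∀ t t', t ≠ t' → ∃ a, 1 ≤ f t a - f t' a) ∧
      SampleProp f N (4 * δ) ∧
      b * Real.log ((Fintype.card A ^ (2 * N) : ℕ) : ℝ) < Real.log (Fintype.card T) := by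
  obtain ⟨L, hL⟩ := exists_nat_gt (2 / δ)
  have hL0' : (0 : ℝ) < L := lt_trans (by positivity) hL
  have hL0 : 0 < L := by exact_mod_cast hL0'
  obtain ⟨c, hc⟩ : ∃ c, ∀ k < L, 2 ^ k - 1 ≤ c := ⟨2 ^ L, fun k hk =>
    le_trans (Nat.sub_le _ _) (Nat.pow_le_pow_right (by norm_num) hk.le)⟩
  obtain ⟨A2, hA2⟩ := exists_nat_ge (4 * b * ((2 * c + 1 : ℕ) + 2))
  have hA20 : 0 < A2 := by
    have : (0 : ℝ) < 4 * b * ((2 * c + 1 : ℕ) + 2) := by positivity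
    exact_mod_cast this.trans_le hA2
  obtain ⟨E, hE⟩ : ∃ E, ∀ k < L, c * expo c k + 5 ≤ E :=
    ⟨(range L).sup fun k => c * expo c k + 5, fun k hk =>
      Finset.le_sup (f := fun k => c * expo c k + 5) (Finset.mem_range.2 hk)⟩
  obtain ⟨lam, hlam⟩ : ∃ lam : ℕ → ℕ, lam = fun n => 2 ^ (2 * c + 1 + 4) * (8 * (2 * c + 1) *
    (((2 * c + 1) * (A2 + 1) + 1) * (n + 1)) * (A2 * 2 ^ n)) := ⟨_, rfl⟩
  obtain ⟨r, hr⟩ : ∃ r : ℕ → ℕ, r = fun n => (2 * c + 1 + 1) * (lam n ^ (2 * c + 1) * (2 * c + 1)) :=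
    ⟨_, rfl⟩
  have hlamT : Tame lam := hlam ▸ (Tame.const _).mul (((Tame.const _).mul ((Tame.const _).mul
    (Tame.id.add (Tame.const 1)))).mul ((Tame.const _).mul Tame.two_pow))
  have hrT : Tame r := hr ▸ (Tame.const _).mul ((hlamT.pow _).mul (Tame.const _))
  obtain ⟨CB, hCB⟩ : Tame fun n => 1 + 2 ^ n * ((c + 1) * (2 ^ n * (1 + r n + 2 ^ n * r n) + 1) ^ c) :=
    (Tame.const 1).add (Tame.two_pow.mul ((Tame.const _).mul (((Tame.two_pow.mul
      (((Tame.const 1).add hrT).add (Tame.two_pow.mul hrT))).add (Tame.const 1)).pow c)))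
  obtain ⟨CR, hCR⟩ := exists_nat_ge (16 / δ + 8 * L / δ ^ 2 + 4 / δ ^ 2)
  obtain ⟨C, hC1, hC2, hC3, hC4, hC5⟩ : ∃ C : ℕ, 2 ^ (c + 4) ≤ C ∧ 2 ^ (c + 6) * (c + 1) *
      (2 ^ (2 * c + 1 + 4) * (8 * (2 * c + 1) * ((2 * c + 1) * (A2 + 1) + 1) * A2)) ≤ C ∧
      CB ≤ C ∧ CR ≤ C ∧ 2 * c + 1 ≤ C := by
    generalize 2 ^ (c + 4) = u
    generalize 2 ^ (c + 6) * (c + 1) *
      (2 ^ (2 * c + 1 + 4) * (8 * (2 * c + 1) * ((2 * c + 1) * (A2 + 1) + 1) * A2)) = v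
    exact ⟨u + v + CB + CR + (2 * c + 1), by omega, by omega, by omega, by omega, by omega⟩
  obtain ⟨n, hn⟩ := exists_pow_le C E
  obtain ⟨X, hX⟩ : ∃ X, X = C * (n + 1) := ⟨_, rfl⟩
  rw [← hX] at hn
  have hCX : C ≤ X := hX ▸ Nat.le_mul_of_pos_right _ (Nat.succ_pos n)
  have hX1 : 1 ≤ X := by omega
  have hXN : X ≤ 2 ^ n := le_trans (Nat.le_self_pow (by have := hE 0 hL0; omega) X) hn
  have hP : Par (A2 * 2 ^ n) (2 * c + 1) (lam n) :=
    hlam ▸ num_par (by omega) hA20 (hC5.trans (hCX.trans hXN))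
  have hlam0 : (0 : ℝ) < lam n := by exact_mod_cast hP.lam_pos
  have h1 : 2 ^ (c + 6) * (c + 1) * lam n ≤ X * 2 ^ n := by
    refine le_trans (le_of_eq ?_) (Nat.mul_le_mul_right (2 ^ n)
      (hX ▸ Nat.mul_le_mul_right (n + 1) hC2))
    simp only [hlam]; ring
  have hB := le_exp_of_le_two_pow (X := X) ((hCB n).trans (Nat.pow_le_pow_right (by norm_num)
    (hX ▸ Nat.mul_le_mul_right (n + 1) hC3)))
  simp only [hr] at hB
  have hN0 : 0 < 2 ^ n := by positivity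
  generalize 2 ^ n = N at *
  obtain ⟨τ, hτ⟩ : ∃ τ : ℝ, τ = 1 / (2 ^ (c + 6) * (c + 1) * lam n) := ⟨_, rfl⟩
  have hτ0 : 0 < τ := by rw [hτ]; positivity
  obtain ⟨q, Ω, A, T, _, _, _, _, s, hq, hT, hA, ⟨a0, ha0⟩, hsep⟩ := exists_sys (A2 * N + 1) hP
    hτ0 (le_of_eq (by rw [hτ]; field_simp))
  have hX0 : (0 : ℝ) < X := by exact_mod_cast hX1
  have hcov := cover s (N := N) (X := X) hL0 (fun k => 2 ^ k - 1) (expo c)
    (fun k => by have := Nat.one_le_two_pow (n := k); rw [pow_succ]; omega) hc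
    (fun k => rfl) (hC1.trans hCX)
    (by
      have h2 : (2 ^ (c + 6) * (c + 1) * lam n : ℝ) ≤ X * N := by exact_mod_cast h1
      rw [hτ, mul_right_comm, mul_one_div, one_le_div (by positivity)]
      exact h2)
    (fun k hk => (Nat.pow_le_pow_right hX1 (hE k hk)).trans hn) hB
  obtain ⟨g1, g2⟩ := num_exp hδ hX0 hL0'.le (N := N) (by exact_mod_cast hXN)
    (hCR.trans (by exact_mod_cast hC4.trans hCX))
  have hsample := sample_of_cover hN0 hδ g1 (hcov.mono (δ' := δ) (by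
      have h2 : 2 < L * δ := (div_lt_iff₀ hδ).1 hL
      have h4 : (1 / L : ℝ) ≤ δ / 2 := by rw [div_le_iff₀ hL0']; linarith
      linarith))
  refine ⟨T, A, inferInstance, inferInstance, _, N, ⟨a0, fun t => ?_⟩, fun t t' htt => ?_,
    hsample, ?_⟩
  · simp [Sys.mat, ind_neg (ha0 _ _ _)]
  · obtain ⟨a, h1, h2⟩ := hsep t t' htt
    refine ⟨a, ?_⟩
    unfold Sys.mat
    rw [Finset.sum_congr rfl fun k _ => ind_pos (h1 _ _ (by positivity)),
      Finset.sum_eq_zero fun k hk => ind_neg (h2 _ (hc k (Finset.mem_range.1 hk)) _)]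
    simp [hL0'.ne']
  · rw [hT, hA, ← pow_mul, Nat.cast_pow, Nat.cast_pow, Real.log_pow, Real.log_pow, ← mul_assoc]
    exact mul_lt_mul_of_pos_right (num_count hb hA2 hN0) (Real.log_pos (by exact_mod_cast hq))

theorem counterexample {a b : ℝ} (ha : 1 ≤ a) (hb : 1 ≤ b) :
    ∃ n : ℕ, 1 ≤ n ∧ ∃ K L : Set (EuclideanSpace ℝ (Fin n)), IsSymmBody K ∧ IsSymmBody L ∧
      b * Real.log (coverNum (polarBody L) (dilate a⁻¹ (polarBody K))) <
        Real.log (coverNum K L) := by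
  obtain ⟨T, A, _, _, f, N, ⟨a0, h0⟩, hsep, hs, hlt⟩ :=
    exists_matrix (δ := 1 / (48 * a)) (by positivity) hb
  have hA : 0 < Fintype.card A := Fintype.card_pos_iff.2 ⟨a0⟩
  have hlog : 0 ≤ Real.log ((Fintype.card A ^ (2 * N) : ℕ) : ℝ) := Real.log_natCast_nonneg _
  have hT : 0 < Fintype.card T := by
    by_contra h
    rw [show Fintype.card T = 0 by omega, Nat.cast_zero, Real.log_zero] at hlt
    nlinarith
  have : Nonempty T := Fintype.card_pos_iff.1 hT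
  set e := Fintype.equivFin A with he
  obtain ⟨K, L, hK, hL, h1, h2⟩ := geom_counter (fun t i => f t (e.symm i)) (e a0)
    (fun t => by simp [h0]) (fun t t' h => by
      obtain ⟨x, hx⟩ := hsep t t' h
      exact ⟨e x, by simpa using hx⟩) ha (N := N) (by
      have := hs.equiv e
      rwa [show 4 * (1 / (48 * a)) = 1 / (12 * a) by field_simp; norm_num] at this)
  refine ⟨_, hA, K, L, hK, hL, lt_of_le_of_lt ?_ (hlt.trans_le ?_)⟩
  · refine mul_le_mul_of_nonneg_left ?_ (by linarith)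
    rcases Nat.eq_zero_or_pos (coverNum (polarBody L) (dilate a⁻¹ (polarBody K))) with h | h
    · rw [h, Nat.cast_zero, Real.log_zero]; exact hlog
    · exact Real.log_le_log (by exact_mod_cast h) (by exact_mod_cast h2)
  · exact Real.log_le_log (by exact_mod_cast hT) (by exact_mod_cast h1)

end Vale.Agent.P126
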