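import Vale.Agent.P126.Geom

namespace Vale.Agent.P126

open Finset

lemma exists_le_of_wsum_le {X : Type*} [Fintype X] (w g : X → ℝ) (hw : ∀ x, 0 ≤ w x)
    (h1 : ∑ x, w x = 1) {c : ℝ} (h : ∑ x, w x * g x ≤ c) : ∃ x, 0 < w x ∧ g x ≤ c := by
  by_contra hcon
  push Not at hcon
  have hex : ∃ x, 0 < w x := by
    by_contra h0
    push Not at h0
    have : ∑ x, w x ≤ 0 := Finset.sum_nonpos fun x _ => h0 x
    linarith
  obtain ⟨x0, hx0⟩ := hex
  have : ∑ x, w x * c < ∑ x, w x * g x := by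
    refine Finset.sum_lt_sum (fun x _ => ?_) ⟨x0, mem_univ _, ?_⟩
    · rcases (hw x).eq_or_lt with h | h
      · rw [← h]; simp
      · exact mul_le_mul_of_nonneg_left (hcon x h).le (hw x)
    · exact mul_lt_mul_of_pos_left (hcon x0 hx0) hx0
  rw [← Finset.sum_mul, h1, one_mul] at this
  linarith

lemma sum_prod_pi {ι X : Type*} [Fintype ι] [DecidableEq ι] [Fintype X] (g : ι → X → ℝ) :
    ∑ x : ι → X, ∏ l, g l (x l) = ∏ l, ∑ a, g l a := by
  rw [Finset.prod_univ_sum, Fintype.piFinset_univ]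

lemma sum_prod_one {ι X : Type*} [Fintype ι] [DecidableEq ι] [Fintype X] (μ : X → ℝ)
    (h1 : ∑ a, μ a = 1) : ∑ x : ι → X, ∏ l, μ (x l) = 1 := by
  rw [sum_prod_pi (fun _ a => μ a)]; simp [h1]

lemma sum_prod_marginal {ι X : Type*} [Fintype ι] [DecidableEq ι] [Fintype X] (μ g : X → ℝ)
    (h1 : ∑ a, μ a = 1) (l0 : ι) :
    ∑ x : ι → X, (∏ l, μ (x l)) * g (x l0) = ∑ a, μ a * g a := by
  have := sum_prod_pi (fun l a => μ a * if l = l0 then g a else 1)
  simp only [Finset.prod_mul_distrib, Finset.prod_ite_eq', mem_univ, if_true] at this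
  rw [this, Finset.prod_eq_single l0]
  · simp
  · intro l _ hl; simp [hl, h1]
  · simp

/-- Every restriction of the rows to `N` columns is approximated in `ℓ¹` by a small set. -/
def CoverProp {T A : Type*} (f : T → A → ℝ) (N : ℕ) (D δ : ℝ) : Prop :=
  ∀ x : Fin N → A, ∃ V : Finset (Fin N → ℝ), (V.card : ℝ) ≤ D ∧ (∀ v ∈ V, ∀ l, |v l| ≤ 1) ∧
    ∀ t, ∃ v ∈ V, ∑ l, |f t (x l) - v l| ≤ δ * N

/-- The sign of a boolean. -/
def sg (b : Bool) : ℝ := if b then 1 else -1

lemma sum_exp_sign {N : ℕ} (v : Fin N → ℝ) (hv : ∀ l, |v l| ≤ 1) (s : ℝ) :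
    ∑ σ : Fin N → Bool, Real.exp (s * ∑ l, sg (σ l) * v l) ≤ 2 ^ N * Real.exp (s ^ 2 * N / 2) := by
  simp_rw [Finset.mul_sum, Real.exp_sum]
  rw [sum_prod_pi (fun l b => Real.exp (s * (sg b * v l)))]
  calc ∏ l, ∑ b, Real.exp (s * (sg b * v l)) ≤ ∏ _l : Fin N, 2 * Real.exp (s ^ 2 / 2) := by
        refine Finset.prod_le_prod (fun l _ => by positivity) fun l _ => ?_
        have h1 := Real.cosh_le_exp_half_sq (s * v l)
        rw [Real.cosh_eq] at h1
        have h2 : Real.exp ((s * v l) ^ 2 / 2) ≤ Real.exp (s ^ 2 / 2) := by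
          refine Real.exp_le_exp.2 ?_
          have : v l ^ 2 ≤ 1 := by
            rw [← sq_abs]; exact pow_le_one₀ (abs_nonneg _) (hv l)
          nlinarith [sq_nonneg s]
        simp only [Fintype.sum_bool, sg, if_true, Bool.false_eq_true, if_false, one_mul, neg_mul,
          mul_neg]
        linarith
    _ = 2 ^ N * Real.exp (s ^ 2 * N / 2) := by
        rw [Finset.prod_const, card_univ, Fintype.card_fin, mul_pow, ← Real.exp_nat_mul]
        congr 2; ring

lemma massart {T A : Type*} {f : T → A → ℝ} {N : ℕ} {D δ : ℝ} (hδ : 0 < δ)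
    (hD : 2 * D ≤ Real.exp (δ ^ 2 * N / 2)) (h : CoverProp f N D δ) (x : Fin N → A) :
    ∃ B : (Fin N → Bool) → ℝ, (∀ σ, 0 ≤ B σ) ∧ (∀ σ t, |∑ l, sg (σ l) * f t (x l)| ≤ B σ) ∧
      ∑ σ, B σ ≤ 2 ^ N * (2 * δ * N) := by
  obtain ⟨V, hVc, hV1, hV⟩ := h x
  by_cases hVe : V = ∅
  · refine ⟨fun _ => 0, fun _ => le_rfl, fun σ t => ?_, ?_⟩
    · obtain ⟨v, hv, -⟩ := hV t
      simp [hVe] at hv
    · simp only [Finset.sum_const_zero]; positivity
  set a := δ ^ 2 * N with ha
  set B : (Fin N → Bool) → ℝ := fun σ => δ * N + (a - 1 + Real.exp (-a) * ∑ v ∈ V,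
    (Real.exp (δ * ∑ l, sg (σ l) * v l) + Real.exp (-δ * ∑ l, sg (σ l) * v l))) / δ with hB
  have key : ∀ σ, ∀ v ∈ V, δ * N + |∑ l, sg (σ l) * v l| ≤ B σ := fun σ v hv => by
    simp only [hB, add_le_add_iff_left]
    rw [le_div_iff₀ hδ]
    set S := ∑ l, sg (σ l) * v l with hS
    have h1 : Real.exp (|S| * δ) ≤ Real.exp (δ * S) + Real.exp (-δ * S) := by
      rcases abs_cases S with h | h
      · rw [h.1, mul_comm]; linarith [Real.exp_pos (-δ * S)]
      · rw [h.1, show -S * δ = -δ * S by ring]; linarith [Real.exp_pos (δ * S)]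
    have h2 : Real.exp (δ * S) + Real.exp (-δ * S) ≤ ∑ v ∈ V,
        (Real.exp (δ * ∑ l, sg (σ l) * v l) + Real.exp (-δ * ∑ l, sg (σ l) * v l)) :=
      Finset.single_le_sum (f := fun v : Fin N → ℝ =>
        Real.exp (δ * ∑ l, sg (σ l) * v l) + Real.exp (-δ * ∑ l, sg (σ l) * v l))
        (fun v _ => by positivity) hv
    have h3 := Real.add_one_le_exp (|S| * δ - a)
    rw [sub_eq_add_neg, Real.exp_add] at h3
    have h4 := mul_le_mul_of_nonneg_left (h1.trans h2) (Real.exp_pos (-a)).le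
    linarith
  refine ⟨B, fun σ => ?_, fun σ t => ?_, ?_⟩
  · obtain ⟨v, hv⟩ := Finset.nonempty_iff_ne_empty.2 hVe
    exact le_trans (by positivity) (key σ v hv)
  · obtain ⟨v, hv, hv'⟩ := hV t
    refine le_trans ?_ (key σ v hv)
    have : ∑ l, sg (σ l) * f t (x l) =
        ∑ l, sg (σ l) * (f t (x l) - v l) + ∑ l, sg (σ l) * v l := by
      rw [← Finset.sum_add_distrib]
      exact Finset.sum_congr rfl fun l _ => by ring
    rw [this]
    refine (abs_add_le _ _).trans (add_le_add_left ?_ _)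
    refine (Finset.abs_sum_le_sum_abs _ _).trans (le_trans (le_of_eq ?_) hv')
    refine Finset.sum_congr rfl fun l _ => ?_
    rw [abs_mul]
    cases σ l <;> simp [sg]
  · have h1 : ∑ σ : Fin N → Bool, ∑ v ∈ V,
        (Real.exp (δ * ∑ l, sg (σ l) * v l) + Real.exp (-δ * ∑ l, sg (σ l) * v l)) ≤
        2 ^ N * Real.exp a := by
      rw [Finset.sum_comm]
      calc _ ≤ ∑ _v ∈ V, 2 * (2 ^ N * Real.exp (a / 2)) := by
            refine Finset.sum_le_sum fun v hv => ?_
            rw [Finset.sum_add_distrib]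
            have h1 := sum_exp_sign v (hV1 v hv) δ
            have h2 := sum_exp_sign v (hV1 v hv) (-δ)
            rw [neg_sq] at h2
            linarith
        _ = 2 ^ N * ((2 * V.card) * Real.exp (a / 2)) := by
            rw [Finset.sum_const, nsmul_eq_mul]; ring
        _ ≤ 2 ^ N * (Real.exp (a / 2) * Real.exp (a / 2)) := by
            gcongr; linarith
        _ = 2 ^ N * Real.exp a := by rw [← Real.exp_add]; congr 2; ring
    simp only [hB]
    rw [Finset.sum_add_distrib, ← Finset.sum_div, Finset.sum_add_distrib,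
      ← Finset.mul_sum _ _ (Real.exp (-a))]
    simp only [Finset.sum_const, card_univ, Fintype.card_fun, Fintype.card_bool, Fintype.card_fin,
      nsmul_eq_mul, Nat.cast_pow, Nat.cast_ofNat]
    have h2 := mul_le_mul_of_nonneg_left h1 (Real.exp_pos (-a)).le
    have h3 : Real.exp (-a) * (2 ^ N * Real.exp a) = 2 ^ N := by
      rw [mul_left_comm, ← Real.exp_add]; simp
    rw [h3] at h2
    have h4 : (2 ^ N * (a - 1) + 2 ^ N) / δ = 2 ^ N * (δ * N) := by
      rw [ha]; field_simp; ring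
    have h5 : (2 ^ N * (a - 1) + Real.exp (-a) * ∑ σ : Fin N → Bool, ∑ v ∈ V,
        (Real.exp (δ * ∑ l, sg (σ l) * v l) + Real.exp (-δ * ∑ l, sg (σ l) * v l))) / δ ≤
        (2 ^ N * (a - 1) + 2 ^ N) / δ := by gcongr
    linarith

theorem sample_of_cover {T A : Type*} [Fintype A] [Finite T] {f : T → A → ℝ} {N : ℕ} {D δ : ℝ}
    (hN : 0 < N) (hδ : 0 < δ) (hD : 2 * D ≤ Real.exp (δ ^ 2 * N / 2)) (h : CoverProp f N D δ) :
    SampleProp f N (4 * δ) := by
  classical
  intro μ hμ h1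
  choose B hB0 hB hBs using massart hδ hD h
  set P : (Fin N → A) → ℝ := fun x => ∏ l, μ (x l) with hP
  have hP0 : ∀ x, 0 ≤ P x := fun x => Finset.prod_nonneg fun l _ => hμ _
  have hP1 : ∑ x, P x = 1 := sum_prod_one μ h1
  set Φ : (Fin N → A) × (Fin N → A) → ℝ :=
    fun p => ⨆ t, |∑ l, (f t (p.2 l) - f t (p.1 l))| with hΦ
  have hΦle : ∀ p t, |∑ l, (f t (p.2 l) - f t (p.1 l))| ≤ Φ p := fun p t =>
    le_ciSup (f := fun t => |∑ l, (f t (p.2 l) - f t (p.1 l))|) (Finite.bddAbove_range _) t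
  have hsym : ∀ σ : Fin N → Bool, ∑ p : (Fin N → A) × (Fin N → A), P p.1 * P p.2 * Φ p ≤
      2 * ∑ x, P x * B x σ := fun σ => by
    set sw : (Fin N → A) × (Fin N → A) → (Fin N → A) × (Fin N → A) := fun p =>
      (fun l => if σ l then p.1 l else p.2 l, fun l => if σ l then p.2 l else p.1 l) with hsw
    have hinv : Function.Involutive sw := fun p => by
      ext l <;> simp only [hsw] <;> split_ifs <;> rfl
    rw [← Equiv.sum_comp hinv.toPerm]
    calc ∑ p, P (hinv.toPerm sw p).1 * P (hinv.toPerm sw p).2 * Φ (hinv.toPerm sw p)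
        ≤ ∑ p : (Fin N → A) × (Fin N → A), P p.1 * P p.2 * (B p.1 σ + B p.2 σ) := by
          refine Finset.sum_le_sum fun p _ => ?_
          have h2 : P (sw p).1 * P (sw p).2 = P p.1 * P p.2 := by
            simp only [hP, hsw, ← Finset.prod_mul_distrib]
            refine Finset.prod_congr rfl fun l _ => ?_
            split_ifs
            · rfl
            · ring
          simp only [Function.Involutive.coe_toPerm]
          rw [h2]
          refine mul_le_mul_of_nonneg_left ?_ (mul_nonneg (hP0 _) (hP0 _))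
          refine Real.iSup_le (fun t => ?_) (add_nonneg (hB0 _ _) (hB0 _ _))
          have h3 : ∑ l, (f t ((sw p).2 l) - f t ((sw p).1 l)) =
              ∑ l, sg (σ l) * f t (p.2 l) - ∑ l, sg (σ l) * f t (p.1 l) := by
            rw [← Finset.sum_sub_distrib]
            refine Finset.sum_congr rfl fun l _ => ?_
            simp only [hsw, sg]
            split_ifs <;> ring
          rw [h3]
          refine (abs_sub _ _).trans ?_
          linarith [hB p.1 σ t, hB p.2 σ t]
      _ = 2 * ∑ x, P x * B x σ := by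
          rw [Fintype.sum_prod_type]
          simp_rw [mul_add, Finset.sum_add_distrib]
          have e1 : ∑ x, ∑ y, P x * P y * B x σ = ∑ x, P x * B x σ := by
            refine Finset.sum_congr rfl fun x _ => ?_
            simp_rw [mul_right_comm (P x)]
            rw [← Finset.mul_sum, hP1, mul_one]
          have e2 : ∑ x, ∑ y, P x * P y * B y σ = ∑ x, P x * B x σ := by
            simp_rw [mul_assoc, ← Finset.mul_sum]
            rw [← Finset.sum_mul, hP1, one_mul]
          rw [e1, e2]; ring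
  have htot : ∑ p : (Fin N → A) × (Fin N → A), P p.1 * P p.2 * Φ p ≤ 4 * δ * N := by
    have h2 := Finset.sum_le_sum fun σ (_ : σ ∈ (univ : Finset (Fin N → Bool))) => hsym σ
    rw [← Finset.mul_sum, Finset.sum_const, Finset.sum_comm] at h2
    simp only [card_univ, Fintype.card_fun, Fintype.card_bool, Fintype.card_fin,
      nsmul_eq_mul, Nat.cast_pow, Nat.cast_ofNat, ← Finset.mul_sum] at h2
    have h3 : ∑ x, P x * ∑ σ, B x σ ≤ ∑ x, P x * (2 ^ N * (2 * δ * N)) :=
      Finset.sum_le_sum fun x _ => mul_le_mul_of_nonneg_left (hBs x) (hP0 x)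
    rw [← Finset.sum_mul, hP1, one_mul] at h3
    have h4 : (0 : ℝ) < 2 ^ N := by positivity
    have h5 : (2 : ℝ) ^ N * ∑ p : (Fin N → A) × (Fin N → A), P p.1 * P p.2 * Φ p ≤
        2 ^ N * (4 * δ * N) := by linarith
    exact le_of_mul_le_mul_left h5 h4
  rw [Fintype.sum_prod_type] at htot
  simp_rw [mul_assoc, ← Finset.mul_sum] at htot
  obtain ⟨x, -, hx⟩ := exists_le_of_wsum_le P _ hP0 hP1 htot
  refine ⟨x, fun t => ?_⟩
  have hN' : (0 : ℝ) < N := by exact_mod_cast hN
  have h2 : ∑ i, μ i * f t i - (∑ l, f t (x l)) / N =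
      (∑ y, P y * ∑ l, (f t (y l) - f t (x l))) / N := by
    simp_rw [Finset.sum_sub_distrib, mul_sub, Finset.sum_sub_distrib, ← Finset.sum_mul, hP1,
      Finset.mul_sum]
    rw [Finset.sum_comm]
    simp only [hP, sum_prod_marginal μ (f t) h1]
    simp only [Finset.sum_const, card_univ, Fintype.card_fin, nsmul_eq_mul, one_mul]
    field_simp
  rw [h2, abs_div, abs_of_pos hN', div_le_iff₀ hN']
  refine le_trans ((Finset.abs_sum_le_sum_abs _ _).trans (Finset.sum_le_sum fun y _ => ?_))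
    (hx.trans_eq (by ring))
  rw [abs_mul, abs_of_nonneg (hP0 y)]
  exact mul_le_mul_of_nonneg_left (hΦle (x, y) t) (hP0 y)

end Vale.Agent.P126
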