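import Vale.Agent.P126.Level

namespace Vale.Agent.P126

open Finset

set_option linter.unusedSectionVars false

variable {Ω A T : Type} [Fintype Ω] [DecidableEq Ω] {c r : ℕ} {τ : ℝ} (s : Sys Ω A T c r τ)

lemma union_spread {X : Type} [Fintype X] (ω : X → ℝ) (hω : ∀ p, 0 ≤ ω p) (S1 S2 : X → Finset Ω)
    {α β c0 : ℝ} (h : ∀ Y1 Y2 : Finset Ω,
      ∑ p, ω p * ind (Y1 ⊆ S1 p) * ind (Y2 ⊆ S2 p) ≤ c0 * (α ^ Y1.card * β ^ Y2.card))
    (Y : Finset Ω) : ∑ p, ω p * ind (Y ⊆ S1 p ∪ S2 p) ≤ c0 * (α + β) ^ Y.card := by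
  calc ∑ p, ω p * ind (Y ⊆ S1 p ∪ S2 p)
      ≤ ∑ p, ω p * ∑ Y1 ∈ Y.powerset, ind (Y1 ⊆ S1 p ∧ Y \ Y1 ⊆ S2 p) := by
        refine Finset.sum_le_sum fun p _ => mul_le_mul_of_nonneg_left
          (ind_le_sum _ _ fun hY => ⟨Y ∩ S1 p, Finset.mem_powerset.2 Finset.inter_subset_left,
            Finset.inter_subset_right, fun q hq => ?_⟩) (hω p)
        rw [Finset.mem_sdiff, Finset.mem_inter] at hq
        rcases Finset.mem_union.1 (hY hq.1) with h | h
        · exact absurd ⟨hq.1, h⟩ hq.2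
        · exact h
    _ = ∑ Y1 ∈ Y.powerset, ∑ p, ω p * ind (Y1 ⊆ S1 p) * ind (Y \ Y1 ⊆ S2 p) := by
        simp_rw [Finset.mul_sum, ind_and, mul_assoc]; rw [Finset.sum_comm]
    _ ≤ ∑ Y1 ∈ Y.powerset, c0 * (α ^ Y1.card * β ^ (Y.card - Y1.card)) := by
        refine Finset.sum_le_sum fun Y1 hY1 => ?_
        rw [← Finset.card_sdiff_of_subset (Finset.mem_powerset.1 hY1)]
        exact h _ _
    _ = c0 * (α + β) ^ Y.card := by rw [← Finset.mul_sum, Finset.sum_pow_mul_eq_add_pow]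

theorem sound {ι : Type} [Fintype ι] [Nonempty ι] (x : ι → A) {k : ℕ} {ρ ρ' ρh ρp η : ℝ} {t : T}
    (D : ι → Finset Ω → ℝ) (hD : ∀ i, IsSpread (s.Ok k t (x i)) ρ (D i)) (hk : k ≤ c) (a : A)
    (hρ : 0 ≤ ρ) (hρ' : 0 ≤ ρ') (hρh0 : 0 ≤ ρh)
    (hρh : ∀ p, ∑ b, ind (p ∈ ({s.h (x b)} : Finset Ω).erase (s.h a)) ≤ ρh * Fintype.card ι)
    (hη0 : 0 < η) (hη1 : η ≤ 1)
    (hmass : η * Fintype.card ι ≤ ∑ b, ∑ C, D b C * ind (s.E k ρ' a (x b) C))
    (hρp : ρh + (ρ + ρ') ≤ η * ρp) : s.Lev (2 * k + 1) ρp t a := by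
  set n : ℝ := (Fintype.card ι : ℝ) with hn
  have hn0 : 0 < n := by rw [hn]; exact_mod_cast Fintype.card_pos
  have hex : ∀ b C, ∃ D' : Finset Ω → ℝ, (∀ C', 0 ≤ D' C') ∧ (s.E k ρ' a (x b) C →
      IsSpread (fun C' => C'.card ≤ k ∧ s.h a ∉ C' ∧ s.h (x b) ∉ C' ∧ ¬ s.Z a (C ∪ C') ∧
        s.Ag a (x b) (C ∪ C')) ρ' D') := fun b C => by
    by_cases hE : s.E k ρ' a (x b) C
    · obtain ⟨D', hD'⟩ := hE.2.2.2
      exact ⟨D', hD'.nonneg, fun _ => hD'⟩
    · exact ⟨fun _ => 0, fun _ => le_rfl, fun h => absurd h hE⟩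
  choose D' hD'0 hD' using hex
  set ω : ι × Finset Ω × Finset Ω → ℝ := fun p =>
    D p.1 p.2.1 * ind (s.E k ρ' a (x p.1) p.2.1) * D' p.1 p.2.1 p.2.2 with hω
  have hω0 : ∀ p, 0 ≤ ω p := fun p =>
    mul_nonneg (mul_nonneg ((hD _).nonneg _) (ind_nonneg _)) (hD'0 _ _ _)
  have htot : ∑ p, ω p = ∑ b, ∑ C, D b C * ind (s.E k ρ' a (x b) C) := by
    rw [Fintype.sum_prod_type]
    refine Finset.sum_congr rfl fun b _ => ?_
    rw [Fintype.sum_prod_type]
    refine Finset.sum_congr rfl fun C _ => ?_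
    simp only [hω, ← Finset.mul_sum]
    by_cases hE : s.E k ρ' a (x b) C
    · rw [(hD' b C hE).total, mul_one]
    · rw [ind_neg hE]; simp
  have hpos : 0 < ∑ p, ω p := by rw [htot]; exact lt_of_lt_of_le (by positivity) hmass
  refine Spread.of_family ω
    (fun p => ({s.h (x p.1)} : Finset Ω).erase (s.h a) ∪ (p.2.1 ∪ p.2.2)) hω0 hpos
    (fun p hp => ?_) fun Y hY => ?_
  · obtain ⟨b, C, C'⟩ := p
    have hE : s.E k ρ' a (x b) C := of_ind_ne (right_ne_zero_of_mul (left_ne_zero_of_mul hp))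
    obtain ⟨c1, -, -, c4⟩ := (hD b).supp C (left_ne_zero_of_mul (left_ne_zero_of_mul hp))
    obtain ⟨d1, d2, d3, d4, d5⟩ := (hD' b C hE).supp C' (right_ne_zero_of_mul hp)
    obtain ⟨e1, e2, e3, -⟩ := hE
    have hW : (C ∪ C').card ≤ 2 * k := (Finset.card_union_le _ _).trans (by omega)
    have hX : (({s.h (x b)} : Finset Ω).erase (s.h a) ∪ (C ∪ C')).card ≤ 2 * k + 1 := by
      refine (Finset.card_union_le _ _).trans ?_
      have : (({s.h (x b)} : Finset Ω).erase (s.h a)).card ≤ 1 :=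
        Finset.card_erase_le.trans (by simp)
      omega
    refine ⟨hX, by simp [e2, d2], fun hZ => d4 ?_, s.transfer t a (x b) C _ c4
      Finset.subset_union_left d5 (by simp [e3, d3])⟩
    refine s.juntaZ a _ _ (hX.trans (by omega)) (by omega) ?_ hZ
    ext p
    simp only [Finset.mem_inter, Finset.mem_union, Finset.mem_erase, Finset.mem_singleton]
    constructor
    · rintro ⟨⟨-, h⟩ | h, h'⟩
      · exact absurd (h ▸ h') e1
      · exact ⟨h, h'⟩
    · rintro ⟨h, h'⟩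
      exact ⟨Or.inr h, h'⟩
  · have h1 := union_spread ω hω0 (fun p => ({s.h (x p.1)} : Finset Ω).erase (s.h a))
      (fun p => p.2.1 ∪ p.2.2) (α := ρh) (β := ρ + ρ') (c0 := n) (fun Y1 Y2 => ?_) Y
    · refine h1.trans ?_
      obtain ⟨j, hj⟩ : ∃ j, Y.card = j + 1 := ⟨Y.card - 1, by have := hY.card_pos; omega⟩
      have hρp0 : 0 ≤ ρp := by
        by_contra h
        push Not at h
        nlinarith
      have h2 : ρh + (ρ + ρ') ≤ ρp := by nlinarith
      rw [htot, hj]
      calc n * (ρh + (ρ + ρ')) ^ (j + 1) = n * ((ρh + (ρ + ρ')) ^ j * (ρh + (ρ + ρ'))) := by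
            rw [pow_succ]
        _ ≤ n * (ρp ^ j * (η * ρp)) := by gcongr
        _ = η * n * ρp ^ (j + 1) := by ring
        _ ≤ _ := by gcongr
    · have h2 : ∀ b, ∑ q : Finset Ω × Finset Ω, ω (b, q) * ind (Y2 ⊆ q.1 ∪ q.2) ≤
          1 * (ρ + ρ') ^ Y2.card := fun b => by
        refine union_spread (fun q => ω (b, q)) (fun q => hω0 _) _ _ (fun Y3 Y4 => ?_) Y2
        rw [Fintype.sum_prod_type, one_mul]
        calc _ ≤ ∑ C, D b C * ind (Y3 ⊆ C) * ρ' ^ Y4.card := by
              refine Finset.sum_le_sum fun C _ => ?_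
              have h0 := mul_nonneg ((hD b).nonneg C) (ind_nonneg (Y3 ⊆ C))
              by_cases hE : s.E k ρ' a (x b) C
              · refine le_trans (le_of_eq ?_)
                  (mul_le_mul_of_nonneg_left ((hD' b C hE).spread Y4) h0)
                rw [Finset.mul_sum]
                refine Finset.sum_congr rfl fun C' _ => ?_
                simp only [hω, ind_pos hE]; ring
              · simp only [hω, ind_neg hE, mul_zero, zero_mul, Finset.sum_const_zero]
                positivity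
          _ ≤ ρ ^ Y3.card * ρ' ^ Y4.card := by
              rw [← Finset.sum_mul]
              exact mul_le_mul_of_nonneg_right ((hD b).spread Y3) (by positivity)
      have h3 : ∑ b, ind (Y1 ⊆ ({s.h (x b)} : Finset Ω).erase (s.h a)) ≤ n * ρh ^ Y1.card := by
        rcases Nat.lt_or_ge 1 Y1.card with h | h
        · refine le_trans (le_of_eq (Finset.sum_eq_zero fun b _ => ind_neg fun hs => ?_))
            (by positivity)
          have h4 : (({s.h (x b)} : Finset Ω).erase (s.h a)).card ≤ 1 :=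
            Finset.card_erase_le.trans (by simp)
          have := Finset.card_le_card hs
          omega
        · rcases Nat.le_one_iff_eq_zero_or_eq_one.1 h with h | h
          · rw [Finset.card_eq_zero.1 h]
            simp [ind_pos, hn]
          · obtain ⟨p, rfl⟩ := Finset.card_eq_one.1 h
            simp only [Finset.singleton_subset_iff, Finset.card_singleton, pow_one]
            rw [mul_comm]; exact hρh p
      rw [Fintype.sum_prod_type]
      calc _ ≤ ∑ b, ind (Y1 ⊆ ({s.h (x b)} : Finset Ω).erase (s.h a)) * (ρ + ρ') ^ Y2.card := by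
            refine Finset.sum_le_sum fun b _ => ?_
            have := mul_le_mul_of_nonneg_left (h2 b)
              (ind_nonneg (Y1 ⊆ ({s.h (x b)} : Finset Ω).erase (s.h a)))
            rw [one_mul, Finset.mul_sum] at this
            refine le_trans (le_of_eq ?_) this
            exact Finset.sum_congr rfl fun q _ => by ring
        _ ≤ n * (ρh ^ Y1.card * (ρ + ρ') ^ Y2.card) := by
            rw [← Finset.sum_mul, ← mul_assoc]
            exact mul_le_mul_of_nonneg_right h3 (by positivity)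

lemma one_hit {X κ : Type} [Fintype X] (w : X → ℝ) (hw : ∀ p, 0 ≤ w p) (h1 : ∑ p, w p = 1)
    (Q : Finset κ) (Ev : κ → X → Prop) {n : ℕ} {ε η η' : ℝ} (hε : 0 ≤ ε) (hη : 0 < η)
    (hn : 1 ≤ ε * η * n) (hη' : n * η' ≤ ε) :
    ∃ z : Fin n → X, (∀ l, w (z l) ≠ 0) ∧
      ∑ a ∈ Q, (ind (η ≤ ∑ p, w p * ind (Ev a p) ∧ ¬ ∃ l, Ev a (z l)) +
        ind (∑ p, w p * ind (Ev a p) < η' ∧ ∃ l, Ev a (z l))) ≤ 2 * ε * Q.card := by
  set P : (Fin n → X) → ℝ := fun z => ∏ l, w (z l) with hP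
  have hP0 : ∀ z, 0 ≤ P z := fun z => Finset.prod_nonneg fun l _ => hw _
  have hP1 : ∑ z, P z = 1 := sum_prod_one w h1
  have hmiss : ∀ a, ∑ z, P z * ind (¬ ∃ l, Ev a (z l)) = (1 - ∑ p, w p * ind (Ev a p)) ^ n := by
    intro a
    have := sum_prod_pi (fun (_ : Fin n) p => w p * ind (¬ Ev a p))
    simp only [Finset.prod_const, card_univ, Fintype.card_fin] at this
    have e : ∑ p, w p * ind (¬ Ev a p) = 1 - ∑ p, w p * ind (Ev a p) := by
      simp_rw [ind_not, mul_sub, mul_one, Finset.sum_sub_distrib, h1]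
    rw [← e, ← this]
    refine Finset.sum_congr rfl fun z _ => ?_
    rw [Finset.prod_mul_distrib]
    congr 1
    by_cases h : ∃ l, Ev a (z l)
    · rw [ind_neg (not_not.2 h)]
      obtain ⟨l, hl⟩ := h
      exact (Finset.prod_eq_zero (mem_univ l) (ind_neg (not_not.2 hl))).symm
    · rw [ind_pos h]
      exact (Finset.prod_eq_one fun l _ => ind_pos fun hl => h ⟨l, hl⟩).symm
  have hexp : ∑ z, P z * ∑ a ∈ Q, (ind (η ≤ ∑ p, w p * ind (Ev a p) ∧ ¬ ∃ l, Ev a (z l)) +
        ind (∑ p, w p * ind (Ev a p) < η' ∧ ∃ l, Ev a (z l))) ≤ 2 * ε * Q.card := by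
    simp_rw [Finset.mul_sum]
    rw [Finset.sum_comm]
    calc _ ≤ ∑ _a ∈ Q, 2 * ε := by
          refine Finset.sum_le_sum fun a _ => ?_
          simp_rw [mul_add]
          rw [Finset.sum_add_distrib]
          have hm := hmiss a
          set q := ∑ p, w p * ind (Ev a p) with hq
          have hq0 : 0 ≤ q := Finset.sum_nonneg fun p _ => mul_nonneg (hw p) (ind_nonneg _)
          have hq1 : q ≤ 1 := by
            rw [← h1]
            exact Finset.sum_le_sum fun p _ => mul_le_of_le_one_right (hw p) (ind_le_one _)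
          have a1 : ∑ z, P z * ind (η ≤ q ∧ ¬ ∃ l, Ev a (z l)) ≤ ε := by
            by_cases h : η ≤ q
            · simp only [h, true_and]
              rw [hm]
              have b1 : 1 + n * q ≤ (1 + q) ^ n := one_add_mul_le_pow (by linarith) n
              have b2 : (1 - q) ^ n * (1 + q) ^ n ≤ 1 := by
                rw [← mul_pow]
                exact pow_le_one₀ (by nlinarith) (by nlinarith)
              have b3 : 0 ≤ (1 - q) ^ n := pow_nonneg (by linarith) n
              have b4 : (0 : ℝ) ≤ n := Nat.cast_nonneg n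
              have b5 : 0 < η * n := by
                by_contra h0
                push Not at h0
                nlinarith
              have b6 : η * n ≤ (1 + q) ^ n := by nlinarith
              refine le_of_mul_le_mul_right ?_ b5
              nlinarith
            · simp only [h, false_and, ind_neg not_false, mul_zero, Finset.sum_const_zero]
              exact hε
          have a2 : ∑ z, P z * ind (q < η' ∧ ∃ l, Ev a (z l)) ≤ ε := by
            by_cases h : q < η'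
            · simp only [h, true_and]
              simp_rw [ind_not, mul_sub, mul_one, Finset.sum_sub_distrib, hP1] at hm
              have b1 : 1 + n * (-q) ≤ (1 + -q) ^ n := one_add_mul_le_pow (by linarith) n
              have b4 : (0 : ℝ) ≤ n := Nat.cast_nonneg n
              rw [← sub_eq_add_neg] at b1
              nlinarith
            · simp only [h, false_and, ind_neg not_false, mul_zero, Finset.sum_const_zero]
              exact hε
          linarith
      _ = 2 * ε * Q.card := by rw [Finset.sum_const, nsmul_eq_mul]; ring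
  obtain ⟨z, hz, hz'⟩ := exists_le_of_wsum_le P _ hP0 hP1 hexp
  exact ⟨z, fun l => Finset.prod_ne_zero_iff.1 hz.ne' l (mem_univ l), hz'⟩

theorem class_step {ι : Type} [Fintype ι] [DecidableEq ι] (x : ι → A) {k n : ℕ}
    {ρ ρ' ρh ρp θ ε η' : ℝ} (t : T) (Q J : Finset ι)
    (hJ : ∀ i, i ∈ J ↔ i ∈ Q ∧ s.Lev k ρ t (x i)) (hJne : J.Nonempty) (hk : k ≤ c)
    (hρ : τ ≤ ρ) (hθ0 : 0 < θ) (hθ : θ * 2 ^ (c + 1) * ρ ^ c ≤ τ ^ c) (hρ' : 8 * ρ ≤ θ * ρ')
    (hρh0 : 0 ≤ ρh)
    (hρh : ∀ a ∈ Q, ∀ p, ∑ b ∈ J, ind (p ∈ ({s.h (x b)} : Finset Ω).erase (s.h (x a))) ≤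
      ρh * J.card)
    (hε : 0 < ε) (hn : 1 ≤ ε * (ε * θ / 8) * n) (hη0 : 0 < η') (hη1 : η' ≤ 1) (hη' : n * η' ≤ ε)
    (hρp : ρh + (ρ + ρ') ≤ η' * ρp) :
    ∃ z : Fin n → ι × Finset Ω, (∀ l, (z l).2.card ≤ k) ∧
      ∑ a ∈ Q, (ind (s.Lev k ρ t (x a) ∧ ¬ ∃ l, s.E k ρ' (x a) (x (z l).1) (z l).2) +
        ind ((∃ l, s.E k ρ' (x a) (x (z l).1) (z l).2) ∧ ¬ s.Lev (2 * k + 1) ρp t (x a))) ≤
        3 * ε * Q.card := by
  classical
  have hτ := s.tau_pos
  have hρ0 : 0 < ρ := hτ.trans_le hρ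
  have hρ'0 : 0 < ρ' := by
    by_contra h
    push Not at h
    nlinarith
  have hex : ∀ i, ∃ D : Finset Ω → ℝ, i ∈ J → IsSpread (s.Ok k t (x i)) ρ D := fun i => by
    by_cases hi : i ∈ J
    · obtain ⟨D, hD⟩ := ((hJ i).1 hi).2
      exact ⟨D, fun _ => hD⟩
    · exact ⟨fun _ => 0, fun h => absurd h hi⟩
  choose D hD using hex
  have hJ0 : (0 : ℝ) < J.card := by exact_mod_cast hJne.card_pos
  set mass : ι → ℝ := fun a => ∑ b ∈ J, ∑ C, D b C * ind (s.E k ρ' (x a) (x b) C) with hmass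
  set w : J × Finset Ω → ℝ := fun p => D p.1 p.2 / J.card with hw
  have hw0 : ∀ p, 0 ≤ w p := fun p => div_nonneg ((hD _ p.1.2).nonneg _) hJ0.le
  have hw1 : ∑ p, w p = 1 := by
    rw [Fintype.sum_prod_type]
    have : ∀ b : J, ∑ C, w (b, C) = 1 / J.card := fun b => by
      simp only [hw, ← Finset.sum_div, (hD _ b.2).total]
    simp only [this]
    simp [hJ0.ne']
  have hwm : ∀ a, ∑ p, w p * ind (s.E k ρ' (x a) (x p.1) p.2) = mass a / J.card := fun a => by
    rw [Fintype.sum_prod_type, hmass]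
    simp only
    rw [← Finset.sum_coe_sort J, Finset.sum_div]
    refine Finset.sum_congr rfl fun b _ => ?_
    rw [Finset.sum_div]
    exact Finset.sum_congr rfl fun C _ => by simp only [hw]; ring
  obtain ⟨z, hz, hz'⟩ := one_hit w hw0 hw1 Q (fun a p => s.E k ρ' (x a) (x p.1) p.2) hε.le
    (by positivity : 0 < ε * θ / 8) hn hη'
  simp only [hwm] at hz'
  refine ⟨fun l => ((z l).1, (z l).2), fun l =>
    ((hD _ (z l).1.2).supp _ (div_ne_zero_iff.1 (hz l)).1).1, ?_⟩
  set B := J.filter fun a => mass a / J.card < ε * θ / 8 with hB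
  have hBc : (B.card : ℝ) ≤ ε * Q.card := by
    have hJQ : (J.card : ℝ) ≤ Q.card := by
      exact_mod_cast Finset.card_le_card fun i hi => ((hJ i).1 hi).1
    rcases B.eq_empty_or_nonempty with h | h
    · rw [h]; simp; positivity
    have : Nonempty B := h.to_subtype
    obtain ⟨a, ha⟩ := complete s (fun i : B => x i) (fun i => D i)
      (fun i => hD _ (Finset.mem_filter.1 i.2).1) hk hρ hθ0 hθ hρ'
    rw [Fintype.card_coe, Finset.sum_coe_sort B
      (fun b => ∑ C, D b C * ind (s.E k ρ' (x a) (x b) C))] at ha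
    have h2 : ∑ b ∈ B, ∑ C, D b C * ind (s.E k ρ' (x a) (x b) C) ≤ mass a :=
      Finset.sum_le_sum_of_subset_of_nonneg (Finset.filter_subset _ _) fun b hb _ =>
        Finset.sum_nonneg fun C _ => mul_nonneg ((hD b hb).nonneg C) (ind_nonneg _)
    have h3 := (Finset.mem_filter.1 a.2).2
    rw [div_lt_iff₀ hJ0] at h3
    have h4 : θ / 8 * B.card ≤ θ / 8 * (ε * Q.card) := by
      nlinarith [mul_le_mul_of_nonneg_left hJQ (mul_pos hε hθ0).le]
    exact le_of_mul_le_mul_left h4 (by positivity)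
  have hBs : ∑ a ∈ Q, ind (a ∈ B) ≤ B.card := by
    rw [sum_ind_card]
    exact_mod_cast Finset.card_le_card fun a ha => (Finset.mem_filter.1 ha).2
  refine le_trans (Finset.sum_le_sum (g := fun a => ind (a ∈ B) +
    (ind (ε * θ / 8 ≤ mass a / J.card ∧ ¬ ∃ l, s.E k ρ' (x a) (x (z l).1) (z l).2) +
      ind (mass a / J.card < η' ∧ ∃ l, s.E k ρ' (x a) (x (z l).1) (z l).2))) fun a ha => ?_) ?_
  · have a1 : ind (s.Lev k ρ t (x a) ∧ ¬ ∃ l, s.E k ρ' (x a) (x (z l).1) (z l).2) ≤ ind (a ∈ B) +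
        ind (ε * θ / 8 ≤ mass a / J.card ∧ ¬ ∃ l, s.E k ρ' (x a) (x (z l).1) (z l).2) := by
      by_cases h : a ∈ B
      · rw [ind_pos h]
        linarith [ind_le_one (s.Lev k ρ t (x a) ∧ ¬ ∃ l, s.E k ρ' (x a) (x (z l).1) (z l).2),
          ind_nonneg (ε * θ / 8 ≤ mass a / J.card ∧ ¬ ∃ l, s.E k ρ' (x a) (x (z l).1) (z l).2)]
      · rw [ind_neg h, zero_add]
        refine ind_mono fun h' => ⟨?_, h'.2⟩
        by_contra hlt
        exact h (Finset.mem_filter.2 ⟨(hJ a).2 ⟨ha, h'.1⟩, not_le.1 hlt⟩)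
    have a2 : ind ((∃ l, s.E k ρ' (x a) (x (z l).1) (z l).2) ∧ ¬ s.Lev (2 * k + 1) ρp t (x a)) ≤
        ind (mass a / J.card < η' ∧ ∃ l, s.E k ρ' (x a) (x (z l).1) (z l).2) := by
      refine ind_mono fun h' => ⟨?_, h'.1⟩
      by_contra hge
      push Not at hge
      have : Nonempty J := hJne.to_subtype
      refine h'.2 (sound s (fun i : J => x i) (fun i => D i) (fun i => hD _ i.2) hk (x a) hρ0.le
        hρ'0.le hρh0 (fun p => ?_) hη0 hη1 ?_ hρp)
      · rw [Fintype.card_coe, Finset.sum_coe_sort J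
          (fun b => ind (p ∈ ({s.h (x b)} : Finset Ω).erase (s.h (x a))))]
        exact hρh a ha p
      · rw [Fintype.card_coe, Finset.sum_coe_sort J
          (fun b => ∑ C, D b C * ind (s.E k ρ' (x a) (x b) C))]
        rwa [le_div_iff₀ hJ0] at hge
    linarith
  · rw [Finset.sum_add_distrib]
    linarith

end Vale.Agent.P126
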