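import Vale.Agent.P126.Sample

namespace Vale.Agent.P126

open Finset

set_option linter.unusedSectionVars false

open Classical in
/-- Indicator of a proposition. -/
noncomputable def ind (P : Prop) : ℝ := if P then 1 else 0

lemma ind_pos {P : Prop} (h : P) : ind P = 1 := by simp [ind, h]
lemma ind_neg {P : Prop} (h : ¬P) : ind P = 0 := by simp [ind, h]
lemma ind_nonneg (P : Prop) : 0 ≤ ind P := by unfold ind; split_ifs <;> norm_num
lemma ind_le_one (P : Prop) : ind P ≤ 1 := by unfold ind; split_ifs <;> norm_num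
lemma ind_mono {P Q : Prop} (h : P → Q) : ind P ≤ ind Q := by
  by_cases hP : P
  · rw [ind_pos hP, ind_pos (h hP)]
  · rw [ind_neg hP]; exact ind_nonneg _
lemma ind_and (P Q : Prop) : ind (P ∧ Q) = ind P * ind Q := by
  by_cases hP : P <;> by_cases hQ : Q <;> simp [ind, hP, hQ]
lemma ind_not (P : Prop) : ind (¬P) = 1 - ind P := by
  by_cases hP : P <;> simp [ind, hP]
lemma of_ind_ne {P : Prop} (h : ind P ≠ 0) : P := by
  by_contra hP; exact h (ind_neg hP)
lemma sum_ind_eq {X : Type*} [Fintype X] (y : X) (g : X → ℝ) : ∑ x, ind (y = x) * g x = g y := by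
  rw [Finset.sum_eq_single y]
  · rw [ind_pos rfl, one_mul]
  · intro x _ hx; rw [ind_neg (Ne.symm hx), zero_mul]
  · simp
lemma sum_ind_card {X : Type*} (s : Finset X) (P : X → Prop) [DecidablePred P] :
    ∑ x ∈ s, ind (P x) = ((s.filter P).card : ℝ) := by
  rw [Finset.card_filter, Nat.cast_sum]
  refine Finset.sum_congr rfl fun x _ => ?_
  by_cases h : P x <;> simp [ind, h]
lemma ind_le_sum {X : Type*} {P : Prop} (s : Finset X) (Q : X → Prop) (h : P → ∃ x ∈ s, Q x) :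
    ind P ≤ ∑ x ∈ s, ind (Q x) := by
  by_cases hP : P
  · obtain ⟨x, hx, hQ⟩ := h hP
    rw [ind_pos hP, ← ind_pos hQ]
    exact Finset.single_le_sum (f := fun x => ind (Q x)) (fun _ _ => ind_nonneg _) hx
  · rw [ind_neg hP]; exact Finset.sum_nonneg fun _ _ => ind_nonneg _

variable {Ω : Type} [Fintype Ω] [DecidableEq Ω]

/-- A `ρ`-spread probability distribution supported on sets with property `P`. -/
structure IsSpread (P : Finset Ω → Prop) (ρ : ℝ) (D : Finset Ω → ℝ) : Prop where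
  nonneg : ∀ C, 0 ≤ D C
  total : ∑ C, D C = 1
  supp : ∀ C, D C ≠ 0 → P C
  spread : ∀ Y : Finset Ω, ∑ C, D C * ind (Y ⊆ C) ≤ ρ ^ Y.card

/-- Existence of a spread distribution. -/
def Spread (P : Finset Ω → Prop) (ρ : ℝ) : Prop := ∃ D, IsSpread P ρ D

lemma Spread.of_family {P : Finset Ω → Prop} {ρ : ℝ} {ι : Type} [Fintype ι] (ω : ι → ℝ)
    (S : ι → Finset Ω) (hω : ∀ i, 0 ≤ ω i) (hpos : 0 < ∑ i, ω i) (hP : ∀ i, ω i ≠ 0 → P (S i))
    (hY : ∀ Y : Finset Ω, Y.Nonempty → ∑ i, ω i * ind (Y ⊆ S i) ≤ (∑ i, ω i) * ρ ^ Y.card) :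
    Spread P ρ := by
  have key : ∀ g : Finset Ω → ℝ, ∑ C, ((∑ i, ω i * ind (S i = C)) / ∑ i, ω i) * g C =
      (∑ i, ω i * g (S i)) / ∑ i, ω i := fun g => by
    simp_rw [div_mul_eq_mul_div, ← Finset.sum_div, Finset.sum_mul]
    rw [Finset.sum_comm]
    congr 1
    refine Finset.sum_congr rfl fun i _ => ?_
    simp_rw [mul_assoc]
    rw [← Finset.mul_sum, sum_ind_eq]
  refine ⟨fun C => (∑ i, ω i * ind (S i = C)) / ∑ i, ω i, fun C => ?_, ?_, fun C hC => ?_,
    fun Y => ?_⟩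
  · exact div_nonneg (Finset.sum_nonneg fun i _ => mul_nonneg (hω i) (ind_nonneg _)) hpos.le
  · have := key fun _ => 1
    simp only [mul_one] at this
    rw [this, div_self hpos.ne']
  · obtain ⟨i, -, hi⟩ := Finset.exists_ne_zero_of_sum_ne_zero (div_ne_zero_iff.1 hC).1
    rw [← of_ind_ne (right_ne_zero_of_mul hi)]
    exact hP i (left_ne_zero_of_mul hi)
  · rw [key fun C => ind (Y ⊆ C), div_le_iff₀ hpos]
    rcases Y.eq_empty_or_nonempty with rfl | hY'
    · simp [ind_pos]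
    · rw [mul_comm]; exact hY Y hY'

lemma Spread.mono {P Q : Finset Ω → Prop} {ρ : ℝ} (h : Spread P ρ) (hPQ : ∀ C, P C → Q C) :
    Spread Q ρ := by
  obtain ⟨D, hD⟩ := h
  exact ⟨D, hD.nonneg, hD.total, fun C hC => hPQ C (hD.supp C hC), hD.spread⟩

lemma Spread.exists {P : Finset Ω → Prop} {ρ : ℝ} (h : Spread P ρ) : ∃ C, P C := by
  obtain ⟨D, hD⟩ := h
  obtain ⟨C, -, hC⟩ := Finset.exists_ne_zero_of_sum_ne_zero (s := univ) (f := D)
    (by rw [hD.total]; exact one_ne_zero)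
  exact ⟨C, hD.supp C hC⟩

lemma spread_empty {P : Finset Ω → Prop} {ρ : ℝ} (hρ : 0 ≤ ρ) (h : P ∅) : Spread P ρ := by
  refine Spread.of_family (ι := Unit) (fun _ => 1) (fun _ => ∅) (fun _ => zero_le_one) (by simp)
    (fun _ _ => h) fun Y hY => ?_
  have : ¬ Y ⊆ ∅ := by simpa using hY.ne_empty
  simp only [ind_neg this]
  simp; positivity

lemma core_exists {X : Type} [Fintype X] (w : X → ℝ) (S : X → Finset Ω) (hw : ∀ p, 0 ≤ w p)
    (h1 : ∑ p, w p = 1) {c : ℕ} (hc : ∀ p, w p ≠ 0 → (S p).card ≤ c) {τ : ℝ} (hτ : 0 ≤ τ) :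
    ∃ core : Finset Ω → Finset Ω, (∀ C, core C ⊆ C) ∧
      (∀ Y Y' : Finset Ω, Y'.Nonempty → Disjoint Y Y' →
        ∑ p, w p * ind (core (S p) = Y) * ind (Y' ⊆ S p) ≤ τ ^ Y.card * τ ^ Y'.card) ∧
      1 / 2 ≤ ∑ Y : Finset Ω, (∑ p, w p * ind (core (S p) = Y)) *
        ind (τ ^ Y.card ≤ 2 ^ (c + 1) * ∑ p, w p * ind (core (S p) = Y)) := by
  classical
  set M : Finset Ω → ℝ := fun Y => ∑ p, w p * ind (Y ⊆ S p) with hM
  have hM0 : ∀ Y, 0 ≤ M Y := fun Y => Finset.sum_nonneg fun p _ => mul_nonneg (hw p) (ind_nonneg _)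
  have hex : ∀ C : Finset Ω, ∃ Y, Y ⊆ C ∧ τ ^ Y.card ≤ M Y ∧
      ∀ Y', Y' ⊆ C → τ ^ Y'.card ≤ M Y' → Y'.card ≤ Y.card := fun C => by
    obtain ⟨Y, hY, hmax⟩ := Finset.exists_max_image (C.powerset.filter fun Y => τ ^ Y.card ≤ M Y)
      Finset.card ⟨∅, by simp [hM, ind_pos, h1]⟩
    rw [Finset.mem_filter, Finset.mem_powerset] at hY
    exact ⟨Y, hY.1, hY.2, fun Y' h1 h2 =>
      hmax Y' (Finset.mem_filter.2 ⟨Finset.mem_powerset.2 h1, h2⟩)⟩
  choose core hsub hheavy hmax using hex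
  refine ⟨core, hsub, fun Y Y' hY' hd => ?_, ?_⟩
  · rw [← pow_add, ← Finset.card_union_of_disjoint hd]
    by_cases hh : τ ^ (Y ∪ Y').card ≤ M (Y ∪ Y')
    · refine le_trans (le_of_eq (Finset.sum_eq_zero fun p _ => ?_)) (pow_nonneg hτ _)
      rw [mul_assoc, ← ind_and, ind_neg, mul_zero]
      rintro ⟨h1, h2⟩
      have h3 := hmax (S p) (Y ∪ Y') (Finset.union_subset (h1 ▸ hsub _) h2) hh
      rw [h1, Finset.card_union_of_disjoint hd] at h3
      have := hY'.card_pos
      omega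
    · refine le_trans (Finset.sum_le_sum fun p _ => ?_) (not_le.1 hh).le
      rw [mul_assoc, ← ind_and]
      refine mul_le_mul_of_nonneg_left (ind_mono ?_) (hw p)
      rintro ⟨h1, h2⟩
      exact Finset.union_subset (h1 ▸ hsub _) h2
  · set m : Finset Ω → ℝ := fun Y => ∑ p, w p * ind (core (S p) = Y) with hm
    have hm1 : ∑ Y, m Y = 1 := by
      simp only [hm]
      rw [Finset.sum_comm, ← h1]
      refine Finset.sum_congr rfl fun p _ => ?_
      have := sum_ind_eq (core (S p)) fun _ => (1 : ℝ)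
      simp only [mul_one] at this
      rw [← Finset.mul_sum, this, mul_one]
    have hMs : ∑ Y, M Y ≤ 2 ^ c := by
      simp only [hM]
      rw [Finset.sum_comm]
      calc ∑ p, ∑ Y, w p * ind (Y ⊆ S p) ≤ ∑ p, w p * 2 ^ c := by
            refine Finset.sum_le_sum fun p _ => ?_
            rw [← Finset.mul_sum]
            by_cases hp : w p = 0
            · simp [hp]
            refine mul_le_mul_of_nonneg_left ?_ (hw p)
            rw [sum_ind_card]
            have : (univ.filter fun Y => Y ⊆ S p) = (S p).powerset := by ext; simp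
            rw [this, Finset.card_powerset, Nat.cast_pow, Nat.cast_ofNat]
            exact pow_le_pow_right₀ one_le_two (hc p hp)
        _ = 2 ^ c := by rw [← Finset.sum_mul, h1, one_mul]
    have hbad : ∀ Y, 2 ^ (c + 1) * m Y - M Y ≤
        2 ^ (c + 1) * (m Y * ind (τ ^ Y.card ≤ 2 ^ (c + 1) * m Y)) := fun Y => by
      by_cases hg : τ ^ Y.card ≤ 2 ^ (c + 1) * m Y
      · rw [ind_pos hg, mul_one]; linarith [hM0 Y]
      · rw [ind_neg hg, mul_zero, mul_zero]
        by_cases hmY : m Y = 0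
        · rw [hmY]; linarith [hM0 Y]
        · obtain ⟨p, -, hp⟩ := Finset.exists_ne_zero_of_sum_ne_zero hmY
          have h2 := of_ind_ne (right_ne_zero_of_mul hp)
          have h3 := hheavy (S p)
          rw [h2] at h3
          linarith [not_le.1 hg]
    have h2 := Finset.sum_le_sum fun Y (_ : Y ∈ (univ : Finset (Finset Ω))) => hbad Y
    rw [Finset.sum_sub_distrib, ← Finset.mul_sum, ← Finset.mul_sum, hm1] at h2
    have h3 : (0 : ℝ) < 2 ^ (c + 1) := by positivity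
    refine le_of_mul_le_mul_left ?_ h3
    rw [pow_succ] at h2 ⊢
    linarith

end Vale.Agent.P126
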